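import Vale.Agent.Lib.P197.Final

/-!
# P197S: sharp multiplicativity, basic definitions and combinatorics of three-cycles

Blueprint: notes/P197S_blueprint.md, Sec 1.
-/

open Equiv Finset

namespace Vale.Agent.Lib.P197S

open Vale.Agent.Lib.P197

variable {n : ℕ}

/-- The number of three-cycles of `π`. -/
def c3 (π : Perm (Fin n)) : ℕ := π.cycleType.count 3

/-- The overlap sum `W = ∑_{t=1}^3 (6 K₁ / K)^t`. -/
noncomputable def ovW (K₁ : ℕ) (K : ℝ) : ℝ :=
  (6 * K₁ / K) + (6 * K₁ / K) ^ 2 + (6 * K₁ / K) ^ 3

/-- The relative error `η`. -/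
noncomputable def etaS (n K₁ : ℕ) (u K Γ : ℝ) : ℝ :=
  3 * K₁ / n + Γ ^ 2 * (u ^ 4 * (n / K)) * ovW K₁ K

/-- The bound of the sharp theorem. -/
noncomputable def Bd (u θ Γ : ℝ) (π : Perm (Fin n)) : ℝ :=
  Γ ^ sp π * u ^ rk π * θ ^ c3 π

/-- Hypotheses of the sharp theorem for a normalised character `r`. -/
structure SharpHyp (n K₁ : ℕ) (r : Perm (Fin n) → ℝ) (u K θ Γ : ℝ) : Prop where
  cm : ClassMult n r
  hn : 6 ≤ n
  hu0 : 0 < u
  hu1 : u ≤ 1
  hK : 0 < K
  hθ0 : 0 < θ
  hθ1 : θ ≤ 1
  hθ : u ^ 2 * θ = K / n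
  hΓ : 1 ≤ Γ
  h3 : ∀ x : Perm (Fin n), x.cycleType = {3} → |r x| ≤ K / n
  base : ∀ σ : Perm (Fin n), sp σ ≤ K₁ → |r σ| ≤ u ^ rk σ
  cond : 1 + Γ ^ 2 * (u ^ 4 * (n / K)) * ovW K₁ K ≤ Γ ^ 3 * (1 - 3 * K₁ / n)

/-- Cycle lengths are at least two, so twice the number of cycles is at most the support. -/
private theorem two_card_le_sum (π : Perm (Fin n)) :
    2 * Multiset.card π.cycleType ≤ π.cycleType.sum := by
  have h := Multiset.card_nsmul_le_sum (s := π.cycleType) (a := 2)
    (fun j hj => Perm.two_le_of_mem_cycleType hj)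
  simpa [mul_comm] using h

private theorem sp_eq_card' (x : Perm (Fin n)) : sp x = x.support.card := Perm.sum_cycleType x

/-- A permutation with a three-cycle splits off that cycle. -/
theorem exists_three_factor (π : Perm (Fin n)) (h : 1 ≤ c3 π) :
    ∃ x y : Perm (Fin n), x.cycleType = {3} ∧ π = x * y ∧ x.support ∩ y.support = ∅ := by
  have hmem : 3 ∈ π.cycleType := by
    rw [← Multiset.one_le_count_iff_mem]
    exact h
  rw [Perm.cycleType_def] at hmem
  obtain ⟨c, hc, hc3⟩ := Multiset.mem_map.1 hmem
  have hc' := Perm.mem_cycleFactorsFinset_iff.1 (Finset.mem_def.2 hc)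
  have hc3' : c.support.card = 3 := hc3
  refine ⟨c, c⁻¹ * π, ?_, by group, ?_⟩
  · rw [hc'.1.cycleType, hc3']
  · rw [Finset.eq_empty_iff_forall_notMem]
    intro z hz
    rw [mem_inter] at hz
    have h1 := hz.1
    have h2 := hc'.2 z h1
    have : (c⁻¹ * π) z = z := by
      rw [Perm.mul_apply, ← h2]
      simp
    exact (Perm.mem_support.1 hz.2) this

theorem sp_of_factor (x y : Perm (Fin n)) (hx : x.cycleType = {3})
    (h : x.support ∩ y.support = ∅) : sp (x * y) = 3 + sp y := by
  simp only [sp]
  rw [cycleType_mul_of_disjoint_support x y h, hx]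
  simp

theorem rk_of_factor (x y : Perm (Fin n)) (hx : x.cycleType = {3})
    (h : x.support ∩ y.support = ∅) : rk (x * y) = 2 + rk y := by
  have hy := two_card_le_sum y
  simp only [rk]
  rw [cycleType_mul_of_disjoint_support x y h, hx]
  simp only [Multiset.sum_add, Multiset.sum_singleton, Multiset.card_add, Multiset.card_singleton]
  omega

theorem c3_of_factor (x y : Perm (Fin n)) (hx : x.cycleType = {3})
    (h : x.support ∩ y.support = ∅) : c3 (x * y) = 1 + c3 y := by
  simp only [c3]
  rw [cycleType_mul_of_disjoint_support x y h, hx, Multiset.count_add]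
  simp

private theorem c3_cycle_le (σ : Perm (Fin n)) (hσ : σ.IsCycle) : c3 σ ≤ 1 := by
  simp only [c3]
  rw [hσ.cycleType]
  exact (Multiset.count_le_card _ _).trans (by simp)

private theorem c3_disj (σ τ : Perm (Fin n)) (h : σ.Disjoint τ) : c3 (σ * τ) = c3 σ + c3 τ := by
  simp only [c3]
  rw [h.cycleType_mul, Multiset.count_add]

private theorem inter_mul_card (x σ τ : Perm (Fin n)) (h : σ.Disjoint τ) :
    (x.support ∩ (σ * τ).support).card =
      (x.support ∩ σ.support).card + (x.support ∩ τ.support).card := by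
  have hd : Disjoint σ.support τ.support := Perm.disjoint_iff_disjoint_support.1 h
  rw [h.support_mul, Finset.inter_union_distrib_left, Finset.card_union_of_disjoint]
  exact Finset.disjoint_of_subset_left inter_subset_right
    (Finset.disjoint_of_subset_right inter_subset_right hd)

/-- Cycles of `y` not touched by `x` survive in `x * y`. -/
theorem c3_mul_ge (x y : Perm (Fin n)) : c3 y ≤ c3 (x * y) + (x.support ∩ y.support).card := by
  revert x
  refine Perm.cycle_induction_on (fun y : Perm (Fin n) => ∀ x : Perm (Fin n),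
    c3 y ≤ c3 (x * y) + (x.support ∩ y.support).card) y ?_ ?_ ?_
  · intro x
    simp [c3]
  · intro σ hσ x
    by_cases hd : x.support ∩ σ.support = ∅
    · have hc : c3 (x * σ) = c3 x + c3 σ := by
        simp only [c3]
        rw [cycleType_mul_of_disjoint_support x σ hd, Multiset.count_add]
      rw [hc, hd]
      simp
    · have h1 : 1 ≤ (x.support ∩ σ.support).card :=
        Finset.card_pos.2 (Finset.nonempty_iff_ne_empty.2 hd)
      have := c3_cycle_le σ hσ
      omega
  · intro σ τ hd hσ _ hτ x
    rw [c3_disj σ τ hd, inter_mul_card x σ τ hd]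
    by_cases hxσ : x.support ∩ σ.support = ∅
    · have hdx : x.Disjoint σ := by
        rw [Perm.disjoint_iff_disjoint_support]
        exact Finset.disjoint_iff_inter_eq_empty.2 hxσ
      have hcomm : x * (σ * τ) = σ * (x * τ) := by
        rw [← mul_assoc, hdx.commute.eq, mul_assoc]
      have hd2 : σ.Disjoint (x * τ) := hdx.symm.mul_right hd
      rw [hcomm, c3_disj σ (x * τ) hd2]
      have := hτ x
      rw [hxσ]
      simp only [Finset.card_empty]
      omega
    · have h1 : 1 ≤ (x.support ∩ σ.support).card :=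
        Finset.card_pos.2 (Finset.nonempty_iff_ne_empty.2 hxσ)
      have h2 := c3_cycle_le σ hσ
      have h3 := hτ (x * σ)
      have hsub : ((x * σ).support ∩ τ.support).card ≤ (x.support ∩ τ.support).card := by
        apply card_le_card
        intro z hz
        rw [mem_inter] at hz ⊢
        refine ⟨?_, hz.2⟩
        have hz1 := Perm.support_mul_le x σ hz.1
        rcases Finset.mem_union.1 hz1 with h | h
        · exact h
        · exact absurd hz.2 (Finset.disjoint_left.1 (Perm.disjoint_iff_disjoint_support.1 hd) h)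
      rw [mul_assoc] at h3
      omega

/-- The support of `x * y` for a three-cycle `x`. -/
theorem sp_three_mul_le (x y : Perm (Fin n)) (hx : x.cycleType = {3}) :
    sp (x * y) + (x.support ∩ y.support).card ≤ 3 + sp y := by
  have hcard : x.support.card = 3 := by
    rw [← Perm.sum_cycleType, hx]; simp
  rw [sp_eq_card', sp_eq_card']
  have h1 : (x * y).support.card ≤ (x.support ∪ y.support).card :=
    card_le_card (Perm.support_mul_le x y)
  have h2 := Finset.card_union_add_card_inter x.support y.support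
  omega

theorem sp_le_two_rk (π : Perm (Fin n)) : sp π ≤ 2 * rk π := by
  have := two_card_le_sum π
  simp only [sp, rk]
  omega

theorem rk_conj (g y : Perm (Fin n)) : rk (g * y * g⁻¹) = rk y := by
  simp only [rk, Perm.cycleType_conj]

theorem sp_conj (g y : Perm (Fin n)) : sp (g * y * g⁻¹) = sp y := by
  simp only [sp, Perm.cycleType_conj]

theorem c3_conj (g y : Perm (Fin n)) : c3 (g * y * g⁻¹) = c3 y := by
  simp only [c3, Perm.cycleType_conj]

end Vale.Agent.Lib.P197S
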