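import Vale.Agent.Lib.P197.Link
import Vale.Agent.Lib.P197S.Basic

/-!
# P197S: the branching rule at the level of the Frobenius sum (blueprint Sec 11)
-/

open Equiv Finset

namespace Vale.Agent.Lib.P197S

open Vale.Agent.Lib.P197

variable {n : ℕ}

/-- Extension of a permutation of `Fin n` to `Fin (n+1)`, fixing the last point. -/
def ext (π : Perm (Fin n)) : Perm (Fin (n + 1)) :=
  π.extendDomain (finSuccAboveEquiv (Fin.last n))

theorem ext_one : ext (1 : Perm (Fin n)) = 1 := by
  simp [ext]

theorem ext_last (π : Perm (Fin n)) : ext π (Fin.last n) = Fin.last n := by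
  unfold ext
  apply Perm.extendDomain_apply_not_subtype
  simp

theorem ext_castSucc (π : Perm (Fin n)) (x : Fin n) : ext π x.castSucc = (π x).castSucc := by
  unfold ext
  have h := Perm.extendDomain_apply_image π (finSuccAboveEquiv (Fin.last n)) x
  simpa [finSuccAboveEquiv_apply] using h

theorem cycleType_ext (π : Perm (Fin n)) : (ext π).cycleType = π.cycleType := by
  unfold ext
  exact Perm.cycleType_extendDomain (finSuccAboveEquiv (Fin.last n))

/-- The Frobenius sum for an arbitrary integer vector. -/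
def vecF (N : ℕ) (l : Fin N → ℤ) (π : Perm (Fin n)) : ℤ :=
  ∑ w : Perm (Fin N), ((Perm.sign w : ℤˣ) : ℤ) *
    (psi N (fun i => l i - (i : ℕ) + ((w i : Fin N) : ℕ)) π : ℤ)

theorem frobF_eq_vecF (N : ℕ) (μ : YoungDiagram) (π : Perm (Fin n)) :
    frobF N μ π = vecF N (fun i => (μ.rowLen (i : ℕ) : ℤ)) π := rfl

private theorem content_last {N : ℕ} (φ : Fin (n + 1) → Fin N) (i : Fin N) :
    (((univ.filter fun x => φ x = i).card : ℕ) : ℤ) =
      (((univ.filter fun x : Fin n => φ x.castSucc = i).card : ℕ) : ℤ) +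
        if i = φ (Fin.last n) then 1 else 0 := by
  classical
  rw [Finset.card_filter, Finset.card_filter, Fin.sum_univ_castSucc]
  push_cast
  congr 1
  by_cases h : i = φ (Fin.last n)
  · simp [h]
  · have h' : ¬ φ (Fin.last n) = i := fun e => h e.symm
    simp [h, h']

/-- Colour the fixed last point first. -/
theorem psi_ext (N : ℕ) (α : Fin N → ℤ) (π : Perm (Fin n)) :
    psi N α (ext π) = ∑ c : Fin N, psi N (fun i => α i - if i = c then 1 else 0) π := by
  classical
  unfold psi
  rw [Finset.card_eq_sum_card_fiberwise (f := fun φ : Fin (n + 1) → Fin N => φ (Fin.last n))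
    (t := univ) (fun _ _ => Finset.mem_coe.2 (mem_univ _))]
  refine sum_congr rfl fun c _ => ?_
  refine Finset.card_bij' (fun φ _ => fun x => φ x.castSucc) (fun φ' _ => Fin.snoc φ' c)
    ?_ ?_ ?_ ?_
  · intro φ hφ
    simp only [mem_filter, mem_univ, true_and] at hφ ⊢
    obtain ⟨⟨hinv, hcont⟩, hc⟩ := hφ
    refine ⟨fun x => ?_, fun i => ?_⟩
    · have h := hinv x.castSucc
      rwa [ext_castSucc] at h
    · have h := hcont i
      rw [content_last, hc] at h
      linarith
  · intro φ' hφ'
    simp only [mem_filter, mem_univ, true_and] at hφ' ⊢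
    obtain ⟨hinv, hcont⟩ := hφ'
    refine ⟨⟨fun x => ?_, fun i => ?_⟩, by simp⟩
    · refine Fin.lastCases ?_ (fun y => ?_) x
      · rw [ext_last]
      · rw [ext_castSucc]
        simpa using hinv y
    · rw [content_last]
      have h := hcont i
      simp only [Fin.snoc_castSucc, Fin.snoc_last]
      linarith
  · intro φ hφ
    simp only [mem_filter, mem_univ, true_and] at hφ
    funext x
    refine Fin.lastCases ?_ (fun y => ?_) x
    · simpa using hφ.2.symm
    · simp
  · intro φ' _
    funext x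
    simp

theorem vecF_ext (N : ℕ) (l : Fin N → ℤ) (π : Perm (Fin n)) :
    vecF N l (ext π) = ∑ c : Fin N, vecF N (fun i => l i - if i = c then 1 else 0) π := by
  classical
  unfold vecF
  rw [Finset.sum_comm]
  refine sum_congr rfl fun w _ => ?_
  rw [psi_ext]
  push_cast
  rw [Finset.mul_sum]
  refine sum_congr rfl fun c _ => ?_
  congr 3
  funext i
  ring

/-- Relabelling the colours. -/
theorem psi_comp_perm (N : ℕ) (α : Fin N → ℤ) (π : Perm (Fin n)) (t : Perm (Fin N)) :
    psi N (fun a => α (t a)) π = psi N α π := by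
  classical
  unfold psi
  refine Finset.card_bij' (fun φ _ => fun x => t (φ x)) (fun φ _ => fun x => t⁻¹ (φ x)) ?_ ?_ ?_ ?_
  · intro φ hφ
    simp only [mem_filter, mem_univ, true_and] at hφ ⊢
    refine ⟨fun x => ?_, fun i => ?_⟩
    · rw [hφ.1 x]
    · have h := hφ.2 (t⁻¹ i)
      rw [show t (t⁻¹ i) = i from by simp] at h
      rw [← h]
      congr 2
      ext x
      simp only [mem_filter, mem_univ, true_and]
      rw [Perm.eq_inv_iff_eq]
  · intro φ hφ
    simp only [mem_filter, mem_univ, true_and] at hφ ⊢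
    refine ⟨fun x => ?_, fun i => ?_⟩
    · rw [hφ.1 x]
    · rw [← hφ.2 (t i)]
      congr 2
      ext x
      simp only [mem_filter, mem_univ, true_and]
      rw [Perm.inv_eq_iff_eq]
  · intro φ _
    ext x
    simp
  · intro φ _
    ext x
    simp

/-- A tie gives zero: right multiply `w` by the transposition and relabel colours. -/
theorem vecF_tie (N : ℕ) (l : Fin N → ℤ) (π : Perm (Fin n)) (i j : Fin N) (hij : i ≠ j)
    (h : l i - (i : ℕ) = l j - (j : ℕ)) : vecF N l π = 0 := by
  classical
  unfold vecF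
  set t : Perm (Fin N) := swap i j with ht
  set f : Perm (Fin N) → ℤ := fun w => ((Perm.sign w : ℤˣ) : ℤ) *
    (psi N (fun a => l a - (a : ℕ) + ((w a : Fin N) : ℕ)) π : ℤ) with hf
  have hcomp : ∑ w, f w = ∑ w, f (w * t) :=
    (Equiv.sum_comp (Equiv.mulRight t) f).symm
  have hneg : ∀ w, f (w * t) = - f w := by
    intro w
    simp only [hf]
    have hsign : ((Perm.sign (w * t) : ℤˣ) : ℤ) = - ((Perm.sign w : ℤˣ) : ℤ) := by
      rw [Perm.sign_mul, ht, Perm.sign_swap hij]
      simp
    have hpsi : psi N (fun a => l a - (a : ℕ) + (((w * t) a : Fin N) : ℕ)) π =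
        psi N (fun a => l a - (a : ℕ) + ((w a : Fin N) : ℕ)) π := by
      rw [← psi_comp_perm N (fun a => l a - (a : ℕ) + ((w a : Fin N) : ℕ)) π t]
      congr 1
      funext a
      simp only [Perm.coe_mul, Function.comp_apply]
      by_cases hai : a = i
      · subst hai
        simp only [ht, swap_apply_left]
        omega
      · by_cases haj : a = j
        · subst haj
          simp only [ht, swap_apply_right]
          omega
        · simp only [ht, swap_apply_of_ne_of_ne hai haj]
    rw [hsign, hpsi]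
    ring
  have : ∑ w, f w = - ∑ w, f w := by
    conv_lhs => rw [hcomp]
    simp only [hneg, Finset.sum_neg_distrib]
  change ∑ w, f w = 0
  omega

/-- A negative content gives zero. -/
theorem vecF_neg (N : ℕ) (l : Fin N → ℤ) (π : Perm (Fin n)) (i : Fin N)
    (h : l i - (i : ℕ) + ((N : ℤ) - 1) < 0) : vecF N l π = 0 := by
  classical
  unfold vecF
  refine Finset.sum_eq_zero fun w _ => ?_
  have hpsi : psi N (fun a => l a - (a : ℕ) + ((w a : Fin N) : ℕ)) π = 0 := by
    unfold psi
    rw [Finset.card_eq_zero, Finset.filter_eq_empty_iff]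
    intro φ _ hφ
    have h1 := hφ.2 i
    dsimp only at h1
    have h2 : ((w i : Fin N) : ℕ) < N := (w i).2
    have h3 : (0 : ℤ) ≤ (((univ.filter fun x => φ x = i).card : ℕ) : ℤ) := by positivity
    omega
  rw [hpsi]
  simp

/-- Removing the last cell of row `c`, when it is a corner. -/
noncomputable def rmC (μ : YoungDiagram) (c : ℕ) : YoungDiagram :=
  if h : μ.rowLen (c + 1) < μ.rowLen c then
    { cells := μ.cells.erase (c, μ.rowLen c - 1)
      isLowerSet := by
        classical
        rintro ⟨a', b'⟩ ⟨a, b⟩ hle hmem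
        simp only [Finset.coe_erase, Set.mem_sdiff, Finset.mem_coe, YoungDiagram.mem_cells,
          Set.mem_singleton_iff, Prod.mk.injEq, not_and] at hmem ⊢
        obtain ⟨hm, hne⟩ := hmem
        have hle1 : a ≤ a' := hle.1
        have hle2 : b ≤ b' := hle.2
        refine ⟨μ.up_left_mem hle1 hle2 hm, ?_⟩
        intro hac hb
        subst hac
        have hlt : b' < μ.rowLen a' := YoungDiagram.mem_iff_lt_rowLen.mp hm
        have hac' : a' = a := by
          by_contra hne'
          have h1 : a + 1 ≤ a' := by omega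
          have h2 := μ.rowLen_anti _ _ h1
          omega
        subst hac'
        apply hne rfl
        omega }
  else μ

theorem rmC_of_lt (μ : YoungDiagram) (c : ℕ) (h : μ.rowLen (c + 1) < μ.rowLen c) :
    (rmC μ c).cells = μ.cells.erase (c, μ.rowLen c - 1) := by
  simp [rmC, h]

theorem mem_rmC_of_lt (μ : YoungDiagram) (c : ℕ) (h : μ.rowLen (c + 1) < μ.rowLen c) (i j : ℕ) :
    (i, j) ∈ rmC μ c ↔ (i, j) ∈ μ ∧ ¬ (i = c ∧ j = μ.rowLen c - 1) := by
  rw [← YoungDiagram.mem_cells, rmC_of_lt μ c h, Finset.mem_erase, YoungDiagram.mem_cells,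
    Ne, Prod.mk.injEq, and_comm]

theorem rowLen_rmC (μ : YoungDiagram) (c : ℕ) (h : μ.rowLen (c + 1) < μ.rowLen c) (i : ℕ) :
    (rmC μ c).rowLen i = if i = c then μ.rowLen i - 1 else μ.rowLen i := by
  apply eq_of_forall_lt_iff
  intro j
  rw [← YoungDiagram.mem_iff_lt_rowLen, mem_rmC_of_lt μ c h, YoungDiagram.mem_iff_lt_rowLen]
  by_cases hi : i = c
  · subst hi
    simp only [if_true, true_and]
    omega
  · simp [hi]

theorem card_rmC (μ : YoungDiagram) (c : ℕ) (h : μ.rowLen (c + 1) < μ.rowLen c) :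
    (rmC μ c).card + 1 = μ.card := by
  unfold YoungDiagram.card
  rw [rmC_of_lt μ c h, Finset.card_erase_add_one]
  rw [YoungDiagram.mem_cells, YoungDiagram.mem_iff_lt_rowLen]
  omega

theorem rmC_le (μ : YoungDiagram) (c : ℕ) (i j : ℕ) (h : (i, j) ∈ rmC μ c) : (i, j) ∈ μ := by
  by_cases hlt : μ.rowLen (c + 1) < μ.rowLen c
  · exact ((mem_rmC_of_lt μ c hlt i j).mp h).1
  · simpa [rmC, hlt] using h

theorem rowLen_rmC_le (μ : YoungDiagram) (c : ℕ) : (rmC μ c).rowLen 0 ≤ μ.rowLen 0 := by
  by_contra hne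
  have h1 : μ.rowLen 0 < (rmC μ c).rowLen 0 := by omega
  have h2 : (0, μ.rowLen 0) ∈ rmC μ c := YoungDiagram.mem_iff_lt_rowLen.mpr h1
  have h3 := YoungDiagram.mem_iff_lt_rowLen.mp (rmC_le μ c _ _ h2)
  omega

theorem colLen_rmC_le (μ : YoungDiagram) (c : ℕ) : (rmC μ c).colLen 0 ≤ μ.colLen 0 := by
  by_contra hne
  have h1 : μ.colLen 0 < (rmC μ c).colLen 0 := by omega
  have h2 : (μ.colLen 0, 0) ∈ rmC μ c := YoungDiagram.mem_iff_lt_colLen.mpr h1
  have h3 := YoungDiagram.mem_iff_lt_colLen.mp (rmC_le μ c _ _ h2)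
  omega

/-- **Branching.** The Frobenius sum at a permutation with the fixed last point is the sum over the
corners of the diagram. -/
theorem frobF_ext (N : ℕ) (μ : YoungDiagram) (hN : μ.colLen 0 ≤ N) (π : Perm (Fin n)) :
    frobF N μ (ext π) =
      ∑ c ∈ (univ.filter fun c : Fin N => μ.rowLen ((c : ℕ) + 1) < μ.rowLen (c : ℕ)),
        frobF N (rmC μ (c : ℕ)) π := by
  classical
  rw [frobF_eq_vecF, vecF_ext, Finset.sum_filter]
  refine Finset.sum_congr rfl fun c _ => ?_
  split_ifs with hc
  · rw [frobF_eq_vecF]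
    congr 1
    funext i
    rw [rowLen_rmC μ (c : ℕ) hc (i : ℕ)]
    by_cases hic : i = c
    · subst hic
      have : 1 ≤ μ.rowLen (i : ℕ) := by omega
      simp only [if_true]
      omega
    · have hic' : ¬ ((i : ℕ) = (c : ℕ)) := fun h => hic (Fin.ext h)
      simp [hic, hic']
  · have hanti := μ.rowLen_anti (c : ℕ) ((c : ℕ) + 1) (Nat.le_succ _)
    have heq : μ.rowLen ((c : ℕ) + 1) = μ.rowLen (c : ℕ) := by omega
    by_cases hc1 : (c : ℕ) + 1 < N
    · refine vecF_tie N _ π c ⟨(c : ℕ) + 1, hc1⟩ ?_ ?_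
      · intro h
        have := congrArg Fin.val h
        simp at this
      · have hne : (⟨(c : ℕ) + 1, hc1⟩ : Fin N) ≠ c := by
          intro h
          have := congrArg Fin.val h
          simp at this
        simp only [if_true, if_neg hne]
        push_cast
        omega
    · have hcN : (c : ℕ) + 1 = N := by have := c.2; omega
      have hzero : μ.rowLen ((c : ℕ) + 1) = 0 := by
        by_contra hpos
        have h1 : 0 < μ.rowLen ((c : ℕ) + 1) := by omega
        have h2 : ((c : ℕ) + 1, 0) ∈ μ := YoungDiagram.mem_iff_lt_rowLen.mpr h1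
        have h3 := YoungDiagram.mem_iff_lt_colLen.mp h2
        omega
      refine vecF_neg N _ π c ?_
      simp only [if_true]
      omega

end Vale.Agent.Lib.P197S
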