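import Vale.Agent.Lib.P197S.Basic

/-!
# P197S: small support with a cycle of length at least five (blueprint Sec 6)
-/

open Equiv Finset

namespace Vale.Agent.Lib.P197S

open Vale.Agent.Lib.P197

variable {n : ℕ}

/-- The weights of Sec 6. -/
private noncomputable def wS (v W3 : ℝ) (j : ℕ) : ℝ :=
  if j = 3 then W3 else if Odd j ∧ 5 ≤ j then v ^ (j - 1) else 0

private lemma wS_nonneg {v W3 : ℝ} (hv : 0 ≤ v) (hW : 0 ≤ W3) (j : ℕ) : 0 ≤ wS v W3 j := by
  unfold wS
  split_ifs <;> first | exact hW | positivity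

private lemma prod_wS (v T : ℝ) (s : Multiset ℕ) (hs : ∀ j ∈ s, Odd j ∧ 3 ≤ j) :
    Multiset.card s ≤ s.sum ∧
      (s.map (wS v (v ^ 2 * T))).prod = v ^ (s.sum - Multiset.card s) * T ^ s.count 3 := by
  induction s using Multiset.induction_on with
  | empty => simp
  | cons a t ih =>
    have ha := hs a (Multiset.mem_cons_self a t)
    obtain ⟨h1, h2⟩ := ih (fun j hj => hs j (Multiset.mem_cons_of_mem hj))
    refine ⟨by simp only [Multiset.card_cons, Multiset.sum_cons]; omega, ?_⟩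
    simp only [Multiset.map_cons, Multiset.prod_cons, Multiset.sum_cons, Multiset.card_cons, h2]
    by_cases h3 : a = 3
    · subst h3
      have e : 3 + t.sum - (Multiset.card t + 1) = 2 + (t.sum - Multiset.card t) := by omega
      rw [e, Multiset.count_cons_self, pow_add, pow_succ]
      simp only [wS, if_true]
      ring
    · have h5 : 5 ≤ a := by
        obtain ⟨hodd, h3'⟩ := ha
        obtain ⟨i, rfl⟩ := hodd
        omega
      have e : a + t.sum - (Multiset.card t + 1) = (a - 1) + (t.sum - Multiset.card t) := by omega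
      rw [e, Multiset.count_cons_of_ne (Ne.symm h3), pow_add]
      simp only [wS, if_neg h3, if_pos (And.intro ha.1 h5)]
      ring

private lemma geom_aux {a : ℝ} (h0 : 0 ≤ a) (h1 : a ≤ 1 / 2) (N : ℕ) (hN : 4 ≤ N) :
    ∑ j ∈ Icc 5 N, a ^ (j - 1) ≤ 2 * a ^ 4 - 2 * a ^ N := by
  induction N, hN using Nat.le_induction with
  | base => simp
  | succ N hN ih =>
    rw [Finset.sum_Icc_succ_top (by omega)]
    have e : N + 1 - 1 = N := by omega
    rw [e]
    have hp : 0 ≤ a ^ N := by positivity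
    have : 2 * a ^ (N + 1) ≤ a ^ N := by
      rw [pow_succ]
      nlinarith
    linarith

open scoped Classical in
/-- With `v = uρ² uν`, `w₃ = (uρ² θρ)² (uν² θν)`, `y = n³/3 * w₃`. -/
theorem five_sharp (K₁ : ℕ) (hn : 5 ≤ n) (rho nu : Perm (Fin n) → ℝ)
    (heven : ∀ π : Perm (Fin n), (∃ j ∈ π.cycleType, Even j) → rho π = 0)
    (uρ θρ uν θν Γ : ℝ) (huρ : 0 < uρ) (hθρ : 0 < θρ) (huν : 0 < uν) (hθν : 0 < θν) (hΓ : 1 ≤ Γ)
    (hΓ2 : Γ ^ (3 * K₁) ≤ 2)
    (hv : (n : ℝ) * (uρ ^ 2 * uν) ≤ 1 / 2)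
    (hρ : ∀ π : Perm (Fin n), sp π ≤ K₁ → |rho π| ≤ Bd uρ θρ Γ π)
    (hν : ∀ π : Perm (Fin n), sp π ≤ K₁ → |nu π| ≤ Bd uν θν Γ π) :
    ∑ π ∈ (univ.filter fun π : Perm (Fin n) => sp π ≤ K₁ ∧ ∃ j ∈ π.cycleType, 5 ≤ j),
        rho π ^ 2 * |nu π| ≤
      2 * (2 * n * ((n : ℝ) * (uρ ^ 2 * uν)) ^ 4) *
        Real.exp ((n : ℝ) ^ 3 / 3 * ((uρ ^ 2 * θρ) ^ 2 * (uν ^ 2 * θν)) +
          2 * n * ((n : ℝ) * (uρ ^ 2 * uν)) ^ 4) := by
  set v : ℝ := uρ ^ 2 * uν with hvdef
  set T : ℝ := θρ ^ 2 * θν with hTdef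
  set W3 : ℝ := (uρ ^ 2 * θρ) ^ 2 * (uν ^ 2 * θν) with hW3def
  have hW3 : W3 = v ^ 2 * T := by
    rw [hW3def, hvdef, hTdef]
    ring
  have hv0 : 0 < v := by positivity
  have hT0 : 0 < T := by positivity
  have hW0 : 0 ≤ W3 := by positivity
  have hnR : (5 : ℝ) ≤ n := by exact_mod_cast hn
  have hn0 : (0 : ℝ) < n := by linarith
  set a : ℝ := (n : ℝ) * v with hadef
  have ha0 : 0 ≤ a := by positivity
  set w := wS v W3 with hw
  have hw0 : ∀ j, 0 ≤ w j := wS_nonneg hv0.le hW0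
  have hprod0 : ∀ π : Perm (Fin n), 0 ≤ (π.cycleType.map w).prod := by
    intro π
    refine Multiset.prod_nonneg (fun x hx => ?_)
    obtain ⟨j, _, rfl⟩ := Multiset.mem_map.1 hx
    exact hw0 j
  -- a single permutation
  have hone : ∀ π : Perm (Fin n), sp π ≤ K₁ →
      rho π ^ 2 * |nu π| ≤ 2 * (π.cycleType.map w).prod := by
    intro π hsp
    by_cases hev : ∃ j ∈ π.cycleType, Even j
    · rw [heven π hev]
      have := hprod0 π
      simp only [ne_eq, OfNat.ofNat_ne_zero, not_false_eq_true, zero_pow, zero_mul]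
      linarith
    · have hodd : ∀ j ∈ π.cycleType, Odd j ∧ 3 ≤ j := by
        intro j hj
        have h2 := Equiv.Perm.two_le_of_mem_cycleType hj
        have ho : Odd j := by
          by_contra h
          exact hev ⟨j, hj, Nat.not_odd_iff_even.1 h⟩
        refine ⟨ho, ?_⟩
        obtain ⟨i, rfl⟩ := ho
        omega
      have hp := (prod_wS v T π.cycleType hodd).2
      rw [← hW3] at hp
      have hB1 : 0 ≤ Bd uρ θρ Γ π := by
        unfold Bd
        have : 0 < Γ := by linarith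
        positivity
      have hB2 : 0 ≤ Bd uν θν Γ π := by
        unfold Bd
        have : 0 < Γ := by linarith
        positivity
      have h1 : rho π ^ 2 ≤ Bd uρ θρ Γ π ^ 2 := by
        rw [← sq_abs]
        exact pow_le_pow_left₀ (abs_nonneg _) (hρ π hsp) 2
      have hΓpow : Γ ^ (3 * sp π) ≤ 2 :=
        (pow_le_pow_right₀ hΓ (by omega)).trans hΓ2
      have hkey : Bd uρ θρ Γ π ^ 2 * Bd uν θν Γ π =
          Γ ^ (3 * sp π) * (v ^ rk π * T ^ c3 π) := by
        unfold Bd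
        rw [hvdef, hTdef]
        have : (3 : ℕ) * sp π = sp π + sp π + sp π := by ring
        rw [this, pow_add, pow_add]
        rw [mul_pow, mul_pow]
        rw [← pow_mul, ← pow_mul]
        ring
      have hR : v ^ rk π * T ^ c3 π = (π.cycleType.map w).prod := by
        rw [hw, hp]
        rfl
      calc rho π ^ 2 * |nu π| ≤ Bd uρ θρ Γ π ^ 2 * Bd uν θν Γ π :=
            mul_le_mul h1 (hν π hsp) (abs_nonneg _) (by positivity)
        _ = Γ ^ (3 * sp π) * (π.cycleType.map w).prod := by rw [hkey, hR]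
        _ ≤ 2 * (π.cycleType.map w).prod :=
            mul_le_mul_of_nonneg_right hΓpow (hprod0 π)
  -- the sum over lengths at least five
  have hterm5 : ∀ j ∈ Icc 5 n, ((n : ℝ) ^ j / j) * w j ≤ n * a ^ (j - 1) := by
    intro j hj
    rw [mem_Icc] at hj
    obtain ⟨i, rfl⟩ : ∃ i, j = i + 1 := ⟨j - 1, by omega⟩
    simp only [Nat.add_sub_cancel]
    have hne : i + 1 ≠ 3 := by omega
    by_cases ho : Odd (i + 1)
    · have hwj : w (i + 1) = v ^ i := by
        simp only [hw, wS, if_neg hne, if_pos (And.intro ho hj.1), Nat.add_sub_cancel]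
      rw [hwj]
      have hj1 : (1 : ℝ) ≤ ((i + 1 : ℕ) : ℝ) := by
        exact_mod_cast (by omega : 1 ≤ i + 1)
      have e : (n : ℝ) ^ (i + 1) / ((i + 1 : ℕ) : ℝ) * v ^ i =
          ((n : ℝ) * a ^ i) / ((i + 1 : ℕ) : ℝ) := by
        rw [hadef, mul_pow, pow_succ]
        ring
      rw [e]
      exact div_le_self (by positivity) hj1
    · have hwj : w (i + 1) = 0 := by
        simp only [hw, wS, if_neg hne, if_neg (fun h : Odd (i + 1) ∧ 5 ≤ i + 1 => ho h.1)]
      rw [hwj, mul_zero]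
      positivity
  have hs : ∑ j ∈ Icc 5 n, ((n : ℝ) ^ j / j) * w j ≤ 2 * n * a ^ 4 := by
    calc ∑ j ∈ Icc 5 n, ((n : ℝ) ^ j / j) * w j ≤ ∑ j ∈ Icc 5 n, n * a ^ (j - 1) :=
          Finset.sum_le_sum hterm5
      _ = n * ∑ j ∈ Icc 5 n, a ^ (j - 1) := by rw [Finset.mul_sum]
      _ ≤ n * (2 * a ^ 4) := by
          refine mul_le_mul_of_nonneg_left ?_ hn0.le
          have := geom_aux ha0 hv n (by omega)
          have hp : 0 ≤ a ^ n := by positivity
          linarith
      _ = 2 * n * a ^ 4 := by ring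
  have hs2 : ∑ j ∈ Icc 2 n, ((n : ℝ) ^ j / j) * w j ≤
      (n : ℝ) ^ 3 / 3 * W3 + 2 * n * a ^ 4 := by
    have hset : Icc 2 n = ({2, 3, 4} : Finset ℕ) ∪ Icc 5 n := by
      ext j
      simp only [mem_Icc, mem_union, mem_insert, mem_singleton]
      omega
    have hdisj : Disjoint ({2, 3, 4} : Finset ℕ) (Icc 5 n) := by
      rw [Finset.disjoint_left]
      intro j hj hj'
      simp only [mem_insert, mem_singleton] at hj
      rw [mem_Icc] at hj'
      omega
    rw [hset, Finset.sum_union hdisj]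
    have h2 : w 2 = 0 := by
      simp only [hw, wS]
      rw [if_neg (by norm_num), if_neg (by rintro ⟨h, _⟩; exact absurd h (by decide))]
    have h3 : w 3 = W3 := by
      simp only [hw, wS, if_true]
    have h4 : w 4 = 0 := by
      simp only [hw, wS]
      rw [if_neg (by norm_num), if_neg (by rintro ⟨h, _⟩; exact absurd h (by decide))]
    have e : ∑ j ∈ ({2, 3, 4} : Finset ℕ), ((n : ℝ) ^ j / j) * w j = (n : ℝ) ^ 3 / 3 * W3 := by
      rw [Finset.sum_insert (by simp), Finset.sum_insert (by simp), Finset.sum_singleton,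
        h2, h3, h4]
      push_cast
      ring
    rw [e]
    linarith
  have hmain := exp_sum_five (n := n) w hw0
  calc ∑ π ∈ (univ.filter fun π : Perm (Fin n) => sp π ≤ K₁ ∧ ∃ j ∈ π.cycleType, 5 ≤ j),
        rho π ^ 2 * |nu π|
      ≤ ∑ π ∈ (univ.filter fun π : Perm (Fin n) => sp π ≤ K₁ ∧ ∃ j ∈ π.cycleType, 5 ≤ j),
          2 * (π.cycleType.map w).prod := by
        refine Finset.sum_le_sum (fun π hπ => ?_)
        rw [mem_filter] at hπ
        exact hone π hπ.2.1
    _ ≤ ∑ π ∈ (univ.filter fun π : Perm (Fin n) => ∃ j ∈ π.cycleType, 5 ≤ j),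
          2 * (π.cycleType.map w).prod := by
        refine Finset.sum_le_sum_of_subset_of_nonneg ?_
          (fun π _ _ => mul_nonneg (by norm_num) (hprod0 π))
        intro π hπ
        rw [mem_filter] at hπ ⊢
        exact ⟨hπ.1, hπ.2.2⟩
    _ = 2 * ∑ π ∈ (univ.filter fun π : Perm (Fin n) => ∃ j ∈ π.cycleType, 5 ≤ j),
          (π.cycleType.map w).prod := by rw [Finset.mul_sum]
    _ ≤ 2 * ((∑ j ∈ Icc 5 n, ((n : ℝ) ^ j / j) * w j) *
          Real.exp (∑ j ∈ Icc 2 n, ((n : ℝ) ^ j / j) * w j)) :=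
        mul_le_mul_of_nonneg_left hmain (by norm_num)
    _ ≤ 2 * ((2 * n * a ^ 4) * Real.exp ((n : ℝ) ^ 3 / 3 * W3 + 2 * n * a ^ 4)) := by
        refine mul_le_mul_of_nonneg_left ?_ (by norm_num)
        exact mul_le_mul hs (Real.exp_le_exp.2 hs2) (Real.exp_pos _).le (by positivity)
    _ = 2 * (2 * n * a ^ 4) * Real.exp ((n : ℝ) ^ 3 / 3 * W3 + 2 * n * a ^ 4) := by ring

end Vale.Agent.Lib.P197S
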