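import Vale.Agent.Lib.P197S.Basic

/-!
# P197S: the sum over the classes `3^m` (blueprint Sec 5)
-/

open Equiv Finset

namespace Vale.Agent.Lib.P197S

open Vale.Agent.Lib.P197

variable {n : ℕ}

/-- The ratio `n! / ((n-k)! n^k)` is close to one. -/
private lemma theta_bounds' {n k : ℕ} (hk : k ≤ n) (hn : 0 < n) :
    1 - (k : ℝ) ^ 2 / n ≤ ((n.factorial : ℕ) : ℝ) / ((((n - k).factorial : ℕ) : ℝ) * (n : ℝ) ^ k) ∧
      ((n.factorial : ℕ) : ℝ) / ((((n - k).factorial : ℕ) : ℝ) * (n : ℝ) ^ k) ≤ 1 := by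
  have hN0 : (0 : ℝ) < n := by exact_mod_cast hn
  have hf0 : (0 : ℝ) < ((n - k).factorial : ℝ) := by exact_mod_cast Nat.factorial_pos _
  have hfac : ((n.factorial : ℕ) : ℝ) = ((n - k).factorial : ℝ) * (n.descFactorial k : ℝ) := by
    exact_mod_cast (Nat.factorial_mul_descFactorial hk).symm
  have e : ((n.factorial : ℕ) : ℝ) / (((n - k).factorial : ℝ) * (n : ℝ) ^ k) =
      (n.descFactorial k : ℝ) / (n : ℝ) ^ k := by
    rw [hfac]; field_simp
  rw [e]
  constructor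
  · have h1 : (((n + 1 - k : ℕ) : ℝ)) ^ k ≤ (n.descFactorial k : ℝ) := by
      exact_mod_cast Nat.pow_sub_le_descFactorial n k
    rw [le_div_iff₀ (by positivity)]
    refine le_trans ?_ h1
    have hcast : ((n + 1 - k : ℕ) : ℝ) = (n : ℝ) * (1 + (-((k : ℝ) - 1) / n)) := by
      rw [Nat.cast_sub (by omega)]
      push_cast
      field_simp
      ring
    rw [hcast, mul_pow]
    have hkn : (k : ℝ) ≤ n := by exact_mod_cast hk
    have ha : (-2 : ℝ) ≤ -((k : ℝ) - 1) / n := by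
      rw [le_div_iff₀ hN0]
      nlinarith
    have hb := one_add_mul_le_pow ha k
    have hk0 : (0 : ℝ) ≤ k := Nat.cast_nonneg k
    have h3 : 1 - (k : ℝ) ^ 2 / n ≤ 1 + (k : ℝ) * (-((k : ℝ) - 1) / n) := by
      have : (k : ℝ) * (-((k : ℝ) - 1) / n) = -((k : ℝ) ^ 2 / n) + (k : ℝ) / n := by
        field_simp; ring
      rw [this]
      have : 0 ≤ (k : ℝ) / n := by positivity
      linarith
    have h4 := le_trans h3 hb
    calc (1 - (k : ℝ) ^ 2 / n) * (n : ℝ) ^ k ≤ (1 + (-((k : ℝ) - 1) / n)) ^ k * (n : ℝ) ^ k :=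
          mul_le_mul_of_nonneg_right h4 (by positivity)
      _ = _ := by ring
  · rw [div_le_one (by positivity)]
    exact_mod_cast Nat.descFactorial_le_pow n k

/-- The size of the class of type `3^m` (the part of `card_of_cycleType_mul_eq` which is needed). -/
private lemma class_card' (n m : ℕ) (hm : 3 * m ≤ n) :
    (((univ.filter fun π : Perm (Fin n) => π.cycleType = Multiset.replicate m 3).card : ℕ) : ℝ) *
      (((n - 3 * m).factorial : ℝ) * 3 ^ m * (m.factorial : ℝ)) = (n.factorial : ℝ) := by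
  have h := Perm.card_of_cycleType_mul_eq (Fin n) (Multiset.replicate m 3)
  have hs : (Multiset.replicate m 3).sum = 3 * m := by simp [mul_comm]
  have hcond : (Multiset.replicate m 3).sum ≤ Fintype.card (Fin n) ∧
      ∀ a ∈ Multiset.replicate m 3, 2 ≤ a := by
    refine ⟨by rw [hs, Fintype.card_fin]; exact hm, ?_⟩
    intro a ha
    rw [Multiset.eq_of_mem_replicate ha]
    omega
  rw [if_pos hcond, Fintype.card_fin, hs, Multiset.prod_replicate] at h
  have hprod : (∏ j ∈ (Multiset.replicate m 3).toFinset,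
      (Multiset.count j (Multiset.replicate m 3)).factorial) = m.factorial := by
    rw [Multiset.toFinset_replicate]
    by_cases hm0 : m = 0
    · simp [hm0]
    · simp [hm0]
  rw [hprod] at h
  exact_mod_cast h

/-- The size of the class `3^m`, two-sided. -/
theorem class_size (m : ℕ) (hm : 3 * m ≤ n) :
    (1 - 9 * (m : ℝ) ^ 2 / n) * ((n : ℝ) ^ 3 / 3) ^ m / (m.factorial : ℝ) ≤
      (((univ.filter fun π : Perm (Fin n) => π.cycleType = Multiset.replicate m 3).card : ℕ) : ℝ) ∧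
    (((univ.filter fun π : Perm (Fin n) => π.cycleType = Multiset.replicate m 3).card : ℕ) : ℝ) ≤
      ((n : ℝ) ^ 3 / 3) ^ m / (m.factorial : ℝ) := by
  set C : ℝ := (((univ.filter fun π : Perm (Fin n) =>
    π.cycleType = Multiset.replicate m 3).card : ℕ) : ℝ) with hC
  have hcard : C * (((n - 3 * m).factorial : ℝ) * 3 ^ m * (m.factorial : ℝ)) = (n.factorial : ℝ) :=
    class_card' n m hm
  have hmf : (0 : ℝ) < (m.factorial : ℝ) := by exact_mod_cast Nat.factorial_pos m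
  have hf : (0 : ℝ) < ((n - 3 * m).factorial : ℝ) := by exact_mod_cast Nat.factorial_pos _
  have h3m : (0 : ℝ) < (3 : ℝ) ^ m := by positivity
  rcases Nat.eq_zero_or_pos n with hn0 | hn
  · subst hn0
    have hm0 : m = 0 := by omega
    subst hm0
    have hC1 : C = 1 := by
      simpa using hcard
    rw [hC1]
    simp
  have hN0 : (0 : ℝ) < n := by exact_mod_cast hn
  obtain ⟨h1, h2⟩ := theta_bounds' hm hn
  have hNk : (0 : ℝ) < (n : ℝ) ^ (3 * m) := by positivity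
  -- express `C` through `θ`
  have hθ : ((n.factorial : ℕ) : ℝ) / ((((n - 3 * m).factorial : ℕ) : ℝ) * (n : ℝ) ^ (3 * m)) *
      (((n : ℝ) ^ 3 / 3) ^ m / (m.factorial : ℝ)) = C := by
    rw [← hcard]
    have e : ((n : ℝ) ^ 3 / 3) ^ m = (n : ℝ) ^ (3 * m) / (3 : ℝ) ^ m := by
      rw [div_pow, ← pow_mul]
    rw [e]
    field_simp
  have hQ : 0 < ((n : ℝ) ^ 3 / 3) ^ m / (m.factorial : ℝ) := by positivity
  have hcastk : (((3 * m : ℕ) : ℝ)) ^ 2 = 9 * (m : ℝ) ^ 2 := by push_cast; ring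
  rw [hcastk] at h1
  constructor
  · rw [← hθ, mul_div_assoc]
    exact mul_le_mul_of_nonneg_right h1 hQ.le
  · rw [← hθ]
    calc _ ≤ 1 * (((n : ℝ) ^ 3 / 3) ^ m / (m.factorial : ℝ)) :=
          mul_le_mul_of_nonneg_right h2 hQ.le
      _ = _ := one_mul _

/-- The real-number comparison for one class. -/
private lemma term_bound {C Q ρ p ν b A T ε₁ ε₂ : ℝ} (hQ : 0 ≤ Q) (hA : 0 ≤ A) (hT : 0 ≤ T)
    (hε₁ : 0 ≤ ε₁) (hε₁' : ε₁ ≤ 1 / 10) (hε₂ : 0 ≤ ε₂)
    (hC : |C - Q| ≤ ε₂ * Q) (hpA : |p| = A) (hρ : |ρ - p| ≤ ε₁ * A)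
    (hbT : |b| ≤ T) (hν : |ν - b| ≤ ε₁ * T) :
    |C * (ρ ^ 2 * ν) - Q * (p ^ 2 * b)| ≤ (2 * ε₂ + 5 * ε₁) * (Q * (A ^ 2 * T)) := by
  have hρ1 : |ρ| ≤ 11 / 10 * A := by
    have h := abs_sub_abs_le_abs_sub ρ p
    have hA' : ε₁ * A ≤ 1 / 10 * A := mul_le_mul_of_nonneg_right hε₁' hA
    rw [hpA] at h
    linarith
  have hν1 : |ν| ≤ 11 / 10 * T := by
    have h := abs_sub_abs_le_abs_sub ν b
    have hT' : ε₁ * T ≤ 1 / 10 * T := mul_le_mul_of_nonneg_right hε₁' hT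
    linarith
  have hρν : |ρ ^ 2 * ν| ≤ (11 / 10 * A) ^ 2 * (11 / 10 * T) := by
    rw [abs_mul, abs_pow]
    exact mul_le_mul (pow_le_pow_left₀ (abs_nonneg _) hρ1 2) hν1 (abs_nonneg _) (by positivity)
  have e : C * (ρ ^ 2 * ν) - Q * (p ^ 2 * b) =
      (C - Q) * (ρ ^ 2 * ν) + Q * ((ρ - p) * (ρ + p) * ν) + Q * (p ^ 2 * (ν - b)) := by ring
  rw [e]
  have t1 : |(C - Q) * (ρ ^ 2 * ν)| ≤ ε₂ * Q * ((11 / 10 * A) ^ 2 * (11 / 10 * T)) := by
    rw [abs_mul]
    exact mul_le_mul hC hρν (abs_nonneg _) (by positivity)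
  have hsum : |ρ + p| ≤ 21 / 10 * A := by
    refine le_trans (abs_add_le _ _) ?_
    rw [hpA]; linarith
  have t2 : |Q * ((ρ - p) * (ρ + p) * ν)| ≤ Q * (ε₁ * A * (21 / 10 * A) * (11 / 10 * T)) := by
    rw [abs_mul, abs_of_nonneg hQ, abs_mul, abs_mul]
    refine mul_le_mul_of_nonneg_left ?_ hQ
    exact mul_le_mul (mul_le_mul hρ hsum (abs_nonneg _) (by positivity)) hν1 (abs_nonneg _)
      (by positivity)
  have t3 : |Q * (p ^ 2 * (ν - b))| ≤ Q * (A ^ 2 * (ε₁ * T)) := by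
    rw [abs_mul, abs_of_nonneg hQ, abs_mul, abs_pow, hpA]
    refine mul_le_mul_of_nonneg_left ?_ hQ
    exact mul_le_mul_of_nonneg_left hν (by positivity)
  have tot := le_trans (abs_add_le _ _) (add_le_add (le_trans (abs_add_le _ _) (add_le_add t1 t2)) t3)
  refine le_trans tot ?_
  have hX : 0 ≤ Q * (A ^ 2 * T) := by positivity
  have hfin : ε₂ * Q * ((11 / 10 * A) ^ 2 * (11 / 10 * T)) +
      Q * (ε₁ * A * (21 / 10 * A) * (11 / 10 * T)) + Q * (A ^ 2 * (ε₁ * T)) =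
      (1331 / 1000 * ε₂ + 331 / 100 * ε₁) * (Q * (A ^ 2 * T)) := by ring
  rw [hfin]
  refine mul_le_mul_of_nonneg_right ?_ hX
  linarith

/-- The main part. `α, β` are the values at a three-cycle, `K / n ≥ |β|`. -/
theorem main_lower (M : ℕ) (hM : 3 * M ≤ n) (hn : 0 < n) (rho nu : Perm (Fin n) → ℝ)
    (hcr : ∀ π σ : Perm (Fin n), π.cycleType = σ.cycleType → rho π = rho σ)
    (hcn : ∀ π σ : Perm (Fin n), π.cycleType = σ.cycleType → nu π = nu σ)
    (α β K ε₁ ε₂ : ℝ) (hK : 0 ≤ K) (hβ : |β| ≤ K / n) (hε₁ : 0 ≤ ε₁) (hε₁' : ε₁ ≤ 1 / 10)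
    (hε₂ : 9 * (M : ℝ) ^ 2 / n ≤ ε₂) (hε₂' : ε₂ ≤ 1 / 10)
    (hρ : ∀ m ≤ M, ∀ π : Perm (Fin n), π.cycleType = Multiset.replicate m 3 →
      |rho π - α ^ m| ≤ ε₁ * |α| ^ m)
    (hν : ∀ m ≤ M, ∀ π : Perm (Fin n), π.cycleType = Multiset.replicate m 3 →
      |nu π - β ^ m| ≤ ε₁ * (K / n) ^ m) :
    ∑ m ∈ range (M + 1), ((n : ℝ) ^ 3 / 3 * α ^ 2 * β) ^ m / (m.factorial : ℝ) -
        (2 * ε₂ + 5 * ε₁) * Real.exp ((n : ℝ) ^ 3 / 3 * α ^ 2 * (K / n)) ≤
      ∑ m ∈ range (M + 1),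
        ∑ π ∈ (univ.filter fun π : Perm (Fin n) => π.cycleType = Multiset.replicate m 3),
          rho π ^ 2 * nu π := by
  have hN0 : (0 : ℝ) < n := by exact_mod_cast hn
  have hε₂0 : 0 ≤ ε₂ := le_trans (by positivity) hε₂
  set y : ℝ := (n : ℝ) ^ 3 / 3 * α ^ 2 * (K / n) with hy
  have hy0 : 0 ≤ y := by positivity
  -- bound for each class
  have key : ∀ m ∈ range (M + 1),
      ((n : ℝ) ^ 3 / 3 * α ^ 2 * β) ^ m / (m.factorial : ℝ) -
        (2 * ε₂ + 5 * ε₁) * (y ^ m / (m.factorial : ℝ)) ≤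
      ∑ π ∈ (univ.filter fun π : Perm (Fin n) => π.cycleType = Multiset.replicate m 3),
          rho π ^ 2 * nu π := by
    intro m hm
    have hmM : m ≤ M := by simpa [Nat.lt_succ_iff] using hm
    have h3m : 3 * m ≤ n := by omega
    have hcard := class_card' n m h3m
    have hfn0 : (0 : ℝ) < (n.factorial : ℝ) := by exact_mod_cast Nat.factorial_pos n
    -- a representative of the class
    have hne : (univ.filter fun π : Perm (Fin n) =>
        π.cycleType = Multiset.replicate m 3).Nonempty := by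
      rw [nonempty_iff_ne_empty]
      intro h
      rw [h] at hcard
      simp at hcard
      exact (Nat.factorial_pos n).ne' (by exact_mod_cast hcard.symm)
    obtain ⟨π₀, hπ₀⟩ := hne
    have hπ₀' : π₀.cycleType = Multiset.replicate m 3 := (mem_filter.1 hπ₀).2
    have hsum : ∑ π ∈ (univ.filter fun π : Perm (Fin n) => π.cycleType = Multiset.replicate m 3),
        rho π ^ 2 * nu π = (((univ.filter fun π : Perm (Fin n) =>
          π.cycleType = Multiset.replicate m 3).card : ℕ) : ℝ) * (rho π₀ ^ 2 * nu π₀) := by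
      rw [← nsmul_eq_mul, ← sum_const]
      apply sum_congr rfl
      intro π hπ
      have hh : π.cycleType = π₀.cycleType := by rw [(mem_filter.1 hπ).2, hπ₀']
      rw [hcr _ _ hh, hcn _ _ hh]
    rw [hsum]
    set C : ℝ := (((univ.filter fun π : Perm (Fin n) =>
      π.cycleType = Multiset.replicate m 3).card : ℕ) : ℝ) with hC
    set Q : ℝ := ((n : ℝ) ^ 3 / 3) ^ m / (m.factorial : ℝ) with hQdef
    have hmf : (0 : ℝ) < (m.factorial : ℝ) := by exact_mod_cast Nat.factorial_pos m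
    have hQ0 : 0 ≤ Q := by positivity
    obtain ⟨hc1, hc2⟩ := class_size (n := n) m h3m
    have hmle : 9 * (m : ℝ) ^ 2 / n ≤ ε₂ := by
      refine le_trans ?_ hε₂
      have hmM' : (m : ℝ) ≤ M := by exact_mod_cast hmM
      have : (m : ℝ) ^ 2 ≤ (M : ℝ) ^ 2 := pow_le_pow_left₀ (by positivity) hmM' 2
      gcongr
    have hClow : (1 - ε₂) * Q ≤ C := by
      refine le_trans ?_ hc1
      rw [mul_div_assoc]
      exact mul_le_mul_of_nonneg_right (by linarith) hQ0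
    have hCabs : |C - Q| ≤ ε₂ * Q := by
      rw [abs_le]
      constructor
      · nlinarith
      · nlinarith
    have hb := term_bound (C := C) (Q := Q) (ρ := rho π₀) (p := α ^ m) (ν := nu π₀) (b := β ^ m)
      (A := |α| ^ m) (T := (K / n) ^ m) (ε₁ := ε₁) (ε₂ := ε₂) hQ0 (by positivity) (by positivity)
      hε₁ hε₁' hε₂0 hCabs (abs_pow _ _) (hρ m hmM _ hπ₀')
      (by rw [abs_pow]; exact pow_le_pow_left₀ (abs_nonneg _) hβ m) (hν m hmM _ hπ₀')
    have eX : ((n : ℝ) ^ 3 / 3 * α ^ 2 * β) ^ m / (m.factorial : ℝ) =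
        Q * ((α ^ m) ^ 2 * β ^ m) := by
      rw [hQdef]; ring
    have eY : y ^ m / (m.factorial : ℝ) = Q * ((|α| ^ m) ^ 2 * (K / n) ^ m) := by
      have : (|α| ^ m) ^ 2 = (α ^ 2) ^ m := by
        rw [← pow_mul, mul_comm, pow_mul, sq_abs]
      rw [this, hy, hQdef]; ring
    rw [eX, eY]
    have := (abs_le.1 hb).1
    linarith
  have hsum := sum_le_sum key
  rw [sum_sub_distrib, ← mul_sum] at hsum
  have hexp : ∑ m ∈ range (M + 1), y ^ m / (m.factorial : ℝ) ≤ Real.exp y :=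
    Real.sum_le_exp_of_nonneg hy0 _
  have hcoef : 0 ≤ 2 * ε₂ + 5 * ε₁ := by positivity
  have := mul_le_mul_of_nonneg_left hexp hcoef
  linarith

end Vale.Agent.Lib.P197S
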