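import Vale.Agent.Lib.P197S.Basic

/-!
# P197S: lower bound at three-cycles (blueprint Sec 2)
-/

open Equiv Finset

namespace Vale.Agent.Lib.P197S

open Vale.Agent.Lib.P197

variable {n : ℕ}

/-- `r (π⁻¹) = r π` for a class function. -/
theorem cm_inv (r : Perm (Fin n) → ℝ) (hr : ClassMult n r) (π : Perm (Fin n)) : r π⁻¹ = r π :=
  hr.1 _ _ (Perm.cycleType_inv π)

/-- A class function does not see conjugation. -/
theorem cm_conj (r : Perm (Fin n) → ℝ) (hr : ClassMult n r) (k h : Perm (Fin n)) :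
    r (k * h * k⁻¹) = r h :=
  hr.1 _ _ (Perm.cycleType_conj)

/-- The convolution identity: `∑_h r (g h⁻¹) r h = (∑_h (r h)²) r g`. -/
theorem conv_id (r : Perm (Fin n) → ℝ) (hr : ClassMult n r) (g : Perm (Fin n)) :
    ∑ h, r (g * h⁻¹) * r h = (∑ h, r h ^ 2) * r g := by
  have hk : ∀ k : Perm (Fin n), ∑ h, r (g * h⁻¹) * r h =
      ∑ h, r (g * (k * h⁻¹ * k⁻¹)) * r h := by
    intro k
    rw [← Equiv.sum_comp (MulAut.conj k).toEquiv]
    refine Finset.sum_congr rfl fun h _ => ?_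
    simp only [MulEquiv.toEquiv_eq_coe, EquivLike.coe_coe, MulAut.conj_apply, mul_inv_rev, inv_inv]
    rw [cm_conj r hr k h, mul_assoc k]
  have hfac : ((n.factorial : ℕ) : ℝ) ≠ 0 := by exact_mod_cast n.factorial_ne_zero
  have hcard : (Finset.univ : Finset (Perm (Fin n))).card = n.factorial := by
    rw [Finset.card_univ, Fintype.card_perm, Fintype.card_fin]
  have hsum : ((n.factorial : ℕ) : ℝ) * ∑ h, r (g * h⁻¹) * r h =
      ∑ k : Perm (Fin n), ∑ h, r (g * (k * h⁻¹ * k⁻¹)) * r h := by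
    rw [Finset.sum_congr rfl (fun k _ => (hk k).symm), Finset.sum_const, hcard, nsmul_eq_mul]
  have hcm : ∀ h : Perm (Fin n), ∑ k : Perm (Fin n), r (g * (k * h⁻¹ * k⁻¹)) =
      ((n.factorial : ℕ) : ℝ) * (r g * r h) := by
    intro h
    have := hr.2 g h⁻¹
    rw [cm_inv r hr h] at this
    rw [this, ← mul_assoc, mul_inv_cancel₀ hfac, one_mul]
  have : ((n.factorial : ℕ) : ℝ) * ∑ h, r (g * h⁻¹) * r h =
      ((n.factorial : ℕ) : ℝ) * ((∑ h, r h ^ 2) * r g) := by
    rw [hsum, Finset.sum_comm]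
    have hstep : ∀ h : Perm (Fin n), ∑ k : Perm (Fin n), r (g * (k * h⁻¹ * k⁻¹)) * r h =
        ((n.factorial : ℕ) : ℝ) * (r h ^ 2 * r g) := by
      intro h
      rw [← Finset.sum_mul, hcm h]; ring
    rw [Finset.sum_congr rfl (fun h _ => hstep h), ← Finset.mul_sum, ← Finset.sum_mul]
  exact mul_left_cancel₀ hfac this

/-- The convolution identity in the two-variable form used by the form below. -/
theorem conv_two (r : Perm (Fin n) → ℝ) (hr : ClassMult n r) (h k : Perm (Fin n)) :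
    ∑ g, r (g⁻¹ * h) * r (g⁻¹ * k) = (∑ w, r w ^ 2) * r (h⁻¹ * k) := by
  rw [← conv_id r hr (h⁻¹ * k), ← Equiv.sum_comp (Equiv.mulLeft h)]
  refine Finset.sum_congr rfl fun w _ => ?_
  simp only [Equiv.coe_mulLeft, mul_inv_rev]
  have h1 : r (w⁻¹ * h⁻¹ * h) = r w := by
    rw [inv_mul_cancel_right, cm_inv r hr]
  have h2 : r (w⁻¹ * h⁻¹ * k) = r (h⁻¹ * k * w⁻¹) := by
    have := cm_conj r hr w⁻¹ (h⁻¹ * k * w⁻¹)
    rw [← this]
    congr 1
    group
  rw [h1, h2, mul_comm]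

/-- A normalised character is positive definite. -/
theorem psd_form (r : Perm (Fin n) → ℝ) (hr : ClassMult n r) (h1 : r 1 = 1)
    (y : Perm (Fin n) → ℝ) : 0 ≤ ∑ g, ∑ h, y g * y h * r (g⁻¹ * h) := by
  set S2 : ℝ := ∑ w, r w ^ 2 with hS2
  have hS2pos : 0 < S2 := by
    have : r 1 ^ 2 ≤ S2 :=
      Finset.single_le_sum (f := fun w => r w ^ 2) (fun w _ => sq_nonneg _) (Finset.mem_univ 1)
    rw [h1] at this
    linarith
  have hkey : S2 * ∑ g, ∑ h, y g * y h * r (g⁻¹ * h) =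
      ∑ g, (∑ h, r (g⁻¹ * h) * y h) ^ 2 := by
    have : ∀ g : Perm (Fin n), (∑ h, r (g⁻¹ * h) * y h) ^ 2 =
        ∑ h, ∑ k, y h * y k * (r (g⁻¹ * h) * r (g⁻¹ * k)) := by
      intro g
      rw [sq, Finset.sum_mul_sum]
      refine Finset.sum_congr rfl fun h _ => Finset.sum_congr rfl fun k _ => ?_
      ring
    have h2 : ∑ g, (∑ h, r (g⁻¹ * h) * y h) ^ 2 =
        ∑ h, ∑ k, y h * y k * (S2 * r (h⁻¹ * k)) := by
      rw [Finset.sum_congr rfl (fun g _ => this g), Finset.sum_comm]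
      refine Finset.sum_congr rfl fun h _ => ?_
      rw [Finset.sum_comm]
      refine Finset.sum_congr rfl fun k _ => ?_
      rw [← Finset.mul_sum, conv_two r hr]
    rw [h2, Finset.mul_sum]
    refine Finset.sum_congr rfl fun h _ => ?_
    rw [Finset.mul_sum]
    refine Finset.sum_congr rfl fun k _ => ?_
    ring
  have hnonneg : 0 ≤ S2 * ∑ g, ∑ h, y g * y h * r (g⁻¹ * h) := by
    rw [hkey]
    exact Finset.sum_nonneg fun g _ => sq_nonneg _
  exact nonneg_of_mul_nonneg_right hnonneg hS2pos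

/-- Lower bound at a three-cycle: `X_n² ≥ 0` for the Jucys-Murphy element `X_n`. -/
theorem three_lower (r : Perm (Fin n) → ℝ) (hr : ClassMult n r) (h1 : r 1 = 1) (hn : 3 ≤ n)
    (x : Perm (Fin n)) (hx : x.cycleType = {3}) : -1 ≤ ((n : ℝ) - 2) * r x := by
  classical
  let l : Fin n := ⟨0, by omega⟩
  let A : Finset (Fin n) := Finset.univ.erase l
  have hA : A.card = n - 1 := by
    simp [A, Finset.card_erase_of_mem]
  -- the test vector
  let s : Fin n → Perm (Fin n) := fun a => swap l a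
  let y : Perm (Fin n) → ℝ := fun g => ∑ a ∈ A, if g = s a then (1 : ℝ) else 0
  have hform : ∑ g, ∑ h, y g * y h * r (g⁻¹ * h) =
      ∑ a ∈ A, ∑ b ∈ A, r ((s a)⁻¹ * s b) := by
    have hexp : ∀ g h : Perm (Fin n), y g * y h * r (g⁻¹ * h) =
        ∑ a ∈ A, ∑ b ∈ A, (if g = s a then (1 : ℝ) else 0) * (if h = s b then (1 : ℝ) else 0) *
          r (g⁻¹ * h) := by
      intro g h
      simp only [y]
      rw [Finset.sum_mul_sum, Finset.sum_mul]
      refine Finset.sum_congr rfl fun a _ => ?_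
      rw [Finset.sum_mul]
    simp_rw [hexp]
    have hswap : ∑ g : Perm (Fin n), ∑ h : Perm (Fin n), ∑ a ∈ A, ∑ b ∈ A,
        (if g = s a then (1 : ℝ) else 0) * (if h = s b then (1 : ℝ) else 0) * r (g⁻¹ * h) =
        ∑ a ∈ A, ∑ b ∈ A, ∑ g : Perm (Fin n), ∑ h : Perm (Fin n),
        (if g = s a then (1 : ℝ) else 0) * (if h = s b then (1 : ℝ) else 0) * r (g⁻¹ * h) := by
      rw [Finset.sum_congr rfl (fun g _ => Finset.sum_comm)]
      rw [Finset.sum_comm]
      refine Finset.sum_congr rfl fun a _ => ?_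
      rw [Finset.sum_congr rfl (fun g _ => Finset.sum_comm)]
      rw [Finset.sum_comm]
    rw [hswap]
    refine Finset.sum_congr rfl fun a _ => Finset.sum_congr rfl fun b _ => ?_
    rw [Finset.sum_eq_single (s a), Finset.sum_eq_single (s b)]
    · simp
    · intro h _ hne
      simp [hne]
    · simp
    · intro g _ hne
      simp [hne]
    · simp
  have hpsd := psd_form r hr h1 y
  rw [hform] at hpsd
  have hinner : ∀ a ∈ A, ∑ b ∈ A, r ((s a)⁻¹ * s b) = 1 + ((n : ℝ) - 2) * r x := by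
    intro a ha
    have hal : l ≠ a := (Finset.ne_of_mem_erase ha).symm
    have hsplit : ∑ b ∈ A, r ((s a)⁻¹ * s b) =
        r ((s a)⁻¹ * s a) + ∑ b ∈ A.erase a, r ((s a)⁻¹ * s b) := by
      exact (Finset.add_sum_erase A _ ha).symm
    have hconst : ∀ b ∈ A.erase a, r ((s a)⁻¹ * s b) = r x := by
      intro b hb
      have hba : b ≠ a := Finset.ne_of_mem_erase hb
      have hbl : l ≠ b := (Finset.ne_of_mem_erase (Finset.mem_of_mem_erase hb)).symm
      refine hr.1 _ _ ?_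
      rw [hx]
      have h3 : ((swap l a) * (swap l b)).IsThreeCycle :=
        Equiv.Perm.isThreeCycle_swap_mul_swap_same hal hbl hba.symm
      simp only [s, swap_inv]
      exact h3
    rw [hsplit, Finset.sum_congr rfl hconst, Finset.sum_const, inv_mul_cancel, h1, nsmul_eq_mul,
      Finset.card_erase_of_mem ha, hA]
    have : ((n - 1 - 1 : ℕ) : ℝ) = (n : ℝ) - 2 := by
      have : n - 1 - 1 + 2 = n := by omega
      have h2 : ((n - 1 - 1 + 2 : ℕ) : ℝ) = (n : ℝ) := by rw [this]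
      push_cast at h2
      linarith
    rw [this]
  rw [Finset.sum_congr rfl hinner, Finset.sum_const, hA, nsmul_eq_mul] at hpsd
  have hpos : (0 : ℝ) < ((n - 1 : ℕ) : ℝ) := by
    have : 0 < n - 1 := by omega
    exact_mod_cast this
  have := nonneg_of_mul_nonneg_right hpsd hpos
  linarith

end Vale.Agent.Lib.P197S
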