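import Vale.Agent.Lib.P197S.Basic

/-!
# P197S: explicit versions of `tail` and `huge` (blueprint Sec 7)
-/

open Equiv Finset

namespace Vale.Agent.Lib.P197S

open Vale.Agent.Lib.P197

variable {n : ℕ}

/-- The constant of the tail. -/
noncomputable def LL : ℝ := 6075 * 11

/-- The range of the tail. -/
noncomputable def cc : ℝ := 1 / (16 * LL ^ 4)

/-- `tail` with all constants explicit: same proof as `Vale.Agent.Lib.P197.tail`. -/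
theorem tail_explicit (A : ℝ) (hA : 1 ≤ A)
    (hn : 32 * LL ^ 6 * (4 * A) ^ 2 + 7 * LL ^ 9 * (4 * A) ^ 4 + 5 ≤ (n : ℝ))
    (rho nu : Perm (Fin n) → ℝ) (hrho : RhoB n rho) (hnu : NuB n (A * Real.sqrt n) nu)
    (k : ℕ) (hk1 : 1 ≤ k) (hk : (k : ℝ) ≤ cc * n) :
    ∑ π ∈ (univ.filter fun π : Perm (Fin n) => sp π = k), rho π ^ 2 * |nu π| ≤
      Real.exp (LL ^ 3 * (4 * A) ^ 2 / 3 + 1 / 2) * (1 / 4 : ℝ) ^ k := by
  classical
  obtain ⟨L, hLdef⟩ : ∃ L : ℝ, L = LL := ⟨_, rfl⟩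
  have hLval : L = 6075 * 11 := by rw [hLdef, LL]
  have hL1 : (2 : ℝ) ≤ L := by rw [hLval]; norm_num
  have hL0 : (0 : ℝ) < L := by linarith
  obtain ⟨C0, hC0⟩ : ∃ C0 : ℝ, C0 = 4 * A := ⟨_, rfl⟩
  have hC04 : (4 : ℝ) ≤ C0 := by rw [hC0]; linarith
  rw [← hLdef, ← hC0] at hn
  rw [← hLdef, ← hC0]
  have hcc : cc = 1 / (16 * L ^ 4) := by rw [cc, hLdef]
  rw [hcc] at hk
  have hn5 : 5 ≤ n := by
    have h0 : (0 : ℝ) ≤ 32 * L ^ 6 * C0 ^ 2 + 7 * L ^ 9 * C0 ^ 4 := by positivity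
    have h1 : (5 : ℝ) ≤ n := by linarith
    exact_mod_cast h1
  have hnpos : 0 < n := by omega
  have hNb : 32 * L ^ 6 * C0 ^ 2 + 7 * L ^ 9 * C0 ^ 4 ≤ (n : ℝ) := by linarith
  have hN0 : (0 : ℝ) < n := by exact_mod_cast hnpos
  have hk0 : (0 : ℝ) ≤ k := by positivity
  have hkN : (k : ℝ) * (16 * L ^ 4) ≤ n := by
    have h2 := mul_le_mul_of_nonneg_right hk (by positivity : (0 : ℝ) ≤ 16 * L ^ 4)
    have h3 : 1 / (16 * L ^ 4) * (n : ℝ) * (16 * L ^ 4) = n := by field_simp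
    rwa [h3] at h2
  obtain ⟨E, hE⟩ : ∃ E : ℝ, E = C0 ^ 2 + k / L ^ 4 := ⟨_, rfl⟩
  have hE0 : 0 < E := by rw [hE]; positivity
  obtain ⟨R, hR⟩ : ∃ R : ℝ, R = Real.sqrt (E * n) := ⟨_, rfl⟩
  have hR2 : R ^ 2 = E * n := by rw [hR]; exact Real.sq_sqrt (by positivity)
  have hR0 : 0 < R := by rw [hR]; exact Real.sqrt_pos.2 (by positivity)
  obtain ⟨κ, hκ⟩ : ∃ κ : ℝ, κ = 2 * L ^ 2 := ⟨_, rfl⟩
  obtain ⟨c1, c2, hκ2, c3, c4⟩ := tail_conds A L C0 k n E R κ hA hL1 hC0 hk0 hN0 hR2 hR hκ hE hkN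
  obtain ⟨h1, h2⟩ := tail_num1 L C0 k n E hL1 hC04 hk0 hNb hkN hE
  obtain ⟨t, ht⟩ : ∃ t : ℝ, t = L * (R / n) * κ := ⟨_, rfl⟩
  obtain ⟨htle, hT3, hQ⟩ := tail_num2 L C0 k n E R κ t hL1 hk0 hN0 hR2 hR0 hκ hE ht h1 h2
  have hκ0 : 0 < κ := by linarith
  have hw := tail_weight_sum n hn5 L κ R hL0 hκ0 hR0 (by rw [← ht]; exact htle)
  rw [← ht] at hw
  have hexp : ∑ j ∈ Icc 2 n, (((n : ℝ) ^ j / j) *
        (if Odd j then L ^ j * ((n : ℝ)⁻¹) ^ (j - 1) * (R / n) ^ (j - 1) * κ ^ (j - 3) else 0)) ≤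
      (L ^ 3 * C0 ^ 2 / 3 + 1 / 2) + k := by
    refine le_trans hw ?_
    linarith
  have hsum := tail_sum rho nu L R κ _ k hLval hκ2 hR0 hnpos hrho
    (fun π hsp => hnu π R κ k c1 c2 hκ2 c3 c4 hsp.le) hexp
  exact tail_final _ _ k hsum

/-- `huge` with an explicit condition on `n`: same proof as `Vale.Agent.Lib.P197.huge`. -/
theorem huge_explicit (A c : ℝ) (hA : 1 ≤ A) (hc : 0 < c) (hn1 : 1 ≤ n)
    (hn0 : 288 * A ≤ (n : ℝ) ^ (c / 3)) (rho nu : Perm (Fin n) → ℝ)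
    (hrho : ∀ π : Perm (Fin n), (∃ j ∈ π.cycleType, Even j) → rho π = 0)
    (hh : HugeHyp n A rho nu) :
    ∑ π ∈ (univ.filter fun π : Perm (Fin n) => c * (n : ℝ) < (sp π : ℝ)),
        rho π ^ 2 * |nu π| ≤ (1 / 2 : ℝ) ^ n := by
  classical
  obtain ⟨h24, hnu⟩ := hh
  have hterm : ∀ π ∈ (univ.filter fun π : Perm (Fin n) => c * (n : ℝ) < (sp π : ℝ)),
      rho π ^ 2 * |nu π| ≤ rho π ^ 2 * (1 / 48 : ℝ) ^ n := by
    intro π hπ
    have hk := (Finset.mem_filter.1 hπ).2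
    by_cases hev : ∃ j ∈ π.cycleType, Even j
    · rw [hrho π hev]
      simp
    · apply mul_le_mul_of_nonneg_left _ (sq_nonneg _)
      apply huge_point A c hA hc n hn1 hn0 nu hnu π _ hk
      intro j hj
      have h2 : 2 ≤ j := Equiv.Perm.two_le_of_mem_cycleType hj
      have hodd : ¬ Even j := fun he => hev ⟨j, hj, he⟩
      by_contra hlt
      have : j = 2 := by omega
      exact hodd (this ▸ even_two)
  calc ∑ π ∈ (univ.filter fun π : Perm (Fin n) => c * (n : ℝ) < (sp π : ℝ)),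
        rho π ^ 2 * |nu π|
      ≤ ∑ π ∈ (univ.filter fun π : Perm (Fin n) => c * (n : ℝ) < (sp π : ℝ)),
        rho π ^ 2 * (1 / 48 : ℝ) ^ n := Finset.sum_le_sum hterm
    _ ≤ ∑ π : Perm (Fin n), rho π ^ 2 * (1 / 48 : ℝ) ^ n :=
        Finset.sum_le_sum_of_subset_of_nonneg (Finset.filter_subset _ _)
          (fun _ _ _ => by positivity)
    _ = (∑ π : Perm (Fin n), rho π ^ 2) * (1 / 48 : ℝ) ^ n := by rw [Finset.sum_mul]
    _ ≤ (24 : ℝ) ^ n * (1 / 48 : ℝ) ^ n :=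
        mul_le_mul_of_nonneg_right h24 (by positivity)
    _ = (1 / 2 : ℝ) ^ n := by
        rw [← mul_pow]
        norm_num

end Vale.Agent.Lib.P197S
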