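import Vale.Agent.Lib.P197S.Inst
import Vale.Agent.Lib.P197S.Psd
import Vale.Agent.Lib.P197S.MainLower
import Vale.Agent.Lib.P197S.FiveS
import Vale.Agent.Lib.P197S.TailX

/-!
# P197S: the analytic core (blueprint Sec 9)
-/

open Equiv Finset

namespace Vale.Agent.Lib.P197S

open Vale.Agent.Lib.P197

variable {n : ℕ}

/-- Exponential truncation: for `0 ≤ y`, `2 y ≤ M + 1`, the truncated sum is at least `exp y / 2`. -/
theorem exp_partial_ge (y : ℝ) (hy : 0 ≤ y) (M : ℕ) (hM : 2 * y ≤ (M : ℝ) + 1) :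
    Real.exp y / 2 ≤ ∑ m ∈ range (M + 1), y ^ m / (m.factorial : ℝ) := by
  have hsum : HasSum (fun m : ℕ => y ^ m / (m.factorial : ℝ)) (Real.exp y) := by
    have := NormedSpace.expSeries_div_hasSum_exp (𝔸 := ℝ) y
    rwa [← Real.exp_eq_exp_ℝ] at this
  have h1 := (hasSum_nat_add_iff' (M + 1)).2 hsum
  have h2 := ((hasSum_nat_add_iff' M).2 hsum).mul_left (1 / 2 : ℝ)
  have hterm : ∀ m : ℕ, y ^ (m + (M + 1)) / ((m + (M + 1)).factorial : ℝ) ≤
      (1 / 2 : ℝ) * (y ^ (m + M) / ((m + M).factorial : ℝ)) := by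
    intro m
    have e1 : m + (M + 1) = (m + M) + 1 := by omega
    rw [e1, pow_succ, Nat.factorial_succ]
    push_cast
    have hN : (0 : ℝ) < ((m : ℝ) + M + 1) := by positivity
    have hf : (0 : ℝ) < ((m + M).factorial : ℝ) := by positivity
    have hy2 : y / ((m : ℝ) + M + 1) ≤ 1 / 2 := by
      rw [div_le_iff₀ hN]
      have : (0 : ℝ) ≤ m := by positivity
      linarith
    have e : y ^ (m + M) * y / (((m : ℝ) + M + 1) * ((m + M).factorial : ℝ)) =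
        (y / ((m : ℝ) + M + 1)) * (y ^ (m + M) / ((m + M).factorial : ℝ)) := by
      field_simp
    rw [e]
    exact mul_le_mul_of_nonneg_right hy2 (by positivity)
  have hle := hasSum_le hterm h1 h2
  have hS : 0 ≤ ∑ m ∈ range M, y ^ m / (m.factorial : ℝ) :=
    Finset.sum_nonneg fun m _ => by positivity
  linarith

/-- `exp (1/4) ≤ 13/10`. -/
private theorem exp_quarter_le : Real.exp (1 / 4) ≤ 13 / 10 := by
  by_contra h
  push Not at h
  have h4 : (13 / 10 : ℝ) ^ 4 < Real.exp (1 / 4) ^ 4 :=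
    pow_lt_pow_left₀ h (by norm_num) (by norm_num)
  have e : Real.exp (1 / 4) ^ 4 = Real.exp 1 := by
    rw [← Real.exp_nat_mul]
    norm_num
  rw [e] at h4
  have := Real.exp_one_lt_d9
  norm_num at h4
  linarith

/-- For `|x| ≤ 1/4` the truncated sums are at least `7/10`. -/
theorem exp_partial_small (x : ℝ) (hx : |x| ≤ 1 / 4) (M : ℕ) :
    7 / 10 ≤ ∑ m ∈ range (M + 1), x ^ m / (m.factorial : ℝ) := by
  have h1 : ∑ m ∈ range (M + 1), (1 / 4 : ℝ) ^ m / (m.factorial : ℝ) ≤ Real.exp (1 / 4) :=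
    Real.sum_le_exp_of_nonneg (by norm_num) _
  have he := exp_quarter_le
  rw [Finset.sum_range_succ'] at h1 ⊢
  simp only [pow_zero, Nat.factorial_zero, Nat.cast_one, div_one] at h1 ⊢
  have h2 : |∑ m ∈ range M, x ^ (m + 1) / ((m + 1).factorial : ℝ)| ≤
      ∑ m ∈ range M, (1 / 4 : ℝ) ^ (m + 1) / ((m + 1).factorial : ℝ) := by
    refine (Finset.abs_sum_le_sum_abs _ _).trans (Finset.sum_le_sum fun m _ => ?_)
    rw [abs_div, abs_pow, abs_of_pos (by positivity : (0 : ℝ) < ((m + 1).factorial : ℝ))]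
    exact div_le_div_of_nonneg_right (pow_le_pow_left₀ (abs_nonneg _) hx _) (by positivity)
  have h3 := (abs_le.1 h2).1
  linarith

/-- The scale of the error of `three_pow_approx` for `3 m ≤ K₁`. -/
private theorem approx_scale {K₁ : ℕ} (hK : 5000 ≤ K₁) (m : ℕ) (hm : 3 * m ≤ K₁) (E η : ℝ)
    (hE : 0 ≤ E) (hη : η ≤ 2 / (K₁ : ℝ) ^ 2) :
    (m : ℝ) * (gam K₁ ^ (3 * m) * E * η) ≤ 2 / (K₁ : ℝ) * E := by
  have hKr : (5000 : ℝ) ≤ K₁ := by exact_mod_cast hK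
  have hK0 : (0 : ℝ) < K₁ := by linarith
  have hm' : (m : ℝ) ≤ (K₁ : ℝ) / 3 := by
    have : (3 : ℝ) * m ≤ K₁ := by exact_mod_cast hm
    linarith
  have hG1 : 1 ≤ gam K₁ := gam_one_le K₁
  have hG0 : 0 ≤ gam K₁ ^ (3 * m) := by positivity
  have hG2 : gam K₁ ^ (3 * m) ≤ 2 := by
    refine le_trans (pow_le_pow_right₀ hG1 (by omega : 3 * m ≤ 3 * K₁)) (gam_pow_le hK)
  have hm0 : (0 : ℝ) ≤ m := by positivity
  calc (m : ℝ) * (gam K₁ ^ (3 * m) * E * η) = ((m : ℝ) * gam K₁ ^ (3 * m) * E) * η := by ring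
    _ ≤ ((m : ℝ) * gam K₁ ^ (3 * m) * E) * (2 / (K₁ : ℝ) ^ 2) :=
        mul_le_mul_of_nonneg_left hη (by positivity)
    _ ≤ (((K₁ : ℝ) / 3) * 2 * E) * (2 / (K₁ : ℝ) ^ 2) := by
        refine mul_le_mul_of_nonneg_right ?_ (by positivity)
        refine mul_le_mul_of_nonneg_right ?_ hE
        exact mul_le_mul hm' hG2 hG0 (by positivity)
    _ = (4 / 3) * (E / K₁) := by
        field_simp
        ring
    _ ≤ 2 / (K₁ : ℝ) * E := by
        have h : 0 ≤ E / (K₁ : ℝ) := by positivity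
        have e : 2 / (K₁ : ℝ) * E = 2 * (E / K₁) := by ring
        rw [e]
        linarith

open scoped Classical in
/-- The pointwise decomposition of the sum. -/
private theorem core_decomp (K₁ : ℕ) (c : ℝ) (f : Perm (Fin n) → ℝ)
    (heven : ∀ π : Perm (Fin n), (∃ j ∈ π.cycleType, Even j) → f π = 0) :
    ∑ m ∈ range (K₁ / 3 + 1),
        ∑ π ∈ (univ.filter fun π : Perm (Fin n) => π.cycleType = Multiset.replicate m 3), f π
      - (∑ π ∈ (univ.filter fun π : Perm (Fin n) => sp π ≤ K₁ ∧ ∃ j ∈ π.cycleType, 5 ≤ j), |f π|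
        + ∑ π ∈ (univ.filter fun π : Perm (Fin n) => K₁ < sp π ∧ (sp π : ℝ) ≤ c * n), |f π|
        + ∑ π ∈ (univ.filter fun π : Perm (Fin n) => c * (n : ℝ) < (sp π : ℝ)), |f π|)
      ≤ ∑ π, f π := by
  set M := K₁ / 3 with hMdef
  set F : Finset (Perm (Fin n)) := univ.filter fun π : Perm (Fin n) =>
    sp π ≤ K₁ ∧ ∃ j ∈ π.cycleType, 5 ≤ j with hF
  set Tl : Finset (Perm (Fin n)) := univ.filter fun π : Perm (Fin n) =>
    K₁ < sp π ∧ (sp π : ℝ) ≤ c * n with hTl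
  set W : Finset (Perm (Fin n)) := univ.filter fun π : Perm (Fin n) =>
    c * (n : ℝ) < (sp π : ℝ) with hW
  have hpoint : ∀ π : Perm (Fin n),
      (∑ m ∈ range (M + 1), if π.cycleType = Multiset.replicate m 3 then f π else 0) -
        ((if π ∈ F then |f π| else 0) + (if π ∈ Tl then |f π| else 0) +
          (if π ∈ W then |f π| else 0)) ≤ f π := by
    intro π
    have h1 : 0 ≤ (if π ∈ F then |f π| else 0) := by split_ifs <;> simp
    have h2 : 0 ≤ (if π ∈ Tl then |f π| else 0) := by split_ifs <;> simp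
    have h3 : 0 ≤ (if π ∈ W then |f π| else 0) := by split_ifs <;> simp
    by_cases hA' : ∃ m ∈ range (M + 1), π.cycleType = Multiset.replicate m 3
    · obtain ⟨m, hm, hmeq⟩ := hA'
      have : (∑ m ∈ range (M + 1), if π.cycleType = Multiset.replicate m 3 then f π else 0)
          = f π := by
        rw [Finset.sum_eq_single m]
        · simp [hmeq]
        · intro b _ hb
          rw [if_neg]
          intro hc'
          rw [hmeq] at hc'
          have := congrArg Multiset.card hc'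
          simp only [Multiset.card_replicate] at this
          exact hb this.symm
        · intro h
          exact absurd hm h
      rw [this]
      linarith
    · have h0 : (∑ m ∈ range (M + 1), if π.cycleType = Multiset.replicate m 3 then f π else 0)
          = 0 := by
        apply Finset.sum_eq_zero
        intro m hm
        rw [if_neg]
        intro h
        exact hA' ⟨m, hm, h⟩
      rw [h0, zero_sub]
      by_cases hev : ∃ j ∈ π.cycleType, Even j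
      · have : f π = 0 := heven π hev
        linarith
      · have hneg : -|f π| ≤ f π := neg_abs_le _
        have hcase : π ∈ F ∨ π ∈ Tl ∨ π ∈ W := by
          by_cases h3M : sp π ≤ K₁
          · left
            simp only [hF, mem_filter, mem_univ, true_and]
            refine ⟨h3M, ?_⟩
            by_contra hno
            push Not at hno hev
            have hall : ∀ j ∈ π.cycleType, j = 3 := by
              intro j hj
              have h2 := Perm.two_le_of_mem_cycleType hj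
              have h5 := hno j hj
              have he := hev j hj
              interval_cases j
              · exact absurd (by decide) he
              · rfl
              · exact absurd (by decide) he
            have hrep : π.cycleType = Multiset.replicate (Multiset.card π.cycleType) 3 :=
              Multiset.eq_replicate.2 ⟨rfl, hall⟩
            have hsum : sp π = 3 * Multiset.card π.cycleType := by
              unfold sp
              rw [hrep]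
              simp [mul_comm]
            refine hA' ⟨Multiset.card π.cycleType, ?_, hrep⟩
            rw [mem_range]
            omega
          · right
            by_cases hcn' : (sp π : ℝ) ≤ c * n
            · left
              simp only [hTl, mem_filter, mem_univ, true_and]
              exact ⟨by omega, hcn'⟩
            · right
              simp only [hW, mem_filter, mem_univ, true_and]
              exact not_le.1 hcn'
        rcases hcase with hc' | hc' | hc'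
        · rw [if_pos hc'] at *
          linarith
        · rw [if_pos hc'] at *
          linarith
        · rw [if_pos hc'] at *
          linarith
  have hsum := Finset.sum_le_sum (fun π (_ : π ∈ (univ : Finset (Perm (Fin n)))) => hpoint π)
  rw [Finset.sum_sub_distrib, Finset.sum_add_distrib, Finset.sum_add_distrib,
    Finset.sum_ite_mem, Finset.sum_ite_mem, Finset.sum_ite_mem, Finset.sum_comm] at hsum
  simp only [Finset.univ_inter] at hsum
  have e : ∀ m ∈ range (M + 1), ∑ π : Perm (Fin n), (if π.cycleType = Multiset.replicate m 3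
      then f π else 0) =
      ∑ π ∈ (univ.filter fun π : Perm (Fin n) => π.cycleType = Multiset.replicate m 3), f π := by
    intro m _
    rw [Finset.sum_filter]
  rw [Finset.sum_congr rfl e] at hsum
  exact hsum

open scoped Classical in
/-- The range `K₁ < sp π ≤ c n`. -/
private theorem core_tail (K₁ : ℕ) (c X' : ℝ) (hc : 0 ≤ c) (f : Perm (Fin n) → ℝ)
    (htail : ∀ k : ℕ, K₁ < k → (k : ℝ) ≤ c * n →
      ∑ π ∈ (univ.filter fun π : Perm (Fin n) => sp π = k), |f π| ≤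
        Real.exp X' * (1 / 4 : ℝ) ^ k) :
    ∑ π ∈ (univ.filter fun π : Perm (Fin n) => K₁ < sp π ∧ (sp π : ℝ) ≤ c * n), |f π| ≤
      Real.exp X' * (1 / 4 : ℝ) ^ K₁ := by
  set Tl : Finset (Perm (Fin n)) := univ.filter fun π : Perm (Fin n) =>
    K₁ < sp π ∧ (sp π : ℝ) ≤ c * n with hTl
  have hmaps : ∀ π ∈ Tl, sp π ∈ Ioc K₁ ⌊c * (n : ℝ)⌋₊ := by
    intro π hπ
    simp only [hTl, mem_filter, mem_univ, true_and] at hπ
    rw [mem_Ioc]
    exact ⟨hπ.1, Nat.le_floor hπ.2⟩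
  rw [← Finset.sum_fiberwise_of_maps_to hmaps]
  calc ∑ k ∈ Ioc K₁ ⌊c * (n : ℝ)⌋₊, ∑ π ∈ Tl with sp π = k, |f π|
      ≤ ∑ k ∈ Ioc K₁ ⌊c * (n : ℝ)⌋₊, Real.exp X' * (1 / 4 : ℝ) ^ k := by
        apply Finset.sum_le_sum
        intro k hk
        rw [mem_Ioc] at hk
        have hk2 : (k : ℝ) ≤ c * n := by
          have : (k : ℝ) ≤ (⌊c * (n : ℝ)⌋₊ : ℝ) := by exact_mod_cast hk.2
          exact le_trans this (Nat.floor_le (by positivity))
        refine le_trans ?_ (htail k hk.1 hk2)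
        apply Finset.sum_le_sum_of_subset_of_nonneg
        · intro π hπ
          simp only [mem_filter, mem_univ, true_and] at hπ ⊢
          exact hπ.2
        · intro π _ _
          positivity
    _ = Real.exp X' * ∑ k ∈ Ioc K₁ ⌊c * (n : ℝ)⌋₊, (1 / 4 : ℝ) ^ k := by
        rw [Finset.mul_sum]
    _ ≤ Real.exp X' * (1 / 4 : ℝ) ^ K₁ :=
        mul_le_mul_of_nonneg_left (geom_Ioc_le _ _) (Real.exp_pos _).le

/-- `exp (K/3 + 1/2) (1/4)^K ≤ 1/16`. -/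
private theorem tail_const {K₁ : ℕ} (hK : 5000 ≤ K₁) (X' : ℝ)
    (hX' : X' ≤ (K₁ : ℝ) / 3 + 1 / 2) : Real.exp X' * (1 / 4 : ℝ) ^ K₁ ≤ 1 / 16 := by
  have hKr : (5000 : ℝ) ≤ K₁ := by exact_mod_cast hK
  have h1 : Real.exp X' ≤ Real.exp (1 / 2) ^ K₁ := by
    rw [← Real.exp_nat_mul]
    apply Real.exp_le_exp.2
    have e : (K₁ : ℝ) * (1 / 2) = (K₁ : ℝ) / 2 := by ring
    rw [e]
    linarith
  have h2 : Real.exp (1 / 2) ≤ 2 := by
    have h3 := Real.exp_one_lt_d9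
    by_contra h
    push Not at h
    have h4 : (2 : ℝ) ^ 2 < Real.exp (1 / 2) ^ 2 :=
      pow_lt_pow_left₀ h (by norm_num) (by norm_num)
    have e : Real.exp (1 / 2) ^ 2 = Real.exp 1 := by
      rw [← Real.exp_nat_mul]
      norm_num
    rw [e] at h4
    norm_num at h4
    linarith
  have h5 : Real.exp (1 / 2) ^ K₁ ≤ 2 ^ K₁ := pow_le_pow_left₀ (Real.exp_pos _).le h2 _
  have h6 : Real.exp X' * (1 / 4 : ℝ) ^ K₁ ≤ 2 ^ K₁ * (1 / 4 : ℝ) ^ K₁ :=
    mul_le_mul_of_nonneg_right (h1.trans h5) (by positivity)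
  have h7 : (2 : ℝ) ^ K₁ * (1 / 4 : ℝ) ^ K₁ = (1 / 2 : ℝ) ^ K₁ := by
    rw [← mul_pow]
    norm_num
  have h8 : (1 / 2 : ℝ) ^ K₁ ≤ (1 / 2 : ℝ) ^ 4 :=
    pow_le_pow_of_le_one (by norm_num) (by norm_num) (by omega)
  rw [h7] at h6
  norm_num at h8 ⊢
  norm_num at h6
  linarith

/-- The size conditions of `tail_explicit`. -/
private theorem tail_size (A LLv Kr nR : ℝ) (hL : 1 ≤ LLv) (hA : 1 ≤ A) (hKr : 5000 ≤ Kr)
    (hA2 : 16 * LLv ^ 3 * A ^ 2 ≤ Kr) (hn : (10 : ℝ) ^ 40 * Kr ^ 7 ≤ nR) :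
    32 * LLv ^ 6 * (4 * A) ^ 2 + 7 * LLv ^ 9 * (4 * A) ^ 4 + 5 ≤ nR := by
  have hL3 : 1 ≤ LLv ^ 3 := one_le_pow₀ hL
  have hA22 : 1 ≤ A ^ 2 := by nlinarith
  have hq : LLv ^ 3 * (4 * A) ^ 2 ≤ Kr := by nlinarith
  have hq0 : 0 ≤ LLv ^ 3 * (4 * A) ^ 2 := by positivity
  have hL3K : LLv ^ 3 ≤ Kr := by nlinarith
  have e1 : 32 * LLv ^ 6 * (4 * A) ^ 2 = 32 * (LLv ^ 3 * (LLv ^ 3 * (4 * A) ^ 2)) := by ring
  have e2 : 7 * LLv ^ 9 * (4 * A) ^ 4 = 7 * (LLv ^ 3 * (LLv ^ 3 * (4 * A) ^ 2) ^ 2) := by ring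
  have h1 : LLv ^ 3 * (LLv ^ 3 * (4 * A) ^ 2) ≤ Kr * Kr :=
    mul_le_mul hL3K hq hq0 (by linarith)
  have h2 : LLv ^ 3 * (LLv ^ 3 * (4 * A) ^ 2) ^ 2 ≤ Kr * Kr ^ 2 :=
    mul_le_mul hL3K (pow_le_pow_left₀ hq0 hq 2) (by positivity) (by linarith)
  have hK7 : Kr * Kr ≤ Kr ^ 7 := by
    have : Kr ^ 2 ≤ Kr ^ 7 := pow_le_pow_right₀ (by linarith) (by norm_num)
    nlinarith
  have hK7' : Kr * Kr ^ 2 ≤ Kr ^ 7 := by
    have : Kr ^ 3 ≤ Kr ^ 7 := pow_le_pow_right₀ (by linarith) (by norm_num)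
    nlinarith
  have hK1 : 1 ≤ Kr ^ 7 := one_le_pow₀ (by linarith)
  rw [e1, e2]
  nlinarith

/-- The numbers attached to `K₁`. -/
private theorem num_K (K₁ : ℕ) (A : ℝ) (hA : 1 ≤ A) (hA2 : 16 * LL ^ 3 * A ^ 2 ≤ K₁) :
    5000 ≤ K₁ ∧ 16 * A ^ 2 ≤ (K₁ : ℝ) ∧ LL ^ 3 * (4 * A) ^ 2 ≤ (K₁ : ℝ) ∧
      16 * 1000 * A ^ 2 ≤ (K₁ : ℝ) := by
  have hLLb : (1000 : ℝ) ≤ LL ^ 3 := by
    unfold LL
    norm_num
  have hLLb2 : (5000 : ℝ) ≤ 16 * LL ^ 3 := by linarith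
  have hA20 : 1 ≤ A ^ 2 := by nlinarith
  have h1 : 16 * 1000 * A ^ 2 ≤ (K₁ : ℝ) := by nlinarith
  refine ⟨?_, by linarith, by nlinarith, h1⟩
  have : (5000 : ℝ) ≤ (K₁ : ℝ) := by linarith
  exact_mod_cast this

/-- The numbers attached to `n`. -/
private theorem num_n (K₁ : ℕ) (hK : 5000 ≤ K₁) (hn : (10 : ℝ) ^ 40 * (K₁ : ℝ) ^ 7 ≤ n) :
    (K₁ : ℝ) ^ 3 ≤ n ∧ K₁ ≤ n := by
  have hKb : (5000 : ℝ) ≤ (K₁ : ℝ) := by exact_mod_cast hK
  have hK7 : (K₁ : ℝ) ^ 3 ≤ (K₁ : ℝ) ^ 7 := pow_le_pow_right₀ (by linarith) (by norm_num)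
  have hK71 : (K₁ : ℝ) ≤ (K₁ : ℝ) ^ 7 := by
    have : (K₁ : ℝ) ^ 1 ≤ (K₁ : ℝ) ^ 7 := pow_le_pow_right₀ (by linarith) (by norm_num)
    simpa using this
  have hK70 : 0 ≤ (K₁ : ℝ) ^ 7 := by positivity
  have hle : (K₁ : ℝ) ^ 7 ≤ n := by
    have h10 : (1 : ℝ) ≤ 10 ^ 40 := by norm_num
    nlinarith
  refine ⟨hK7.trans hle, ?_⟩
  exact_mod_cast hK71.trans hle

/-- The relative size of the class sizes. -/
private theorem eps2_bound (M K₁ : ℕ) (hM : 3 * M ≤ K₁) (hK : 5000 ≤ K₁)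
    (hn3 : (K₁ : ℝ) ^ 3 ≤ n) : 9 * (M : ℝ) ^ 2 / n ≤ 1 / (K₁ : ℝ) := by
  have hKb : (5000 : ℝ) ≤ (K₁ : ℝ) := by exact_mod_cast hK
  have hK0 : (0 : ℝ) < (K₁ : ℝ) := by linarith
  have hn0 : (0 : ℝ) < n := lt_of_lt_of_le (by positivity) hn3
  have hMR : (3 : ℝ) * M ≤ K₁ := by exact_mod_cast hM
  rw [div_le_div_iff₀ hn0 hK0]
  have h1 : (3 * (M : ℝ)) ^ 2 ≤ (K₁ : ℝ) ^ 2 := pow_le_pow_left₀ (by positivity) hMR 2
  have h2 : 9 * (M : ℝ) ^ 2 * K₁ ≤ (K₁ : ℝ) ^ 2 * K₁ :=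
    mul_le_mul_of_nonneg_right (by nlinarith) hK0.le
  have e : (K₁ : ℝ) ^ 2 * K₁ = (K₁ : ℝ) ^ 3 := by ring
  rw [e] at h2
  linarith

/-- The exponent `y`. -/
private theorem y_bound (nR D α K y : ℝ) (hnD : nR = D + 2) (hD : 4998 ≤ D) (hK : 0 ≤ K)
    (hα2 : α ^ 2 = 1 / (4 * D ^ 2)) (hy : y = nR ^ 3 / 3 * α ^ 2 * (K / nR)) :
    0 ≤ y ∧ y ≤ K / 8 := by
  have hD0 : 0 < D := by linarith
  have hn0 : 0 < nR := by linarith
  have hy_eq : y = K * (nR ^ 2 / (12 * D ^ 2)) := by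
    rw [hy, hα2]
    field_simp
    ring
  constructor
  · rw [hy_eq]
    positivity
  · have h1 : nR ^ 2 / (12 * D ^ 2) ≤ 1 / 8 := by
      rw [div_le_div_iff₀ (by positivity) (by norm_num)]
      rw [hnD]
      nlinarith
    rw [hy_eq]
    have := mul_le_mul_of_nonneg_left h1 hK
    linarith

/-- The value at a three-cycle. -/
private theorem alpha_facts (α D : ℝ) (hD0 : 0 < D) (hα : α = -1 / (2 * D)) :
    |α| = 1 / (2 * D) ∧ α ^ 2 = 1 / (4 * D ^ 2) := by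
  constructor
  · rw [hα, neg_div, abs_neg, abs_of_pos (by positivity)]
  · rw [hα]
    field_simp
    ring

/-- The sum over the classes `3^m`. -/
private theorem core_main {K₁ : ℕ} (rho nu : Perm (Fin n) → ℝ) (HN : NumHyp n K₁)
    (hn3 : (K₁ : ℝ) ^ 3 ≤ n) (hKn : K₁ ≤ n) (hcr : ClassMult n rho) (hcn : ClassMult n nu)
    (hr1 : rho 1 = 1) (hn1 : nu 1 = 1) (K θν θρ : ℝ) (hK00 : 0 ≤ K) (hK1 : 1 ≤ K)
    (Hν : SharpHyp n K₁ nu (uNu n K₁) K θν (gam K₁))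
    (Hρ : SharpHyp n K₁ rho (uRho n) (kRho n) θρ (gam K₁))
    (x₃ : Perm (Fin n)) (hx₃ : x₃.cycleType = {3})
    (hαk : kRho n / (n : ℝ) = |rho x₃|) (hβ : |nu x₃| ≤ K / n) :
    ∑ m ∈ range (K₁ / 3 + 1), ((n : ℝ) ^ 3 / 3 * rho x₃ ^ 2 * nu x₃) ^ m / (m.factorial : ℝ) -
        (12 / (K₁ : ℝ)) * Real.exp ((n : ℝ) ^ 3 / 3 * rho x₃ ^ 2 * (K / n)) ≤
      ∑ m ∈ range (K₁ / 3 + 1),
        ∑ π ∈ (univ.filter fun π : Perm (Fin n) => π.cycleType = Multiset.replicate m 3),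
          rho π ^ 2 * nu π := by
  have hK := HN.hK
  have hKb : (5000 : ℝ) ≤ (K₁ : ℝ) := by exact_mod_cast hK
  have hK0 : (0 : ℝ) < (K₁ : ℝ) := by linarith
  have hM3 : 3 * (K₁ / 3) ≤ K₁ := by omega
  have hρa : ∀ m ≤ K₁ / 3, ∀ π : Perm (Fin n), π.cycleType = Multiset.replicate m 3 →
      |rho π - rho x₃ ^ m| ≤ 2 / (K₁ : ℝ) * |rho x₃| ^ m := by
    intro m hm π hπ
    have h1 := three_pow_approx Hρ hr1 m (by omega) π x₃ hπ hx₃
    rw [hαk] at h1
    exact h1.trans (approx_scale hK m (by omega) _ _ (by positivity) (eta_rho HN))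
  have hνa : ∀ m ≤ K₁ / 3, ∀ π : Perm (Fin n), π.cycleType = Multiset.replicate m 3 →
      |nu π - nu x₃ ^ m| ≤ 2 / (K₁ : ℝ) * (K / n) ^ m := by
    intro m hm π hπ
    have h1 := three_pow_approx Hν hn1 m (by omega) π x₃ hπ hx₃
    exact h1.trans (approx_scale hK m (by omega) _ _ (by positivity) (eta_nu HN K hK1))
  have hε₁' : 2 / (K₁ : ℝ) ≤ 1 / 10 := by
    rw [div_le_div_iff₀ hK0 (by norm_num)]
    linarith
  have hε₂' : 1 / (K₁ : ℝ) ≤ 1 / 10 := by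
    rw [div_le_div_iff₀ hK0 (by norm_num)]
    linarith
  have hε₂ := eps2_bound (K₁ / 3) K₁ hM3 hK hn3
  have hmain := main_lower (K₁ / 3) (by omega) (by omega) rho nu hcr.1 hcn.1 (rho x₃) (nu x₃) K
    (2 / (K₁ : ℝ)) (1 / (K₁ : ℝ)) hK00 hβ (by positivity) hε₁' hε₂ hε₂' hρa hνa
  have e : 12 / (K₁ : ℝ) = 2 * (1 / (K₁ : ℝ)) + 5 * (2 / (K₁ : ℝ)) := by
    field_simp
    ring
  rw [e]
  exact hmain

open scoped Classical in
/-- The piece with a long cycle. -/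
private theorem core_five {K₁ : ℕ} (rho nu : Perm (Fin n) → ℝ) (HN : NumHyp n K₁) (hn5 : 5 ≤ n)
    (heven : ∀ π : Perm (Fin n), (∃ j ∈ π.cycleType, Even j) → rho π = 0) (K θν θρ y a : ℝ)
    (Hν : SharpHyp n K₁ nu (uNu n K₁) K θν (gam K₁))
    (Hρ : SharpHyp n K₁ rho (uRho n) (kRho n) θρ (gam K₁))
    (hαk : kRho n / (n : ℝ) = |a|) (hy : y = (n : ℝ) ^ 3 / 3 * a ^ 2 * (K / n)) :
    ∑ π ∈ (univ.filter fun π : Perm (Fin n) => sp π ≤ K₁ ∧ ∃ j ∈ π.cycleType, 5 ≤ j),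
      rho π ^ 2 * |nu π| ≤ 6 / (K₁ : ℝ) * Real.exp y := by
  have hKb : (5000 : ℝ) ≤ (K₁ : ℝ) := by exact_mod_cast HN.hK
  have hK0 : (0 : ℝ) < (K₁ : ℝ) := by linarith
  have hv := v_small HN
  obtain ⟨s, hs⟩ : ∃ s : ℝ, s = 2 * n * ((n : ℝ) * (uRho n ^ 2 * uNu n K₁)) ^ 4 := ⟨_, rfl⟩
  have hs0 : 0 ≤ s := by
    rw [hs]
    positivity
  have hs1 : s ≤ 1 / (K₁ : ℝ) := by
    rw [hs]
    exact hv.2
  have hG := gam_pow_le HN.hK
  have hfive := five_sharp K₁ hn5 rho nu heven (uRho n) θρ (uNu n K₁) θν (gam K₁) Hρ.hu0 Hρ.hθ0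
    Hν.hu0 Hν.hθ0 (gam_one_le K₁) hG hv.1
    (fun π hπ => sharp_bound Hρ π hπ) (fun π hπ => sharp_bound Hν π hπ)
  rw [Hν.hθ, Hρ.hθ, hαk, ← hs, sq_abs] at hfive
  have hexpo : (n : ℝ) ^ 3 / 3 * (a ^ 2 * (K / n)) = y := by
    rw [hy]
    ring
  rw [hexpo] at hfive
  have hexps : Real.exp s ≤ 3 := by
    have h1 : Real.exp s ≤ Real.exp 1 := Real.exp_le_exp.2 (hs1.trans (by
      rw [div_le_one hK0]
      linarith))
    have := Real.exp_one_lt_d9
    linarith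
  have hey0 : 0 < Real.exp y := Real.exp_pos y
  refine hfive.trans ?_
  rw [Real.exp_add]
  calc 2 * s * (Real.exp y * Real.exp s) ≤ 2 * (1 / (K₁ : ℝ)) * (Real.exp y * 3) := by
        refine mul_le_mul ?_ ?_ (by positivity) (by positivity)
        · linarith
        · exact mul_le_mul_of_nonneg_left hexps hey0.le
    _ = 6 / (K₁ : ℝ) * Real.exp y := by
        field_simp
        ring

open scoped Classical in
/-- The range `K₁ < sp π ≤ cc n`. -/
private theorem core_far (K₁ : ℕ) (A : ℝ) (hA : 1 ≤ A) (hA2 : 16 * LL ^ 3 * A ^ 2 ≤ K₁)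
    (hK : 5000 ≤ K₁) (hq : LL ^ 3 * (4 * A) ^ 2 ≤ (K₁ : ℝ))
    (hn : (10 : ℝ) ^ 40 * (K₁ : ℝ) ^ 7 ≤ n)
    (rho nu : Perm (Fin n) → ℝ) (hrho : RhoB n rho) (hnu : NuB n (A * Real.sqrt n) nu) :
    ∑ π ∈ (univ.filter fun π : Perm (Fin n) => K₁ < sp π ∧ (sp π : ℝ) ≤ cc * n),
        rho π ^ 2 * |nu π| ≤ 1 / 16 := by
  have hLL0 : (1 : ℝ) ≤ LL := by
    unfold LL
    norm_num
  have hKb : (5000 : ℝ) ≤ (K₁ : ℝ) := by exact_mod_cast hK
  have htailc := tail_size A LL K₁ n hLL0 hA hKb hA2 hn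
  have hcc0 : 0 < cc := by
    unfold cc LL
    norm_num
  have hST := core_tail K₁ cc (LL ^ 3 * (4 * A) ^ 2 / 3 + 1 / 2) hcc0.le
    (fun π => rho π ^ 2 * nu π) (by
    intro k hk hkc
    have hk1 : 1 ≤ k := by omega
    have e : ∀ π : Perm (Fin n), |rho π ^ 2 * nu π| = rho π ^ 2 * |nu π| := by
      intro π
      simp only [abs_mul, abs_pow, sq_abs]
    simp only [e]
    exact tail_explicit A hA htailc rho nu hrho hnu k hk1 hkc)
  have e : ∀ π : Perm (Fin n), |rho π ^ 2 * nu π| = rho π ^ 2 * |nu π| := by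
    intro π
    simp only [abs_mul, abs_pow, sq_abs]
  simp only [e] at hST
  exact hST.trans (tail_const hK _ (by linarith))

/-- The final dichotomy. -/
private theorem core_final (K₁ M : ℕ) (hK : 5000 ≤ K₁) (hM : (K₁ : ℝ) ≤ 3 * ((M : ℝ) + 1))
    (nR D A K X y β α S : ℝ) (hnD : nR = D + 2) (hD5 : 4998 ≤ D) (hA0 : 1 ≤ A)
    (hAK : 16 * 1000 * A ^ 2 ≤ (K₁ : ℝ))
    (hKdef : K = max (nR * |β|) 1) (hK432 : K ≤ 432 * A ^ 2)
    (hy : y = nR ^ 3 / 3 * α ^ 2 * (K / nR)) (hX : X = nR ^ 3 / 3 * α ^ 2 * β)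
    (hy0 : 0 ≤ y) (hyK : y ≤ K / 8) (hlow : -1 ≤ D * β)
    (htotal : ∑ m ∈ range (M + 1), X ^ m / (m.factorial : ℝ) -
      (18 / (K₁ : ℝ)) * Real.exp y - 1 / 8 ≤ S) : 0 < S := by
  have hn0 : 0 < nR := by linarith
  have hKb : (5000 : ℝ) ≤ (K₁ : ℝ) := by exact_mod_cast hK
  have hK0 : (0 : ℝ) < (K₁ : ℝ) := by linarith
  have hey0 : 0 < Real.exp y := Real.exp_pos y
  have h18 : 18 / (K₁ : ℝ) ≤ 1 / 100 := by
    rw [div_le_div_iff₀ hK0 (by norm_num)]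
    linarith
  by_cases hcase : 1 ≤ nR * β
  · have hβ0 : 0 < β := by
      by_contra h
      push Not at h
      have : nR * β ≤ 0 := mul_nonpos_of_nonneg_of_nonpos hn0.le h
      linarith
    have hKeq : K = nR * β := by
      rw [hKdef, abs_of_pos hβ0]
      exact max_eq_left hcase
    have hXy : X = y := by
      rw [hX, hy, hKeq]
      field_simp
    have hyM : 2 * y ≤ (M : ℝ) + 1 := by nlinarith
    have h1 := exp_partial_ge y hy0 M hyM
    rw [hXy] at htotal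
    have hey1 : 1 ≤ Real.exp y := Real.one_le_exp hy0
    have h2 : 18 / (K₁ : ℝ) * Real.exp y ≤ 1 / 100 * Real.exp y :=
      mul_le_mul_of_nonneg_right h18 hey0.le
    linarith
  · push Not at hcase
    have hKle : K ≤ 2 := by
      rw [hKdef]
      refine max_le ?_ (by norm_num)
      rcases le_or_gt 0 β with hb | hb
      · rw [abs_of_nonneg hb]
        linarith
      · rw [abs_of_neg hb, hnD]
        nlinarith
    have hy4 : y ≤ 1 / 4 := by linarith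
    have hXabs : |X| ≤ y := by
      rw [hX, hy, abs_mul]
      have hc0 : 0 ≤ nR ^ 3 / 3 * α ^ 2 := by positivity
      rw [abs_of_nonneg hc0]
      refine mul_le_mul_of_nonneg_left ?_ hc0
      rw [le_div_iff₀ hn0, hKdef, mul_comm]
      exact le_max_left _ _
    have h1 := exp_partial_small X (hXabs.trans hy4) M
    have he : Real.exp y ≤ 13 / 10 :=
      (Real.exp_le_exp.2 hy4).trans exp_quarter_le
    have h2 : 18 / (K₁ : ℝ) * Real.exp y ≤ 1 / 100 * (13 / 10) :=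
      mul_le_mul h18 he hey0.le (by norm_num)
    linarith

open scoped Classical in
/-- The analytic core: positivity for `ν` with at most `A √n` rows and columns, `A` may depend on
`n`, with explicit conditions. -/
theorem assemble_core (K₁ : ℕ) (A : ℝ) (hA : 1 ≤ A) (hA2 : 16 * LL ^ 3 * A ^ 2 ≤ K₁)
    (hn : (10 : ℝ) ^ 40 * (K₁ : ℝ) ^ 7 ≤ n)
    (rho nu : Perm (Fin n) → ℝ) (hrho : RhoB n rho) (hnu : NuB n (A * Real.sqrt n) nu)
    (hcr : ClassMult n rho) (hcn : ClassMult n nu) (hr1 : rho 1 = 1) (hn1 : nu 1 = 1)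
    (hW : ∑ π ∈ (univ.filter fun π : Perm (Fin n) => cc * (n : ℝ) < (sp π : ℝ)),
        rho π ^ 2 * |nu π| ≤ 1 / 16) :
    0 < ∑ π, rho π ^ 2 * nu π := by
  obtain ⟨hK, hA16, hq, hAK⟩ := num_K K₁ A hA hA2
  obtain ⟨hn3, hKn⟩ := num_n K₁ hK hn
  have hA20 : 1 ≤ A ^ 2 := by nlinarith
  have hn5000 : 5000 ≤ n := hK.trans hKn
  have hnR : (5000 : ℝ) ≤ n := by exact_mod_cast hn5000
  have hn0 : (0 : ℝ) < n := by linarith
  have HN : NumHyp n K₁ := ⟨hK, hn⟩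
  -- a three-cycle
  obtain ⟨x₃, hx₃⟩ : ∃ x : Perm (Fin n), x.cycleType = {3} := by
    rw [Perm.exists_with_cycleType_iff]
    simp only [Multiset.sum_singleton, Fintype.card_fin, Multiset.mem_singleton, forall_eq]
    omega
  obtain ⟨D, hD⟩ : ∃ D : ℝ, D = (n : ℝ) - 2 := ⟨_, rfl⟩
  have hD5 : (4998 : ℝ) ≤ D := by
    rw [hD]
    linarith
  have hD0 : 0 < D := by linarith
  have hnD : (n : ℝ) = D + 2 := by
    rw [hD]
    ring
  have hα : rho x₃ = -1 / (2 * D) := by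
    rw [hD]
    exact rho_three rho hcr hr1 hrho.1 (by omega) x₃ hx₃
  obtain ⟨hαabs, hα2⟩ := alpha_facts (rho x₃) D hD0 hα
  have hαk : kRho n / (n : ℝ) = |rho x₃| := by
    rw [hαabs, kRho, ← hD]
    field_simp
  obtain ⟨K, hKdef⟩ : ∃ K : ℝ, K = max ((n : ℝ) * |nu x₃|) 1 := ⟨_, rfl⟩
  have hK1 : 1 ≤ K := by
    rw [hKdef]
    exact le_max_right _ _
  have hK00 : 0 ≤ K := by linarith
  have hβK : (n : ℝ) * |nu x₃| ≤ K := by
    rw [hKdef]
    exact le_max_left _ _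
  have hK432 : K ≤ 432 * A ^ 2 := by
    rw [hKdef]
    refine max_le ?_ (by linarith)
    exact nu_three_le A hA (by omega) nu hnu x₃ hx₃
  have hK324 : K ≤ 324 * (K₁ : ℝ) := by linarith
  have h3ν : ∀ x : Perm (Fin n), x.cycleType = {3} → |nu x| ≤ K / n := by
    intro x hx
    have e : nu x = nu x₃ := hcn.1 _ _ (hx.trans hx₃.symm)
    rw [e, le_div_iff₀ hn0]
    linarith
  have Hν := sharp_nu A hA hA16 HN nu hnu hcn K hK1 hK324 h3ν
  have Hρ := sharp_rho HN rho hrho hcr hr1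
  obtain ⟨y, hydef⟩ : ∃ y : ℝ, y = (n : ℝ) ^ 3 / 3 * rho x₃ ^ 2 * (K / n) := ⟨_, rfl⟩
  obtain ⟨X, hXdef⟩ : ∃ X : ℝ, X = (n : ℝ) ^ 3 / 3 * rho x₃ ^ 2 * nu x₃ := ⟨_, rfl⟩
  have hmain := core_main rho nu HN hn3 hKn hcr hcn hr1 hn1 K _ _ hK00 hK1 Hν Hρ x₃ hx₃ hαk
    (h3ν x₃ hx₃)
  rw [← hydef, ← hXdef] at hmain
  obtain ⟨hy0, hyK⟩ := y_bound (n : ℝ) D (rho x₃) K y hnD hD5 hK00 hα2 hydef
  -- the decomposition
  have hfev : ∀ π : Perm (Fin n), (∃ j ∈ π.cycleType, Even j) → rho π ^ 2 * nu π = 0 := by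
    intro π hev
    simp only [hrho.1 π hev]
    ring
  have hdec := core_decomp K₁ cc (fun π => rho π ^ 2 * nu π) hfev
  have e : ∀ π : Perm (Fin n), |rho π ^ 2 * nu π| = rho π ^ 2 * |nu π| := by
    intro π
    simp only [abs_mul, abs_pow, sq_abs]
  simp only [e] at hdec
  have hSF := core_five rho nu HN (by omega) hrho.1 K _ _ y (rho x₃) Hν Hρ hαk hydef
  have hST := core_far K₁ A hA hA2 hK hq hn rho nu hrho hnu
  have hlow := three_lower nu hcn hn1 (by omega) x₃ hx₃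
  rw [← hD] at hlow
  have hMR : (K₁ : ℝ) ≤ 3 * (((K₁ / 3 : ℕ) : ℝ) + 1) := by
    have h3 : K₁ < 3 * (K₁ / 3 + 1) := by omega
    have : (K₁ : ℝ) < ((3 * (K₁ / 3 + 1) : ℕ) : ℝ) := by exact_mod_cast h3
    push_cast at this
    push_cast
    linarith
  refine core_final K₁ (K₁ / 3) hK hMR (n : ℝ) D A K X y (nu x₃) (rho x₃) _ hnD hD5 hA hAK hKdef
    hK432 hydef hXdef hy0 hyK hlow ?_
  have e2 : 18 / (K₁ : ℝ) * Real.exp y =
      12 / (K₁ : ℝ) * Real.exp y + 6 / (K₁ : ℝ) * Real.exp y := by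
    field_simp
    ring
  rw [e2]
  linarith

end Vale.Agent.Lib.P197S
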