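import Vale.Agent.Lib.P197S.Basic

/-!
# P197S: the exact value at a three-cycle when even cycles vanish (blueprint Sec 3)
-/

open Equiv Finset

namespace Vale.Agent.Lib.P197S

open Vale.Agent.Lib.P197

variable {n : ℕ}

private theorem swap_cycleType {a b : Fin n} (h : a ≠ b) : (swap a b).cycleType = {2} := by
  rw [(Perm.isCycle_swap h).cycleType, Perm.card_support_swap h]

private theorem exists_move {a b p q : Fin n} (hab : a ≠ b) (hpq : p ≠ q) :
    ∃ σ : Perm (Fin n), σ a = p ∧ σ b = q := by
  refine ⟨swap (swap a p b) q * swap a p, ?_, ?_⟩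
  · have h1 : p ≠ swap a p b := by
      intro h
      have h2 : swap a p a = swap a p b := by rw [swap_apply_left]; exact h
      exact hab ((swap a p).injective h2)
    rw [Perm.mul_apply, swap_apply_left]
    exact swap_apply_of_ne_of_ne h1 hpq
  · rw [Perm.mul_apply, swap_apply_left]

private theorem fiber_card (a b p q : Fin n) (hab : a ≠ b) (hpq : p ≠ q) :
    (univ.filter fun g : Perm (Fin n) => (g a, g b) = (p, q)).card =
      (univ.filter fun g : Perm (Fin n) => (g a, g b) = (a, b)).card := by
  obtain ⟨σ, h1, h2⟩ := exists_move (a := a) (b := b) (p := p) (q := q) hab hpq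
  symm
  refine Finset.card_bij (fun g _ => σ * g) ?_ ?_ ?_
  · intro g hg
    simp only [mem_filter, mem_univ, true_and, Prod.mk.injEq] at hg ⊢
    simp [hg.1, hg.2, h1, h2]
  · intro g _ g' _ h
    exact mul_left_cancel h
  · intro g hg
    simp only [mem_filter, mem_univ, true_and, Prod.mk.injEq] at hg
    refine ⟨σ⁻¹ * g, ?_, by simp⟩
    simp only [mem_filter, mem_univ, true_and, Prod.mk.injEq]
    constructor
    · rw [Perm.mul_apply, hg.1, ← h1]; simp
    · rw [Perm.mul_apply, hg.2, ← h2]; simp

/-- If `r` vanishes on permutations with an even cycle, then `r` at a three-cycle is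
`-1 / (2 (n - 2))`: expand `r(τ)² = 0` for a transposition `τ`. -/
theorem rho_three (r : Perm (Fin n) → ℝ) (hr : ClassMult n r) (h1 : r 1 = 1)
    (heven : ∀ π : Perm (Fin n), (∃ j ∈ π.cycleType, Even j) → r π = 0) (hn : 4 ≤ n)
    (x : Perm (Fin n)) (hx : x.cycleType = {3}) : r x = -1 / (2 * ((n : ℝ) - 2)) := by
  classical
  obtain ⟨a, b, hab⟩ : ∃ a b : Fin n, a ≠ b :=
    ⟨⟨0, by omega⟩, ⟨1, by omega⟩, by simp [Fin.ext_iff]⟩
  set τ : Perm (Fin n) := swap a b with hτ
  have hτc : τ.cycleType = {2} := swap_cycleType hab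
  have hrτ : r τ = 0 := heven _ ⟨2, by simp [hτc], by decide⟩
  have hfac : ((n.factorial : ℕ) : ℝ) ≠ 0 := by exact_mod_cast n.factorial_ne_zero
  have hsum : ∑ g : Perm (Fin n), r (τ * (g * τ * g⁻¹)) = 0 := by
    have h := hr.2 τ τ
    rw [hrτ, mul_zero] at h
    have h' := (mul_eq_zero.mp h.symm).resolve_left (inv_ne_zero hfac)
    exact h'
  have hconj : ∀ g : Perm (Fin n), g * τ * g⁻¹ = swap (g a) (g b) := by
    intro g
    rw [hτ, Perm.mul_def, Perm.mul_def]
    ext i
    simp only [Equiv.trans_apply, Perm.inv_def, swap_apply_def, Equiv.symm_apply_eq]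
    by_cases h1 : i = g a
    · subst h1; simp
    · by_cases h2 : i = g b
      · subst h2
        simp [hab.symm]
      · have h3 : g.symm i ≠ a := fun h => h1 (by rw [← h]; simp)
        have h4 : g.symm i ≠ b := fun h => h2 (by rw [← h]; simp)
        simp [h1, h2]
  let F : Fin n × Fin n → ℝ := fun z => r (τ * swap z.1 z.2)
  set N0 : ℕ := (univ.filter fun g : Perm (Fin n) => (g a, g b) = (a, b)).card with hN0
  have hN0pos : 0 < N0 := by
    apply Finset.card_pos.mpr
    exact ⟨1, by simp⟩
  have hsum2 : ∑ z : Fin n × Fin n, (if z.1 = z.2 then (0 : ℝ) else F z) = 0 := by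
    have h2 : ∑ g : Perm (Fin n), r (τ * (g * τ * g⁻¹)) =
        ∑ z : Fin n × Fin n, ∑ g ∈ univ.filter (fun g : Perm (Fin n) => (g a, g b) = z),
          r (τ * (g * τ * g⁻¹)) :=
      (Finset.sum_fiberwise _ _ _).symm
    have h3 : ∀ z : Fin n × Fin n,
        ∑ g ∈ univ.filter (fun g : Perm (Fin n) => (g a, g b) = z),
          r (τ * (g * τ * g⁻¹)) = (N0 : ℝ) * (if z.1 = z.2 then (0 : ℝ) else F z) := by
      rintro ⟨p, q⟩
      by_cases hpq : p = q
      · subst hpq
        have : (univ.filter (fun g : Perm (Fin n) => (g a, g b) = (p, p))) = ∅ := by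
          apply Finset.filter_eq_empty_iff.mpr
          intro g _ h
          simp only [Prod.mk.injEq] at h
          exact hab (g.injective (h.1.trans h.2.symm))
        rw [this]
        simp
      · have h5 : ∀ g ∈ univ.filter (fun g : Perm (Fin n) => (g a, g b) = (p, q)),
            r (τ * (g * τ * g⁻¹)) = F (p, q) := by
          intro g hg
          simp only [mem_filter, mem_univ, true_and, Prod.mk.injEq] at hg
          simp only [F]
          rw [hconj, hg.1, hg.2]
        rw [Finset.sum_congr rfl h5, Finset.sum_const, fiber_card a b p q hab hpq, nsmul_eq_mul]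
        show _ = (N0 : ℝ) * (if p = q then (0 : ℝ) else F (p, q))
        rw [if_neg hpq]
    rw [h2, Finset.sum_congr rfl (fun z _ => h3 z), ← Finset.mul_sum] at hsum
    have hN0' : (N0 : ℝ) ≠ 0 := by exact_mod_cast hN0pos.ne'
    exact (mul_eq_zero.mp hsum).resolve_left hN0'
  -- the three values
  have hFab : ∀ p q : Fin n, ({p, q} : Finset (Fin n)) = {a, b} → p ≠ q → F (p, q) = 1 := by
    intro p q h hpq
    have hp : p = a ∨ p = b := by
      have : p ∈ ({a, b} : Finset (Fin n)) := by rw [← h]; simp
      simpa using this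
    have hq : q = a ∨ q = b := by
      have : q ∈ ({a, b} : Finset (Fin n)) := by rw [← h]; simp
      simpa using this
    simp only [F]
    rcases hp with hp | hp <;> rcases hq with hq | hq
    · exact absurd (hp.trans hq.symm) hpq
    · rw [hp, hq, hτ, swap_mul_self, h1]
    · rw [hp, hq, hτ, swap_comm b a, swap_mul_self, h1]
    · exact absurd (hp.trans hq.symm) hpq
  have hthree : ∀ σ : Perm (Fin n), σ.IsThreeCycle → r σ = r x := by
    intro σ hσ
    exact hr.1 _ _ (by rw [hx]; exact hσ)
  have hF1 : ∀ q : Fin n, q ≠ a → q ≠ b → F (a, q) = r x := by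
    intro q hqa hqb
    exact hthree _ (Perm.isThreeCycle_swap_mul_swap_same hab hqa.symm hqb.symm)
  have hF2 : ∀ q : Fin n, q ≠ a → q ≠ b → F (q, a) = r x := by
    intro q hqa hqb
    simp only [F]
    rw [swap_comm q a]
    exact hF1 q hqa hqb
  have hF3 : ∀ q : Fin n, q ≠ a → q ≠ b → F (b, q) = r x := by
    intro q hqa hqb
    simp only [F]
    rw [hτ, swap_comm a b]
    exact hthree _ (Perm.isThreeCycle_swap_mul_swap_same hab.symm hqb.symm hqa.symm)
  have hF4 : ∀ q : Fin n, q ≠ a → q ≠ b → F (q, b) = r x := by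
    intro q hqa hqb
    simp only [F]
    rw [swap_comm q b]
    exact hF3 q hqa hqb
  have hF0 : ∀ p q : Fin n, p ≠ a → p ≠ b → q ≠ a → q ≠ b → p ≠ q → F (p, q) = 0 := by
    intro p q hpa hpb hqa hqb hpq
    apply heven
    have hd : Perm.Disjoint τ (swap p q) := by
      intro i
      by_cases h1 : i = a
      · subst h1
        right
        exact swap_apply_of_ne_of_ne hpa.symm hqa.symm
      · by_cases h2 : i = b
        · subst h2
          right
          exact swap_apply_of_ne_of_ne hpb.symm hqb.symm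
        · left
          exact swap_apply_of_ne_of_ne h1 h2
    refine ⟨2, ?_, by decide⟩
    rw [Perm.Disjoint.cycleType_mul hd, hτc]
    simp
  -- split the double sum
  set T : Finset (Fin n) := {a, b} with hT
  have hsplit : ∀ f : Fin n → ℝ, ∑ p, f p = f a + f b + ∑ p ∈ Tᶜ, f p := by
    intro f
    rw [← Finset.sum_add_sum_compl T f, hT, Finset.sum_pair hab]
  have hRcard : (Tᶜ).card = n - 2 := by
    rw [Finset.card_compl, Fintype.card_fin, hT, Finset.card_pair hab]
  have hR : ∀ p ∈ Tᶜ, p ≠ a ∧ p ≠ b := by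
    intro p hp
    simp [hT] at hp
    exact hp
  let f : Fin n × Fin n → ℝ := fun z => if z.1 = z.2 then (0 : ℝ) else F z
  have hval : ∑ z : Fin n × Fin n, f z =
      2 + 4 * ((n : ℝ) - 2) * r x := by
    rw [Fintype.sum_prod_type]
    have hcast : (((Tᶜ).card : ℕ) : ℝ) = (n : ℝ) - 2 := by
      rw [hRcard, Nat.cast_sub (by omega)]
      norm_num
    have e1 : ∑ q, f (a, q) = 1 + (n - 2) * r x := by
      rw [hsplit]
      have : f (a, a) = 0 := by simp [f]
      have h2 : f (a, b) = 1 := by
        simp only [f, hab, if_false]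
        exact hFab a b rfl hab
      have h3 : ∑ q ∈ Tᶜ, f (a, q) = ∑ _q ∈ Tᶜ, r x := by
        refine Finset.sum_congr rfl fun q hq => ?_
        obtain ⟨h1', h2'⟩ := hR q hq
        simp only [f, h1'.symm, if_false]
        exact hF1 q h1' h2'
      rw [this, h2, h3, Finset.sum_const, nsmul_eq_mul, hcast]
      ring
    have e2 : ∑ q, f (b, q) = 1 + (n - 2) * r x := by
      rw [hsplit]
      have : f (b, b) = 0 := by simp [f]
      have h2 : f (b, a) = 1 := by
        simp only [f, hab.symm, if_false]
        exact hFab b a (Finset.pair_comm b a) hab.symm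
      have h3 : ∑ q ∈ Tᶜ, f (b, q) = ∑ _q ∈ Tᶜ, r x := by
        refine Finset.sum_congr rfl fun q hq => ?_
        obtain ⟨h1', h2'⟩ := hR q hq
        simp only [f, h2'.symm, if_false]
        exact hF3 q h1' h2'
      rw [this, h2, h3, Finset.sum_const, nsmul_eq_mul, hcast]
      ring
    have e3 : ∀ p ∈ Tᶜ, ∑ q, f (p, q) = 2 * r x := by
      intro p hp
      obtain ⟨h1', h2'⟩ := hR p hp
      rw [hsplit]
      have h3 : f (p, a) = r x := by
        simp only [f, h1', if_false]
        exact hF2 p h1' h2'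
      have h4 : f (p, b) = r x := by
        simp only [f, h2', if_false]
        exact hF4 p h1' h2'
      have h5 : ∑ q ∈ Tᶜ, f (p, q) = 0 := by
        refine Finset.sum_eq_zero fun q hq => ?_
        obtain ⟨h1'', h2''⟩ := hR q hq
        by_cases hpq : p = q
        · simp [f, hpq]
        · simp only [f, hpq, if_false]
          exact hF0 p q h1' h2' h1'' h2'' hpq
      rw [h3, h4, h5]
      ring
    rw [hsplit]
    rw [e1, e2, Finset.sum_congr rfl e3, Finset.sum_const, nsmul_eq_mul, hcast]
    ring
  have hz : 2 + 4 * ((n : ℝ) - 2) * r x = 0 := by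
    rw [← hval]
    exact hsum2
  have hn2 : (0 : ℝ) < (n : ℝ) - 2 := by
    have : (4 : ℝ) ≤ n := by exact_mod_cast hn
    linarith
  field_simp
  linarith

end Vale.Agent.Lib.P197S
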