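import Vale.Agent.Lib.P197S.L2
import Vale.Agent.Lib.P197S.TailX

/-!
# P197S: the large-support sum from the restricted square sum (blueprint Sec 13)
-/

open Equiv Finset

namespace Vale.Agent.Lib.P197S

open Vale.Agent.Lib.P197

variable {n : ℕ}

/-- The weights of the fourth power sum. -/
private noncomputable def wF (t u : ℝ) (j : ℕ) : ℝ :=
  if Odd j ∧ 3 ≤ j then t ^ j * u ^ (j - 1) else 0

private lemma wF_nonneg {t u : ℝ} (ht : 0 ≤ t) (hu : 0 ≤ u) (j : ℕ) : 0 ≤ wF t u j := by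
  unfold wF
  split_ifs <;> positivity

private lemma prod_wF (t u : ℝ) (s : Multiset ℕ) (hs : ∀ j ∈ s, Odd j ∧ 3 ≤ j) :
    Multiset.card s ≤ s.sum ∧
      (s.map (wF t u)).prod = t ^ s.sum * u ^ (s.sum - Multiset.card s) := by
  induction s using Multiset.induction_on with
  | empty => simp
  | cons a t' ih =>
    have ha := hs a (Multiset.mem_cons_self a t')
    obtain ⟨h1, h2⟩ := ih (fun j hj => hs j (Multiset.mem_cons_of_mem hj))
    refine ⟨by simp only [Multiset.card_cons, Multiset.sum_cons]; omega, ?_⟩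
    simp only [Multiset.map_cons, Multiset.prod_cons, Multiset.sum_cons, Multiset.card_cons, h2]
    have e : a + t'.sum - (Multiset.card t' + 1) = (a - 1) + (t'.sum - Multiset.card t') := by omega
    rw [e, pow_add, pow_add]
    simp only [wF, if_pos ha]
    ring

/-- The odd geometric sum up to an even point. -/
private lemma odd_geom_even {r : ℝ} (h0 : 0 ≤ r) (h1 : r ≤ 1 / 2) (i : ℕ) :
    ∑ j ∈ Icc 2 (2 * i + 2), (if Odd j ∧ 3 ≤ j then r ^ j else 0) +
      4 / 3 * r ^ (2 * i + 3) ≤ 4 / 3 * r ^ 3 := by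
  induction i with
  | zero => simp
  | succ i ih =>
    have e1 : 2 * (i + 1) + 2 = 2 * i + 2 + 1 + 1 := by ring
    rw [e1, Finset.sum_Icc_succ_top (by omega), Finset.sum_Icc_succ_top (by omega)]
    have h3 : Odd (2 * i + 2 + 1) ∧ 3 ≤ 2 * i + 2 + 1 := ⟨⟨i + 1, by ring⟩, by omega⟩
    have h4 : ¬ (Odd (2 * i + 2 + 1 + 1) ∧ 3 ≤ 2 * i + 2 + 1 + 1) := by
      rintro ⟨h, _⟩
      rw [Nat.odd_iff] at h
      omega
    rw [if_pos h3, if_neg h4]
    have hp : 0 ≤ r ^ (2 * i + 3) := by positivity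
    have e2 : r ^ (2 * (i + 1) + 3) = r ^ (2 * i + 3) * r ^ 2 := by
      rw [← pow_add]
      ring_nf
    have e3 : r ^ (2 * i + 2 + 1) = r ^ (2 * i + 3) := rfl
    rw [e2, e3]
    have hr2 : r ^ 2 ≤ 1 / 4 := by nlinarith
    have : r ^ (2 * i + 3) * r ^ 2 ≤ r ^ (2 * i + 3) * (1 / 4) :=
      mul_le_mul_of_nonneg_left hr2 hp
    linarith

private lemma odd_geom {r : ℝ} (h0 : 0 ≤ r) (h1 : r ≤ 1 / 2) (m : ℕ) :
    ∑ j ∈ Icc 2 m, (if Odd j ∧ 3 ≤ j then r ^ j else 0) ≤ 4 / 3 * r ^ 3 := by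
  have h := odd_geom_even h0 h1 m
  have hp : 0 ≤ r ^ (2 * m + 3) := by positivity
  have hsub : ∑ j ∈ Icc 2 m, (if Odd j ∧ 3 ≤ j then r ^ j else 0) ≤
      ∑ j ∈ Icc 2 (2 * m + 2), (if Odd j ∧ 3 ≤ j then r ^ j else 0) := by
    refine Finset.sum_le_sum_of_subset_of_nonneg ?_ ?_
    · intro j hj
      rw [mem_Icc] at hj ⊢
      omega
    · intro j _ _
      split_ifs <;> positivity
  linarith

/-- The fourth power sum of the staircase character over support size `k`. -/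
theorem rho_four (rho : Perm (Fin n) → ℝ) (hrho : RhoB n rho) (hn : 3 ≤ n) (k : ℕ) (t : ℝ)
    (ht0 : 0 < t) (ht : 2 * t ≤ n) :
    ∑ π ∈ (univ.filter fun π : Perm (Fin n) => sp π = k), rho π ^ 4 ≤
      ((45 : ℝ) ^ 4 / t) ^ k * Real.exp (4 / 9 * t ^ 3 / n) := by
  have hnR : (3 : ℝ) ≤ n := by exact_mod_cast hn
  have hn0 : (0 : ℝ) < n := by linarith
  set u : ℝ := ((n : ℝ) ^ 2)⁻¹ with hu
  have hu0 : 0 < u := by positivity
  set w := wF t u with hw
  have hw0 : ∀ j, 0 ≤ w j := wF_nonneg ht0.le hu0.le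
  have hprod0 : ∀ π : Perm (Fin n), 0 ≤ (π.cycleType.map w).prod := by
    intro π
    refine Multiset.prod_nonneg (fun x hx => ?_)
    obtain ⟨j, _, rfl⟩ := Multiset.mem_map.1 hx
    exact hw0 j
  have hC0 : 0 ≤ ((45 : ℝ) ^ 4 / t) ^ k := by positivity
  -- a single permutation
  have hone : ∀ π : Perm (Fin n), sp π = k →
      rho π ^ 4 ≤ ((45 : ℝ) ^ 4 / t) ^ k * (π.cycleType.map w).prod := by
    intro π hsp
    by_cases hev : ∃ j ∈ π.cycleType, Even j
    · rw [hrho.1 π hev]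
      have := mul_nonneg hC0 (hprod0 π)
      simpa using this
    · have hodd : ∀ j ∈ π.cycleType, Odd j ∧ 3 ≤ j := by
        intro j hj
        have h2 := Equiv.Perm.two_le_of_mem_cycleType hj
        have ho : Odd j := by
          by_contra h
          exact hev ⟨j, hj, Nat.not_odd_iff_even.1 h⟩
        refine ⟨ho, ?_⟩
        obtain ⟨i, rfl⟩ := ho
        omega
      have hp := (prod_wF t u π.cycleType hodd).2
      have hb := hrho.2 π
      have hs0 : (0 : ℝ) ≤ (Real.sqrt n)⁻¹ := by positivity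
      have h4 : rho π ^ 4 = |rho π| ^ 4 := by
        rw [show (4 : ℕ) = 2 * 2 from rfl, pow_mul, pow_mul, sq_abs]
      have hs4 : ((Real.sqrt n)⁻¹) ^ 4 = u := by
        rw [hu, inv_pow, show (4 : ℕ) = 2 * 2 from rfl, pow_mul, Real.sq_sqrt hn0.le]
      have hkey : ((45 : ℝ) ^ sp π * ((Real.sqrt n)⁻¹) ^ rk π) ^ 4 =
          ((45 : ℝ) ^ 4 / t) ^ k * (π.cycleType.map w).prod := by
        have hpr : (π.cycleType.map w).prod = t ^ k * u ^ rk π := by
          rw [hw, hp, ← hsp]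
          rfl
        have h1 : (((Real.sqrt n)⁻¹) ^ rk π) ^ 4 = u ^ rk π := by
          rw [← pow_mul, mul_comm, pow_mul, hs4]
        have h2 : ((45 : ℝ) ^ k) ^ 4 = ((45 : ℝ) ^ 4) ^ k := by
          rw [← pow_mul, ← pow_mul, mul_comm]
        rw [mul_pow, h1, hpr, hsp, h2, div_pow]
        field_simp
      rw [h4, ← hkey]
      exact pow_le_pow_left₀ (abs_nonneg _) hb 4
  -- the exponent
  have hexp : ∑ j ∈ Icc 2 n, ((n : ℝ) ^ j / j) * w j ≤ 4 / 9 * t ^ 3 / n := by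
    set r : ℝ := t / n with hr
    have hr0 : 0 ≤ r := by positivity
    have hr1 : r ≤ 1 / 2 := by
      rw [hr, div_le_iff₀ hn0]
      linarith
    have hterm : ∀ j ∈ Icc 2 n, ((n : ℝ) ^ j / j) * w j ≤
        (n : ℝ) ^ 2 / 3 * (if Odd j ∧ 3 ≤ j then r ^ j else 0) := by
      intro j hj
      rw [mem_Icc] at hj
      by_cases hc : Odd j ∧ 3 ≤ j
      · rw [if_pos hc]
        have hwj : w j = t ^ j * u ^ (j - 1) := by
          simp only [hw, wF, if_pos hc]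
        rw [hwj]
        have hj3 : (3 : ℝ) ≤ j := by exact_mod_cast hc.2
        have hj0 : (0 : ℝ) < j := by linarith
        obtain ⟨i, rfl⟩ : ∃ i, j = i + 1 := ⟨j - 1, by omega⟩
        simp only [Nat.add_sub_cancel]
        have e : (n : ℝ) ^ (i + 1) / ((i + 1 : ℕ) : ℝ) * (t ^ (i + 1) * u ^ i) =
            ((n : ℝ) ^ 2 * r ^ (i + 1)) / ((i + 1 : ℕ) : ℝ) := by
          rw [hr, hu, div_pow, inv_pow, pow_succ, pow_succ t]
          field_simp
          ring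
        rw [e]
        have e' : (n : ℝ) ^ 2 / 3 * r ^ (i + 1) = ((n : ℝ) ^ 2 * r ^ (i + 1)) / 3 := by ring
        rw [e']
        exact div_le_div_of_nonneg_left (by positivity) (by norm_num) hj3
      · rw [if_neg hc]
        have hwj : w j = 0 := by
          simp only [hw, wF, if_neg hc]
        rw [hwj]
        simp
    calc ∑ j ∈ Icc 2 n, ((n : ℝ) ^ j / j) * w j
        ≤ ∑ j ∈ Icc 2 n, (n : ℝ) ^ 2 / 3 * (if Odd j ∧ 3 ≤ j then r ^ j else 0) :=
          Finset.sum_le_sum hterm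
      _ = (n : ℝ) ^ 2 / 3 * ∑ j ∈ Icc 2 n, (if Odd j ∧ 3 ≤ j then r ^ j else 0) := by
          rw [Finset.mul_sum]
      _ ≤ (n : ℝ) ^ 2 / 3 * (4 / 3 * r ^ 3) :=
          mul_le_mul_of_nonneg_left (odd_geom hr0 hr1 n) (by positivity)
      _ = 4 / 9 * t ^ 3 / n := by
          rw [hr, div_pow]
          field_simp
          ring
  calc ∑ π ∈ (univ.filter fun π : Perm (Fin n) => sp π = k), rho π ^ 4
      ≤ ∑ π ∈ (univ.filter fun π : Perm (Fin n) => sp π = k),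
          ((45 : ℝ) ^ 4 / t) ^ k * (π.cycleType.map w).prod := by
        refine Finset.sum_le_sum (fun π hπ => ?_)
        rw [mem_filter] at hπ
        exact hone π hπ.2
    _ ≤ ∑ π : Perm (Fin n), ((45 : ℝ) ^ 4 / t) ^ k * (π.cycleType.map w).prod := by
        refine Finset.sum_le_sum_of_subset_of_nonneg (filter_subset _ _) ?_
        intro π _ _
        exact mul_nonneg hC0 (hprod0 π)
    _ = ((45 : ℝ) ^ 4 / t) ^ k * ∑ π : Perm (Fin n), (π.cycleType.map w).prod := by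
        rw [Finset.mul_sum]
    _ ≤ ((45 : ℝ) ^ 4 / t) ^ k * Real.exp (4 / 9 * t ^ 3 / n) := by
        refine mul_le_mul_of_nonneg_left ?_ hC0
        exact (exp_sum w hw0).trans (Real.exp_le_exp.2 hexp)

/-- The constant of the large-support range. -/
noncomputable def C3 : ℝ := 144 * 45 ^ 4 * Real.exp (4 / 9) / cc ^ 2

private theorem cc_pos' : 0 < cc := by
  unfold cc LL
  positivity

private theorem cc_le' : 8 * cc ≤ 1 := by
  unfold cc LL
  norm_num

/-- The bound on the fourth power sum, with the exponent absorbed. -/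
private theorem sp_eq_P (rho : Perm (Fin n) → ℝ) (hrho : RhoB n rho) (hn : 3 ≤ n)
    (k : ℕ) (t : ℝ) (ht0 : 0 < t) (ht3 : t ^ 3 = cc * (n : ℝ) ^ 2) (hkn : cc * (n : ℝ) < k) :
    ∑ π ∈ (univ.filter fun π : Perm (Fin n) => sp π = k), rho π ^ 4 ≤
      ((45 : ℝ) ^ 4 * Real.exp (4 / 9) / t) ^ k := by
  have hn0 : (0 : ℝ) < n := by
    have : 0 < n := by omega
    exact_mod_cast this
  have hn3 : (3 : ℝ) ≤ n := by exact_mod_cast hn
  have h2t : 2 * t ≤ n := by
    have h8 := cc_le'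
    have hcc := cc_pos'
    have h : (2 * t) ^ 3 ≤ (n : ℝ) ^ 3 := by
      have e1 : (2 * t) ^ 3 = 8 * (t ^ 3) := by ring
      rw [e1, ht3]
      have e2 : (n : ℝ) ^ 3 = (n : ℝ) * (n : ℝ) ^ 2 := by ring
      rw [e2]
      have h3 : 8 * cc ≤ (n : ℝ) := by linarith
      have h4 : 0 ≤ (n : ℝ) ^ 2 := by positivity
      have := mul_le_mul_of_nonneg_right h3 h4
      linarith
    exact (pow_le_pow_iff_left₀ (by positivity) hn0.le (by norm_num)).1 h
  have h1 := rho_four rho hrho hn k t ht0 h2t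
  refine le_trans h1 ?_
  have hexp : Real.exp (4 / 9 * t ^ 3 / n) ≤ Real.exp (4 / 9) ^ k := by
    rw [← Real.exp_nat_mul]
    apply Real.exp_le_exp.2
    rw [ht3]
    have e : 4 / 9 * (cc * (n : ℝ) ^ 2) / n = 4 / 9 * (cc * n) := by
      field_simp
    rw [e]
    nlinarith
  have e2 : ((45 : ℝ) ^ 4 * Real.exp (4 / 9) / t) ^ k =
      ((45 : ℝ) ^ 4 / t) ^ k * Real.exp (4 / 9) ^ k := by
    rw [← mul_pow]
    congr 1
    ring
  rw [e2]
  exact mul_le_mul_of_nonneg_left hexp (by positivity)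

/-- The bound on the square sum from the hypothesis. -/
private theorem sp_eq_Q (A : ℝ) (hA : 1 ≤ A) (hn0 : (0 : ℝ) < n) (k : ℕ)
    (hkn : cc * (n : ℝ) < k) :
    (n : ℝ) ^ k * ((2 * A * Real.sqrt n) ^ k / (k.factorial : ℝ)) ^ 2 ≤
      (36 * A ^ 2 / cc ^ 2) ^ k := by
  have hcc := cc_pos'
  have hk0 : (0 : ℝ) < k := lt_of_le_of_lt (by positivity) hkn
  have hA0 : 0 < A := by linarith
  have hfact : ((k : ℝ) / 3) ^ k ≤ (k.factorial : ℝ) := huge_fact_lower k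
  have hlow : (0 : ℝ) < ((k : ℝ) / 3) ^ k := by positivity
  have hsq : ((2 * A * Real.sqrt n) ^ k / (k.factorial : ℝ)) ≤
      (2 * A * Real.sqrt n) ^ k / ((k : ℝ) / 3) ^ k :=
    div_le_div_of_nonneg_left (by positivity) hlow hfact
  have hnn : 0 ≤ (2 * A * Real.sqrt n) ^ k / (k.factorial : ℝ) := by positivity
  have h2 := pow_le_pow_left₀ hnn hsq 2
  have hs : Real.sqrt n ^ 2 = n := Real.sq_sqrt hn0.le
  have e1 : ((2 * A * Real.sqrt n) ^ k / ((k : ℝ) / 3) ^ k) ^ 2 =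
      ((36 * A ^ 2 * n) / (k : ℝ) ^ 2) ^ k := by
    rw [← div_pow, ← pow_mul, mul_comm k 2, pow_mul]
    congr 1
    rw [div_pow, mul_pow, mul_pow, hs, div_pow]
    field_simp
    ring
  rw [e1] at h2
  have h3 : (n : ℝ) ^ k * ((2 * A * Real.sqrt n) ^ k / (k.factorial : ℝ)) ^ 2 ≤
      (n : ℝ) ^ k * ((36 * A ^ 2 * n) / (k : ℝ) ^ 2) ^ k :=
    mul_le_mul_of_nonneg_left h2 (by positivity)
  refine le_trans h3 ?_
  rw [← mul_pow]
  apply pow_le_pow_left₀ (by positivity)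
  have h4 : (cc * (n : ℝ)) ^ 2 ≤ (k : ℝ) ^ 2 :=
    pow_le_pow_left₀ (by positivity) hkn.le 2
  rw [show (n : ℝ) * (36 * A ^ 2 * n / (k : ℝ) ^ 2) = 36 * A ^ 2 * ((n : ℝ) ^ 2 / (k : ℝ) ^ 2) by
    ring]
  rw [show 36 * A ^ 2 / cc ^ 2 = 36 * A ^ 2 * (1 / cc ^ 2) by ring]
  apply mul_le_mul_of_nonneg_left _ (by positivity)
  rw [div_le_div_iff₀ (by positivity) (by positivity)]
  nlinarith

/-- One value of the support size. -/
theorem sp_eq_bound (rho nu : Perm (Fin n) → ℝ) (hrho : RhoB n rho) (A : ℝ) (hA : 1 ≤ A)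
    (hn : 3 ≤ n) (hnA : (C3 * A ^ 2) ^ 3 ≤ cc * (n : ℝ) ^ 2)
    (hsq : ∀ k : ℕ, k ≤ n → ∑ π ∈ (univ.filter fun π : Perm (Fin n) => sp π = k), nu π ^ 2 ≤
      (n : ℝ) ^ k * ((2 * A * Real.sqrt n) ^ k / (k.factorial : ℝ)) ^ 2)
    (k : ℕ) (hk : k ≤ n) (hkn : cc * (n : ℝ) < k) :
    ∑ π ∈ (univ.filter fun π : Perm (Fin n) => sp π = k), rho π ^ 2 * |nu π| ≤ (1 / 2 : ℝ) ^ k := by
  have hcc := cc_pos'
  have hn0 : (0 : ℝ) < n := by
    have : 0 < n := by omega
    exact_mod_cast this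
  have hA0 : 0 < A := by linarith
  -- the parameter `t`
  obtain ⟨t, ht0, ht3⟩ : ∃ t : ℝ, 0 < t ∧ t ^ 3 = cc * (n : ℝ) ^ 2 := by
    refine ⟨(cc * (n : ℝ) ^ 2) ^ ((1 : ℝ) / 3), by positivity, ?_⟩
    rw [← Real.rpow_natCast, ← Real.rpow_mul (by positivity)]
    norm_num
  have hC3 : 0 < C3 := by
    unfold C3
    positivity
  have hCt : C3 * A ^ 2 ≤ t := by
    rw [← ht3] at hnA
    exact (pow_le_pow_iff_left₀ (by positivity) ht0.le (by norm_num)).1 hnA
  -- Cauchy-Schwarz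
  have hCS := Finset.sum_mul_sq_le_sq_mul_sq
    (univ.filter fun π : Perm (Fin n) => sp π = k) (fun π => rho π ^ 2) (fun π => |nu π|)
  have e1 : ∑ π ∈ (univ.filter fun π : Perm (Fin n) => sp π = k), (rho π ^ 2) ^ 2 =
      ∑ π ∈ (univ.filter fun π : Perm (Fin n) => sp π = k), rho π ^ 4 :=
    Finset.sum_congr rfl (fun π _ => by ring)
  have e2 : ∑ π ∈ (univ.filter fun π : Perm (Fin n) => sp π = k), |nu π| ^ 2 =
      ∑ π ∈ (univ.filter fun π : Perm (Fin n) => sp π = k), nu π ^ 2 :=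
    Finset.sum_congr rfl (fun π _ => sq_abs _)
  rw [e1, e2] at hCS
  have hP := sp_eq_P rho hrho hn k t ht0 ht3 hkn
  have hQ := le_trans (hsq k hk) (sp_eq_Q A hA hn0 k hkn)
  have hP0 : 0 ≤ ∑ π ∈ (univ.filter fun π : Perm (Fin n) => sp π = k), rho π ^ 4 :=
    Finset.sum_nonneg (fun π _ => by positivity)
  have hQ0 : 0 ≤ ∑ π ∈ (univ.filter fun π : Perm (Fin n) => sp π = k), nu π ^ 2 :=
    Finset.sum_nonneg (fun π _ => by positivity)
  have hPQ := mul_le_mul hP hQ hQ0 (by positivity)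
  have hprod : ((45 : ℝ) ^ 4 * Real.exp (4 / 9) / t) ^ k * (36 * A ^ 2 / cc ^ 2) ^ k ≤
      ((1 / 2 : ℝ) ^ k) ^ 2 := by
    rw [← mul_pow, ← pow_mul, mul_comm k 2, pow_mul]
    apply pow_le_pow_left₀ (by positivity)
    have e3 : (45 : ℝ) ^ 4 * Real.exp (4 / 9) / t * (36 * A ^ 2 / cc ^ 2) =
        (C3 * A ^ 2) / (4 * t) := by
      unfold C3
      field_simp
      ring
    rw [e3, div_le_iff₀ (by positivity)]
    norm_num
    linarith
  have hfin := le_trans hCS (le_trans hPQ hprod)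
  exact (pow_le_pow_iff_left₀ (Finset.sum_nonneg (fun π _ => by positivity)) (by positivity)
    (by norm_num)).1 hfin

/-- The geometric tail with ratio one half. -/
private theorem geom_Ioc_half (a b : ℕ) : ∑ k ∈ Ioc a b, (1 / 2 : ℝ) ^ k ≤ (1 / 2 : ℝ) ^ a := by
  have key : ∀ b, a ≤ b → ∑ k ∈ Ioc a b, (1 / 2 : ℝ) ^ k ≤
      (1 / 2 : ℝ) ^ a - (1 / 2 : ℝ) ^ b := by
    intro b hb
    induction b, hb using Nat.le_induction with
    | base => simp
    | succ b hb ih =>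
      rw [← Finset.insert_Ioc_right_eq_Ioc_add_one hb, Finset.sum_insert (by simp)]
      rw [pow_succ (1 / 2 : ℝ) b]
      linarith
  by_cases hab : a ≤ b
  · have h1 := key b hab
    have h2 : 0 ≤ (1 / 2 : ℝ) ^ b := by positivity
    linarith
  · rw [Finset.Ioc_eq_empty (by omega)]
    simp

/-- The hypothesis `hW` of `assemble_core`. -/
theorem huge_restricted {μ : YoungDiagram} (T : Filling n μ) (rho : Perm (Fin n) → ℝ)
    (hrho : RhoB n rho) (A : ℝ) (hA : 1 ≤ A)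
    (hr : (μ.rowLen 0 : ℝ) ≤ A * Real.sqrt n) (hc : (μ.colLen 0 : ℝ) ≤ A * Real.sqrt n)
    (hn : 5 / cc ≤ n) (hnA : (C3 * A ^ 2) ^ 3 ≤ cc * (n : ℝ) ^ 2) :
    ∑ π ∈ (univ.filter fun π : Perm (Fin n) => cc * (n : ℝ) < (sp π : ℝ)),
      rho π ^ 2 * |rr T π| ≤ 1 / 16 := by
  classical
  have hcc := cc_pos'
  have h8 := cc_le'
  have hcn : 5 ≤ cc * (n : ℝ) := by
    rw [div_le_iff₀ hcc] at hn
    linarith
  have hn40 : (40 : ℝ) ≤ n := by nlinarith
  have hn3 : 3 ≤ n := by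
    have : (3 : ℝ) ≤ n := by linarith
    exact_mod_cast this
  have hn0 : (0 : ℝ) < n := by linarith
  have hsqrt : 0 < Real.sqrt n := Real.sqrt_pos.2 hn0
  have hA0 : 0 < A := by linarith
  have hsq : ∀ k : ℕ, k ≤ n → ∑ π ∈ (univ.filter fun π : Perm (Fin n) => sp π = k), rr T π ^ 2 ≤
      (n : ℝ) ^ k * ((2 * A * Real.sqrt n) ^ k / (k.factorial : ℝ)) ^ 2 := by
    intro k hk
    exact sum_sp_sq_le T (2 * A * Real.sqrt n) (by positivity) (by linarith) k hk
  obtain ⟨a, ha⟩ : ∃ a : ℕ, a = ⌊cc * (n : ℝ)⌋₊ := ⟨_, rfl⟩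
  have hsp : ∀ π : Perm (Fin n), sp π ≤ n := fun π => by
    have h := Equiv.Perm.sum_cycleType π
    have h2 : π.support.card ≤ Fintype.card (Fin n) := Finset.card_le_univ _
    rw [Fintype.card_fin] at h2
    unfold sp
    omega
  have hmaps : ∀ π ∈ (univ.filter fun π : Perm (Fin n) => cc * (n : ℝ) < (sp π : ℝ)),
      sp π ∈ Ioc a n := by
    intro π hπ
    have h := (Finset.mem_filter.1 hπ).2
    rw [Finset.mem_Ioc]
    refine ⟨?_, hsp π⟩
    rw [ha]
    exact (Nat.floor_lt (by positivity)).2 h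
  rw [← Finset.sum_fiberwise_of_maps_to hmaps]
  have hinner : ∀ k ∈ Ioc a n,
      ∑ π ∈ (univ.filter fun π : Perm (Fin n) => cc * (n : ℝ) < (sp π : ℝ)) with sp π = k,
        rho π ^ 2 * |rr T π| ≤ (1 / 2 : ℝ) ^ k := by
    intro k hk
    rw [Finset.mem_Ioc] at hk
    have hkc : cc * (n : ℝ) < k := by
      have := (Nat.floor_lt (by positivity : 0 ≤ cc * (n : ℝ))).1 (by rw [← ha]; exact hk.1)
      exact this
    refine le_trans (Finset.sum_le_sum_of_subset_of_nonneg ?_ (fun _ _ _ => by positivity))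
      (sp_eq_bound rho (rr T) hrho A hA hn3 hnA hsq k hk.2 hkc)
    intro π hπ
    have h := Finset.mem_filter.1 hπ
    exact Finset.mem_filter.2 ⟨Finset.mem_univ _, h.2⟩
  refine le_trans (Finset.sum_le_sum hinner) (le_trans (geom_Ioc_half a n) ?_)
  have ha4 : 4 ≤ a := by
    rw [ha]
    apply Nat.le_floor
    norm_num
    linarith
  calc (1 / 2 : ℝ) ^ a ≤ (1 / 2 : ℝ) ^ 4 :=
        pow_le_pow_of_le_one (by norm_num) (by norm_num) ha4
    _ = 1 / 16 := by norm_num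

end Vale.Agent.Lib.P197S
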