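import Vale.Agent.Lib.P197S.Core
import Vale.Agent.Lib.P197S.SumW

/-!
# P197S: the theorem with explicit exponent (blueprint Sec 14)
-/

open Equiv Finset

namespace Vale.Agent.Lib.P197S

open Vale.Agent.Lib.P197

private theorem LL_oneR : 1 ≤ LL := by
  unfold LL
  norm_num

private theorem cc_posR : 0 < cc := by
  have h : 0 < LL := by linarith [LL_oneR]
  unfold cc
  positivity

/-- For all large `n` the parameters `A = n^(1/20)`, `K₁ = ⌊n^(1/8)⌋` satisfy the conditions. -/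
theorem paramsR : ∃ n₀ : ℕ, ∀ n ≥ n₀,
    1 ≤ (n : ℝ) ^ (1 / 20 : ℝ) ∧
    16 * LL ^ 3 * ((n : ℝ) ^ (1 / 20 : ℝ)) ^ 2 ≤ (⌊(n : ℝ) ^ (1 / 8 : ℝ)⌋₊ : ℝ) ∧
    (10 : ℝ) ^ 40 * (⌊(n : ℝ) ^ (1 / 8 : ℝ)⌋₊ : ℝ) ^ 7 ≤ n ∧
    5 / cc ≤ n ∧
    (C3 * ((n : ℝ) ^ (1 / 20 : ℝ)) ^ 2) ^ 3 ≤ cc * (n : ℝ) ^ 2 := by
  have hcc := cc_posR
  have hLL := LL_oneR
  have hev : ∀ (p c : ℝ), 0 < p → ∃ n₀ : ℕ, ∀ n ≥ n₀, c ≤ (n : ℝ) ^ p := by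
    intro p c hp
    have h := (tendsto_rpow_atTop hp).comp tendsto_natCast_atTop_atTop
    have h2 := h.eventually_ge_atTop c
    obtain ⟨n₀, hn₀⟩ := Filter.eventually_atTop.1 h2
    exact ⟨n₀, fun n hn => hn₀ n hn⟩
  obtain ⟨n₁, h₁⟩ := hev (1 / 40) (32 * LL ^ 3) (by norm_num)
  obtain ⟨n₂, h₂⟩ := hev (1 / 8) ((10 : ℝ) ^ 40) (by norm_num)
  obtain ⟨n₃, h₃⟩ := hev (17 / 10) (C3 ^ 3 / cc) (by norm_num)
  obtain ⟨n₄, h₄⟩ := hev 1 (5 / cc) (by norm_num)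
  refine ⟨max (max n₁ n₂) (max n₃ (max n₄ 1)), ?_⟩
  intro n hn
  have hn1 : n₁ ≤ n := le_trans (le_trans (le_max_left _ _) (le_max_left _ _)) hn
  have hn2 : n₂ ≤ n := le_trans (le_trans (le_max_right _ _) (le_max_left _ _)) hn
  have hn34 : max n₃ (max n₄ 1) ≤ n := le_trans (le_max_right _ _) hn
  have hn3 : n₃ ≤ n := le_trans (le_max_left _ _) hn34
  have hn45 : max n₄ 1 ≤ n := le_trans (le_max_right _ _) hn34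
  have hn4 : n₄ ≤ n := le_trans (le_max_left _ _) hn45
  have hn5 : 1 ≤ n := le_trans (le_max_right _ _) hn45
  have hN1 : (1 : ℝ) ≤ (n : ℝ) := by exact_mod_cast hn5
  have hN0 : (0 : ℝ) < (n : ℝ) := by linarith
  have hA1 : 1 ≤ (n : ℝ) ^ (1 / 20 : ℝ) := Real.one_le_rpow hN1 (by norm_num)
  set A : ℝ := (n : ℝ) ^ (1 / 20 : ℝ) with hA
  have hs := h₁ n hn1
  have he := h₂ n hn2
  set E : ℝ := (n : ℝ) ^ (1 / 8 : ℝ) with hE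
  set S : ℝ := (n : ℝ) ^ (1 / 40 : ℝ) with hS
  have hES : E = A ^ 2 * S := by
    rw [hE, hS, hA, ← Real.rpow_natCast, ← Real.rpow_mul hN0.le, ← Real.rpow_add hN0]
    norm_num
  have hE1 : 1 ≤ E := by
    have : (1 : ℝ) ≤ (10 : ℝ) ^ 40 := by norm_num
    linarith
  have hfl : E / 2 ≤ (⌊E⌋₊ : ℝ) := by
    have h1 := Nat.lt_floor_add_one E
    have h2 : (1 : ℝ) ≤ (⌊E⌋₊ : ℝ) := by
      exact_mod_cast Nat.one_le_floor_iff _ |>.2 hE1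
    linarith
  have hfl2 : (⌊E⌋₊ : ℝ) ≤ E := Nat.floor_le (by linarith)
  refine ⟨hA1, ?_, ?_, ?_, ?_⟩
  · have hA20 : 0 ≤ A ^ 2 := by positivity
    have h2 : 16 * LL ^ 3 * A ^ 2 ≤ A ^ 2 * S / 2 := by
      have : A ^ 2 * (32 * LL ^ 3) ≤ A ^ 2 * S := mul_le_mul_of_nonneg_left hs hA20
      linarith
    have hfl' : A ^ 2 * S / 2 ≤ (⌊E⌋₊ : ℝ) := by
      rw [← hES]
      exact hfl
    linarith
  · have h7 : (⌊E⌋₊ : ℝ) ^ 7 ≤ E ^ 7 := pow_le_pow_left₀ (by positivity) hfl2 7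
    have h8 : E ^ 8 = (n : ℝ) := by
      rw [hE, ← Real.rpow_natCast, ← Real.rpow_mul hN0.le]
      norm_num
    have h9 : (10 : ℝ) ^ 40 * E ^ 7 ≤ E * E ^ 7 :=
      mul_le_mul_of_nonneg_right he (by positivity)
    calc (10 : ℝ) ^ 40 * (⌊E⌋₊ : ℝ) ^ 7 ≤ (10 : ℝ) ^ 40 * E ^ 7 :=
          mul_le_mul_of_nonneg_left h7 (by norm_num)
      _ ≤ E * E ^ 7 := h9
      _ = E ^ 8 := by ring
      _ = n := h8
  · have := h₄ n hn4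
    rwa [Real.rpow_one] at this
  · have h17 := h₃ n hn3
    have h2 : (n : ℝ) ^ 2 = (A ^ 2) ^ 3 * (n : ℝ) ^ (17 / 10 : ℝ) := by
      rw [hA, ← pow_mul, ← Real.rpow_natCast ((n : ℝ) ^ (1 / 20 : ℝ)), ← Real.rpow_mul hN0.le,
        ← Real.rpow_add hN0, ← Real.rpow_natCast (n : ℝ) 2]
      norm_num
    have h3 : C3 ^ 3 ≤ cc * (n : ℝ) ^ (17 / 10 : ℝ) := by
      rw [div_le_iff₀ hcc] at h17
      linarith
    have hA6 : 0 ≤ (A ^ 2) ^ 3 := by positivity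
    calc (C3 * A ^ 2) ^ 3 = (A ^ 2) ^ 3 * C3 ^ 3 := by ring
      _ ≤ (A ^ 2) ^ 3 * (cc * (n : ℝ) ^ (17 / 10 : ℝ)) := mul_le_mul_of_nonneg_left h3 hA6
      _ = cc * ((A ^ 2) ^ 3 * (n : ℝ) ^ (17 / 10 : ℝ)) := by ring
      _ = cc * (n : ℝ) ^ 2 := by rw [← h2]

private theorem balanced_1120_aux (n₀ : ℕ)
    (hn₀ : ∀ n ≥ n₀,
      1 ≤ (n : ℝ) ^ (1 / 20 : ℝ) ∧
      16 * LL ^ 3 * ((n : ℝ) ^ (1 / 20 : ℝ)) ^ 2 ≤ (⌊(n : ℝ) ^ (1 / 8 : ℝ)⌋₊ : ℝ) ∧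
      (10 : ℝ) ^ 40 * (⌊(n : ℝ) ^ (1 / 8 : ℝ)⌋₊ : ℝ) ^ 7 ≤ n ∧
      5 / cc ≤ n ∧
      (C3 * ((n : ℝ) ^ (1 / 20 : ℝ)) ^ 2) ^ 3 ≤ cc * (n : ℝ) ^ 2)
    (m n : ℕ) (hm : max n₀ 4 ≤ m) (hn : n = m * (m + 1) / 2) (ν : YoungDiagram)
    (hr : (ν.rowLen 0 : ℝ) ≤ (n : ℝ) ^ (11 / 20 : ℝ))
    (hc : (ν.colLen 0 : ℝ) ≤ (n : ℝ) ^ (11 / 20 : ℝ))
    (T₁ T₂ : Filling n (staircase m)) (T₃ : Filling n ν) : 0 < kronecker T₁ T₂ T₃ := by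
  have hm4 : 4 ≤ m := le_trans (le_max_right _ _) hm
  have hm1 : 0 < m := by omega
  have hmn₀ : n₀ ≤ m := (le_max_left _ _).trans hm
  have hn2 : 2 * n = m * (m + 1) := by
    rw [hn]
    exact Nat.two_mul_div_two_of_even (Nat.even_mul_succ_self m)
  have hnm : m ≤ n := by nlinarith
  have hn0 : 0 < n := by omega
  have hN0 : (0 : ℝ) < (n : ℝ) := by exact_mod_cast hn0
  obtain ⟨hA, hA2, hK, h5, hnA⟩ := hn₀ n (hmn₀.trans hnm)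
  set A : ℝ := (n : ℝ) ^ (1 / 20 : ℝ) with hAdef
  set K₁ : ℕ := ⌊(n : ℝ) ^ (1 / 8 : ℝ)⌋₊ with hK₁
  have hsplit : (n : ℝ) ^ (11 / 20 : ℝ) = A * Real.sqrt n := by
    rw [Real.sqrt_eq_rpow, hAdef, ← Real.rpow_add hN0]
    norm_num
  rw [hsplit] at hr hc
  have hcm : ClassMult n (rr T₃) :=
    ⟨fun π σ h => rr_of_cycleType_eq T₃ π σ h, fun x y => rr_mul T₃ x y⟩
  have hcm1 : ClassMult n (rr T₁) :=
    ⟨fun π σ h => rr_of_cycleType_eq T₁ π σ h, fun x y => rr_mul T₁ x y⟩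
  have hρ := rhoB_staircase m hm1 hn T₁
  have hW := huge_restricted T₃ (rr T₁) hρ A hA hr hc h5 hnA
  have hpos := assemble_core K₁ A hA hA2 hK (rr T₁) (rr T₃) hρ
    (nuB_of_shape T₃ hn0 _ hr hc) hcm1 hcm (rr_one T₁) (rr_one T₃) hW
  apply kronecker_pos
  have h2 : rr T₂ = rr T₁ := rr_indep T₂ T₁
  rw [h2]
  have : ∑ π : Perm (Fin n), rr T₁ π * rr T₁ π * rr T₃ π = ∑ π, rr T₁ π ^ 2 * rr T₃ π :=
    Finset.sum_congr rfl fun π _ => by ring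
  rw [this]
  exact hpos.ne'

/-- **Balanced Theorem, range `n^(11/20)`.** For `m ≥ m₀`, every diagram `ν` of size `n = N_m` with
at most `n^(11/20)` rows and at most `n^(11/20)` columns occurs in the tensor square of the
staircase Specht module. -/
theorem balanced_1120 : ∃ m₀ : ℕ, ∀ m ≥ m₀, ∀ ν : YoungDiagram, ν.card = m * (m + 1) / 2 →
    (ν.rowLen 0 : ℝ) ≤ ((m * (m + 1) / 2 : ℕ) : ℝ) ^ (11 / 20 : ℝ) →
    (ν.colLen 0 : ℝ) ≤ ((m * (m + 1) / 2 : ℕ) : ℝ) ^ (11 / 20 : ℝ) →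
    ∀ (T₁ T₂ : Filling (m * (m + 1) / 2) (staircase m)) (T₃ : Filling (m * (m + 1) / 2) ν),
      0 < kronecker T₁ T₂ T₃ := by
  obtain ⟨n₀, hn₀⟩ := paramsR
  refine ⟨max n₀ 4, fun m hm ν _ hr hc T₁ T₂ T₃ => ?_⟩
  exact balanced_1120_aux n₀ hn₀ m _ hm rfl ν hr hc T₁ T₂ T₃

end Vale.Agent.Lib.P197S
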