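import Vale.Agent.Lib.P197S.Core

/-!
# P197S: the theorem (blueprint Sec 10)
-/

open Equiv Finset

namespace Vale.Agent.Lib.P197S

open Vale.Agent.Lib.P197

/-- The exponent. -/
noncomputable def dlt : ℝ := cc / 6

private theorem LL_pos : 0 < LL := by
  unfold LL
  norm_num

private theorem LL_one : 1 ≤ LL := by
  unfold LL
  norm_num

private theorem cc_pos : 0 < cc := by
  have := LL_pos
  unfold cc
  positivity

private theorem cc_le : cc ≤ 1 / 16 := by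
  have h := LL_one
  have h4 : (1 : ℝ) ≤ LL ^ 4 := one_le_pow₀ h
  unfold cc
  rw [div_le_div_iff₀ (by positivity) (by norm_num)]
  nlinarith

theorem dlt_pos : 0 < dlt := by
  have := cc_pos
  unfold dlt
  positivity

/-- For all large `n`, the parameters `A = n^δ`, `K₁ = ⌊n^(1/8)⌋` satisfy the numeric conditions. -/
theorem params : ∃ n₀ : ℕ, ∀ n ≥ n₀,
    1 ≤ (n : ℝ) ^ dlt ∧
    16 * LL ^ 3 * ((n : ℝ) ^ dlt) ^ 2 ≤ (⌊(n : ℝ) ^ (1 / 8 : ℝ)⌋₊ : ℝ) ∧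
    (10 : ℝ) ^ 40 * (⌊(n : ℝ) ^ (1 / 8 : ℝ)⌋₊ : ℝ) ^ 7 ≤ n ∧
    288 * (n : ℝ) ^ dlt ≤ (n : ℝ) ^ (cc / 3) := by
  have hd := dlt_pos
  have hLL := LL_one
  have hev : ∀ (p c : ℝ), 0 < p → ∃ n₀ : ℕ, ∀ n ≥ n₀, c ≤ (n : ℝ) ^ p := by
    intro p c hp
    have h := (tendsto_rpow_atTop hp).comp tendsto_natCast_atTop_atTop
    have h2 := h.eventually_ge_atTop c
    obtain ⟨n₀, hn₀⟩ := Filter.eventually_atTop.1 h2
    exact ⟨n₀, fun n hn => hn₀ n hn⟩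
  obtain ⟨n₁, h₁⟩ := hev dlt 288 hd
  obtain ⟨n₂, h₂⟩ := hev (1 / 16) (32 * LL ^ 3) (by norm_num)
  obtain ⟨n₃, h₃⟩ := hev (1 / 8) ((10 : ℝ) ^ 40) (by norm_num)
  refine ⟨max (max n₁ n₂) (max n₃ 1), ?_⟩
  intro n hn
  have hn1 : n₁ ≤ n := le_trans (le_trans (le_max_left _ _) (le_max_left _ _)) hn
  have hn2 : n₂ ≤ n := le_trans (le_trans (le_max_right _ _) (le_max_left _ _)) hn
  have hn3 : n₃ ≤ n := le_trans (le_trans (le_max_left _ _) (le_max_right _ _)) hn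
  have hn4 : 1 ≤ n := le_trans (le_trans (le_max_right _ _) (le_max_right _ _)) hn
  have hN1 : (1 : ℝ) ≤ (n : ℝ) := by exact_mod_cast hn4
  have hN0 : (0 : ℝ) < (n : ℝ) := by linarith
  set A : ℝ := (n : ℝ) ^ dlt with hA
  have hA288 : 288 ≤ A := h₁ n hn1
  have hs := h₂ n hn2
  have he := h₃ n hn3
  set E : ℝ := (n : ℝ) ^ (1 / 8 : ℝ) with hE
  set S : ℝ := (n : ℝ) ^ (1 / 16 : ℝ) with hS
  have hES : E = S * S := by
    rw [hE, hS, ← Real.rpow_add hN0]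
    norm_num
  have hAA : A * A = (n : ℝ) ^ (cc / 3) := by
    rw [hA, ← Real.rpow_add hN0]
    congr 1
    unfold dlt
    ring
  have hAS : A * A ≤ S := by
    rw [hAA, hS]
    exact Real.rpow_le_rpow_of_exponent_le hN1 (by linarith [cc_le])
  have hE1 : 1 ≤ E := by
    have : (1 : ℝ) ≤ (10 : ℝ) ^ 40 := by norm_num
    linarith
  have hfl : E / 2 ≤ (⌊E⌋₊ : ℝ) := by
    have h1 := Nat.lt_floor_add_one E
    have h2 : (1 : ℝ) ≤ (⌊E⌋₊ : ℝ) := by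
      exact_mod_cast Nat.one_le_floor_iff _ |>.2 hE1
    linarith
  have hfl2 : (⌊E⌋₊ : ℝ) ≤ E := Nat.floor_le (by linarith)
  have hL3 : (1 : ℝ) ≤ LL ^ 3 := one_le_pow₀ hLL
  have hS0 : 0 < S := by
    have : 0 < 32 * LL ^ 3 := by positivity
    linarith
  refine ⟨by linarith, ?_, ?_, ?_⟩
  · have h1 : 16 * LL ^ 3 * A ^ 2 ≤ 16 * LL ^ 3 * S := by
      apply mul_le_mul_of_nonneg_left _ (by positivity)
      nlinarith
    have h2 : 16 * LL ^ 3 * S ≤ S * S / 2 := by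
      nlinarith
    have hfl' : S * S / 2 ≤ (⌊E⌋₊ : ℝ) := by
      rw [← hES]
      exact hfl
    linarith
  · have h7 : (⌊E⌋₊ : ℝ) ^ 7 ≤ E ^ 7 := pow_le_pow_left₀ (by positivity) hfl2 7
    have h8 : E ^ 8 = (n : ℝ) := by
      rw [hE, ← Real.rpow_natCast, ← Real.rpow_mul hN0.le]
      norm_num
    have h9 : (10 : ℝ) ^ 40 * E ^ 7 ≤ E * E ^ 7 :=
      mul_le_mul_of_nonneg_right he (by positivity)
    calc (10 : ℝ) ^ 40 * (⌊E⌋₊ : ℝ) ^ 7 ≤ (10 : ℝ) ^ 40 * E ^ 7 :=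
          mul_le_mul_of_nonneg_left h7 (by norm_num)
      _ ≤ E * E ^ 7 := h9
      _ = E ^ 8 := by ring
      _ = n := h8
  · rw [← hAA]
    have : 0 ≤ A := by linarith
    nlinarith

private theorem balanced_plus_aux (n₀ : ℕ)
    (hn₀ : ∀ n ≥ n₀,
      1 ≤ (n : ℝ) ^ dlt ∧
      16 * LL ^ 3 * ((n : ℝ) ^ dlt) ^ 2 ≤ (⌊(n : ℝ) ^ (1 / 8 : ℝ)⌋₊ : ℝ) ∧
      (10 : ℝ) ^ 40 * (⌊(n : ℝ) ^ (1 / 8 : ℝ)⌋₊ : ℝ) ^ 7 ≤ n ∧
      288 * (n : ℝ) ^ dlt ≤ (n : ℝ) ^ (cc / 3))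
    (m n : ℕ) (hm : max n₀ 4 ≤ m) (hn : n = m * (m + 1) / 2) (ν : YoungDiagram)
    (hr : (ν.rowLen 0 : ℝ) ≤ (n : ℝ) ^ (1 / 2 + dlt))
    (hc : (ν.colLen 0 : ℝ) ≤ (n : ℝ) ^ (1 / 2 + dlt))
    (T₁ T₂ : Filling n (staircase m)) (T₃ : Filling n ν) : 0 < kronecker T₁ T₂ T₃ := by
  have hm4 : 4 ≤ m := le_trans (le_max_right _ _) hm
  have hm1 : 0 < m := by omega
  have hmn₀ : n₀ ≤ m := (le_max_left _ _).trans hm
  have hn2 : 2 * n = m * (m + 1) := by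
    rw [hn]
    exact Nat.two_mul_div_two_of_even (Nat.even_mul_succ_self m)
  have hnm : m ≤ n := by nlinarith
  have hn0 : 0 < n := by omega
  have hn4 : 4 ≤ n := by omega
  have hN0 : (0 : ℝ) < (n : ℝ) := by exact_mod_cast hn0
  obtain ⟨hA, hA2, hK, h288⟩ := hn₀ n (hmn₀.trans hnm)
  set A : ℝ := (n : ℝ) ^ dlt with hAdef
  set K₁ : ℕ := ⌊(n : ℝ) ^ (1 / 8 : ℝ)⌋₊ with hK₁
  have hsplit : (n : ℝ) ^ (1 / 2 + dlt) = A * Real.sqrt n := by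
    rw [Real.rpow_add hN0, Real.sqrt_eq_rpow, hAdef, mul_comm]
  rw [hsplit] at hr hc
  have hcm : ClassMult n (rr T₃) :=
    ⟨fun π σ h => rr_of_cycleType_eq T₃ π σ h, fun x y => rr_mul T₃ x y⟩
  have hcm1 : ClassMult n (rr T₁) :=
    ⟨fun π σ h => rr_of_cycleType_eq T₁ π σ h, fun x y => rr_mul T₁ x y⟩
  have hρ := rhoB_staircase m hm1 hn T₁
  have hh := hugeHyp_of A m hm1 hn T₁ T₃ hr hc
  have hW0 := huge_explicit A cc hA cc_pos hn0 h288 (rr T₁) (rr T₃) hρ.1 hh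
  have hW : ∑ π ∈ (univ.filter fun π : Perm (Fin n) => cc * (n : ℝ) < (sp π : ℝ)),
      rr T₁ π ^ 2 * |rr T₃ π| ≤ 1 / 16 := by
    refine hW0.trans ?_
    calc (1 / 2 : ℝ) ^ n ≤ (1 / 2 : ℝ) ^ 4 :=
          pow_le_pow_of_le_one (by norm_num) (by norm_num) hn4
      _ = 1 / 16 := by norm_num
  have hpos := assemble_core K₁ A hA hA2 hK (rr T₁) (rr T₃) hρ
    (nuB_of_shape T₃ hn0 _ hr hc) hcm1 hcm (rr_one T₁) (rr_one T₃) hW
  apply kronecker_pos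
  have h2 : rr T₂ = rr T₁ := rr_indep T₂ T₁
  rw [h2]
  have : ∑ π : Perm (Fin n), rr T₁ π * rr T₁ π * rr T₃ π = ∑ π, rr T₁ π ^ 2 * rr T₃ π :=
    Finset.sum_congr rfl fun π _ => by ring
  rw [this]
  exact hpos.ne'

/-- **Balanced Theorem, polynomial range.** There are `δ > 0` and `m₀` such that for `m ≥ m₀`
every diagram `ν` of size `n = N_m` with at most `n^(1/2 + δ)` rows and columns occurs in the
tensor square of the staircase Specht module. -/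
theorem balanced_plus : ∃ m₀ : ℕ, ∀ m ≥ m₀, ∀ ν : YoungDiagram, ν.card = m * (m + 1) / 2 →
    (ν.rowLen 0 : ℝ) ≤ ((m * (m + 1) / 2 : ℕ) : ℝ) ^ (1 / 2 + dlt) →
    (ν.colLen 0 : ℝ) ≤ ((m * (m + 1) / 2 : ℕ) : ℝ) ^ (1 / 2 + dlt) →
    ∀ (T₁ T₂ : Filling (m * (m + 1) / 2) (staircase m)) (T₃ : Filling (m * (m + 1) / 2) ν),
      0 < kronecker T₁ T₂ T₃ := by
  obtain ⟨n₀, hn₀⟩ := params
  refine ⟨max n₀ 4, fun m hm ν _ hr hc T₁ T₂ T₃ => ?_⟩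
  exact balanced_plus_aux n₀ hn₀ m _ hm rfl ν hr hc T₁ T₂ T₃

end Vale.Agent.Lib.P197S
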