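import Vale.Agent.Lib.P197S.Sharp
import Vale.Agent.Lib.P197S.Exact

/-!
# P197S: the two instances of the sharp theorem and the numerics (blueprint Sec 8)
-/

open Equiv Finset

namespace Vale.Agent.Lib.P197S

open Vale.Agent.Lib.P197

variable {n : ℕ}

/-- The numeric hypotheses. -/
structure NumHyp (n K₁ : ℕ) : Prop where
  hK : 5000 ≤ K₁
  hn : (10 : ℝ) ^ 40 * (K₁ : ℝ) ^ 7 ≤ n

/-- The common factor `Γ`. -/
noncomputable def gam (K₁ : ℕ) : ℝ := 1 + 1 / (K₁ : ℝ) ^ 2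

theorem gam_one_le (K₁ : ℕ) : 1 ≤ gam K₁ := by
  unfold gam
  have : 0 ≤ 1 / (K₁ : ℝ) ^ 2 := by positivity
  linarith

theorem gam_pow_le {K₁ : ℕ} (hK : 5000 ≤ K₁) : gam K₁ ^ (3 * K₁) ≤ 2 := by
  have hs : (5000 : ℝ) ≤ K₁ := by exact_mod_cast hK
  have hs0 : (0 : ℝ) < K₁ := by linarith
  have h1 : gam K₁ ≤ Real.exp (1 / (K₁ : ℝ) ^ 2) := by
    unfold gam
    have := Real.add_one_le_exp (1 / (K₁ : ℝ) ^ 2)
    linarith
  have h2 : gam K₁ ^ (3 * K₁) ≤ Real.exp (3 / (K₁ : ℝ)) := by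
    calc gam K₁ ^ (3 * K₁) ≤ Real.exp (1 / (K₁ : ℝ) ^ 2) ^ (3 * K₁) :=
          pow_le_pow_left₀ (by linarith [gam_one_le K₁]) h1 _
      _ = Real.exp (3 / (K₁ : ℝ)) := by
          rw [← Real.exp_nat_mul]
          congr 1
          push_cast
          field_simp
  have h3 : (3 : ℝ) / K₁ ≤ 3 / 5000 := by
    apply div_le_div_of_nonneg_left (by norm_num) (by norm_num) hs
  have h4 : Real.exp (3 / (K₁ : ℝ)) ≤ Real.exp (3 / 5000) := Real.exp_le_exp.2 h3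
  have h5 : Real.exp (3 / 5000 : ℝ) ≤ 2 := by
    have h6 := Real.add_one_le_exp (-(3 / 5000 : ℝ))
    have h7 : Real.exp (3 / 5000 : ℝ) * Real.exp (-(3 / 5000 : ℝ)) = 1 := by
      rw [← Real.exp_add]; simp
    have h8 : 0 < Real.exp (3 / 5000 : ℝ) := Real.exp_pos _
    nlinarith
  linarith

/-- The scale `u` for `ν`. -/
noncomputable def uNu (n K₁ : ℕ) : ℝ := 18 * Real.sqrt ((K₁ : ℝ) / n)

/-- The scale `u` for `ρ`. -/
noncomputable def uRho (n : ℕ) : ℝ := 2025 / Real.sqrt n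

/-- The value `K` for `ρ`: `n |α|` with `α = -1/(2(n-2))`. -/
noncomputable def kRho (n : ℕ) : ℝ := (n : ℝ) / (2 * ((n : ℝ) - 2))

section helpers

variable {K₁ : ℕ}

theorem NumHyp.s_ge (H : NumHyp n K₁) : (5000 : ℝ) ≤ K₁ := by exact_mod_cast H.hK

theorem NumHyp.s_pos (H : NumHyp n K₁) : (0 : ℝ) < K₁ := by linarith [H.s_ge]

theorem NumHyp.n_ge_pow (H : NumHyp n K₁) {k : ℕ} (hk : k ≤ 7) :
    (10 : ℝ) ^ 40 * (K₁ : ℝ) ^ k ≤ n := by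
  have h1 : (1 : ℝ) ≤ K₁ := by linarith [H.s_ge]
  have h2 : (K₁ : ℝ) ^ k ≤ (K₁ : ℝ) ^ 7 := pow_le_pow_right₀ h1 hk
  have h3 := H.hn
  nlinarith

theorem NumHyp.n_ge (H : NumHyp n K₁) : (10 : ℝ) ^ 40 ≤ n := by
  have h := H.n_ge_pow (k := 0) (by norm_num)
  rwa [pow_zero, mul_one] at h

theorem NumHyp.n_pos (H : NumHyp n K₁) : (0 : ℝ) < n :=
  lt_of_lt_of_le (by norm_num) H.n_ge

theorem NumHyp.six_le (H : NumHyp n K₁) : 6 ≤ n := by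
  have h := H.n_ge
  have : (6 : ℝ) ≤ n := le_trans (by norm_num) h
  exact_mod_cast this

/-- Divide a bound `C s^(k+2) ≤ N` into the form `C s^k / N ≤ 1 / s^2`. -/
theorem NumHyp.div_le (H : NumHyp n K₁) {C : ℝ} (hC : C ≤ 10 ^ 40) {k : ℕ} (hk : k ≤ 5) :
    C * (K₁ : ℝ) ^ k / n ≤ 1 / (K₁ : ℝ) ^ 2 := by
  have hs := H.s_pos
  have hN := H.n_pos
  rw [div_le_div_iff₀ hN (by positivity)]
  have h1 := H.n_ge_pow (k := k + 2) (by omega)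
  have h2 : (0 : ℝ) ≤ (K₁ : ℝ) ^ (k + 2) := by positivity
  have e : C * (K₁ : ℝ) ^ k * (K₁ : ℝ) ^ 2 = C * (K₁ : ℝ) ^ (k + 2) := by ring
  rw [e, one_mul]
  have h3 : C * (K₁ : ℝ) ^ (k + 2) ≤ 10 ^ 40 * (K₁ : ℝ) ^ (k + 2) :=
    mul_le_mul_of_nonneg_right hC h2
  linarith

theorem NumHyp.three_div_le (H : NumHyp n K₁) : 3 * (K₁ : ℝ) / n ≤ 1 / (K₁ : ℝ) ^ 2 := by
  have := H.div_le (C := 3) (by norm_num) (k := 1) (by norm_num)
  simpa using this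

theorem NumHyp.x_le (H : NumHyp n K₁) : 1 / (K₁ : ℝ) ^ 2 ≤ 1 / 3 := by
  have hs := H.s_ge
  have h2 : (3 : ℝ) ≤ (K₁ : ℝ) ^ 2 := by nlinarith
  exact one_div_le_one_div_of_le (by norm_num) h2

theorem NumHyp.gam_sq_le (H : NumHyp n K₁) : gam K₁ ^ 2 ≤ 2 := by
  unfold gam
  have h := H.x_le
  have h0 : 0 ≤ 1 / (K₁ : ℝ) ^ 2 := by positivity
  have hs := H.s_ge
  have h1 : 1 / (K₁ : ℝ) ^ 2 ≤ 1 / 5000 := by
    apply one_div_le_one_div_of_le (by norm_num)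
    nlinarith
  nlinarith

/-- The condition of the sharp theorem, given the smallness of the error. -/
theorem NumHyp.cond_of (H : NumHyp n K₁) {E : ℝ} (hE : E ≤ 1 / (K₁ : ℝ) ^ 2) :
    1 + E ≤ gam K₁ ^ 3 * (1 - 3 * (K₁ : ℝ) / n) := by
  have hx := H.x_le
  have hy := H.three_div_le
  have hx0 : 0 ≤ 1 / (K₁ : ℝ) ^ 2 := by positivity
  have hy0 : 0 ≤ 3 * (K₁ : ℝ) / n := by
    have := H.n_pos
    have := H.s_pos
    positivity
  unfold gam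
  set x := 1 / (K₁ : ℝ) ^ 2 with hxdef
  set y := 3 * (K₁ : ℝ) / n with hydef
  have h1 : 1 + 3 * x ≤ (1 + x) ^ 3 := by nlinarith [sq_nonneg x, mul_nonneg hx0 hx0]
  have h2 : 0 ≤ 1 - y := by linarith
  have h3 : (1 + 3 * x) * (1 - y) ≤ (1 + x) ^ 3 * (1 - y) := mul_le_mul_of_nonneg_right h1 h2
  have h4 : 1 + x ≤ (1 + 3 * x) * (1 - y) := by nlinarith
  linarith

theorem ovW_le {K₁ : ℕ} {K T : ℝ} (hK : 0 < K) (hT : 1 ≤ T) (h : 6 * (K₁ : ℝ) / K ≤ T) :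
    ovW K₁ K ≤ 3 * T ^ 3 := by
  unfold ovW
  have ht : 0 ≤ 6 * (K₁ : ℝ) / K := by positivity
  have h2 : (6 * (K₁ : ℝ) / K) ^ 2 ≤ T ^ 2 := pow_le_pow_left₀ ht h 2
  have h3 : (6 * (K₁ : ℝ) / K) ^ 3 ≤ T ^ 3 := pow_le_pow_left₀ ht h 3
  have h4 : T ≤ T ^ 3 := le_self_pow₀ hT (by norm_num)
  have h5 : T ^ 2 ≤ T ^ 3 := pow_le_pow_right₀ hT (by norm_num)
  linarith

theorem uNu_sq (H : NumHyp n K₁) : uNu n K₁ ^ 2 = 324 * ((K₁ : ℝ) / n) := by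
  unfold uNu
  have h0 : 0 ≤ (K₁ : ℝ) / n := by
    have := H.n_pos
    have := H.s_pos
    positivity
  rw [mul_pow, Real.sq_sqrt h0]
  norm_num

theorem uNu_pos (H : NumHyp n K₁) : 0 < uNu n K₁ := by
  unfold uNu
  have h0 : 0 < (K₁ : ℝ) / n := div_pos H.s_pos H.n_pos
  have := Real.sqrt_pos.2 h0
  positivity

theorem uNu_pow4 (H : NumHyp n K₁) : uNu n K₁ ^ 4 = 104976 * ((K₁ : ℝ) ^ 2 / (n : ℝ) ^ 2) := by
  have e : uNu n K₁ ^ 4 = (uNu n K₁ ^ 2) ^ 2 := by ring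
  rw [e, uNu_sq H, mul_pow, div_pow]
  norm_num

theorem uRho_sq (H : NumHyp n K₁) : uRho n ^ 2 = 2025 ^ 2 / n := by
  unfold uRho
  have h0 : (0 : ℝ) ≤ n := H.n_pos.le
  rw [div_pow, Real.sq_sqrt h0]

theorem uRho_pos (H : NumHyp n K₁) : 0 < uRho n := by
  unfold uRho
  have := Real.sqrt_pos.2 H.n_pos
  positivity

theorem uRho_pow4 (H : NumHyp n K₁) : uRho n ^ 4 = 2025 ^ 4 / (n : ℝ) ^ 2 := by
  have e : uRho n ^ 4 = (uRho n ^ 2) ^ 2 := by ring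
  rw [e, uRho_sq H, div_pow]
  norm_num

theorem kRho_ge (H : NumHyp n K₁) : 1 / 2 ≤ kRho n := by
  unfold kRho
  have h := H.n_ge
  have h2 : (0 : ℝ) < 2 * ((n : ℝ) - 2) := by
    have : (2 : ℝ) < n := lt_of_lt_of_le (by norm_num) h
    linarith
  rw [le_div_iff₀ h2]
  linarith

theorem kRho_le (H : NumHyp n K₁) : kRho n ≤ 1 := by
  unfold kRho
  have h := H.n_ge
  have h2 : (0 : ℝ) < 2 * ((n : ℝ) - 2) := by
    have : (2 : ℝ) < n := lt_of_lt_of_le (by norm_num) h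
    linarith
  rw [div_le_one h2]
  have : (4 : ℝ) ≤ n := le_trans (by norm_num) h
  linarith

/-- `E` for `ν`. -/
theorem E_nu (H : NumHyp n K₁) (K : ℝ) (hK1 : 1 ≤ K) :
    gam K₁ ^ 2 * (uNu n K₁ ^ 4 * ((n : ℝ) / K)) * ovW K₁ K ≤ 1 / (K₁ : ℝ) ^ 2 := by
  have hs := H.s_pos
  have hs5 := H.s_ge
  have hN := H.n_pos
  have hK0 : 0 < K := by linarith
  have hw : ovW K₁ K ≤ 3 * (6 * (K₁ : ℝ)) ^ 3 := by
    apply ovW_le hK0 (by linarith)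
    rw [div_le_iff₀ hK0]
    nlinarith
  have hw0 : 0 ≤ ovW K₁ K := by unfold ovW; positivity
  have hu : uNu n K₁ ^ 4 * ((n : ℝ) / K) ≤ 104976 * (K₁ : ℝ) ^ 2 / n := by
    rw [uNu_pow4 H]
    have e : 104976 * ((K₁ : ℝ) ^ 2 / (n : ℝ) ^ 2) * ((n : ℝ) / K) =
        (104976 * (K₁ : ℝ) ^ 2 / n) / K := by
      field_simp
    rw [e]
    exact div_le_self (by positivity) hK1
  have hu0 : 0 ≤ uNu n K₁ ^ 4 * ((n : ℝ) / K) := by positivity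
  have hg := H.gam_sq_le
  have hg0 : 0 ≤ gam K₁ ^ 2 := by positivity
  calc gam K₁ ^ 2 * (uNu n K₁ ^ 4 * ((n : ℝ) / K)) * ovW K₁ K
      ≤ 2 * (104976 * (K₁ : ℝ) ^ 2 / n) * (3 * (6 * (K₁ : ℝ)) ^ 3) := by
        apply mul_le_mul (mul_le_mul hg hu hu0 (by norm_num)) hw hw0 (by positivity)
    _ = (2 * 104976 * 648) * (K₁ : ℝ) ^ 5 / n := by ring
    _ ≤ 1 / (K₁ : ℝ) ^ 2 := H.div_le (by norm_num) (by norm_num)

/-- `E` for `ρ`. -/
theorem E_rho (H : NumHyp n K₁) :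
    gam K₁ ^ 2 * (uRho n ^ 4 * ((n : ℝ) / kRho n)) * ovW K₁ (kRho n) ≤ 1 / (K₁ : ℝ) ^ 2 := by
  have hs := H.s_pos
  have hs5 := H.s_ge
  have hN := H.n_pos
  have hk := kRho_ge H
  have hk0 : 0 < kRho n := by linarith
  have hw : ovW K₁ (kRho n) ≤ 3 * (12 * (K₁ : ℝ)) ^ 3 := by
    apply ovW_le hk0 (by linarith)
    rw [div_le_iff₀ hk0]
    nlinarith
  have hw0 : 0 ≤ ovW K₁ (kRho n) := by unfold ovW; positivity
  have hu : uRho n ^ 4 * ((n : ℝ) / kRho n) ≤ 2 * 2025 ^ 4 / n := by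
    rw [uRho_pow4 H]
    have e : (n : ℝ) / kRho n ≤ 2 * n := by
      rw [div_le_iff₀ hk0]
      nlinarith
    calc 2025 ^ 4 / (n : ℝ) ^ 2 * ((n : ℝ) / kRho n) ≤ 2025 ^ 4 / (n : ℝ) ^ 2 * (2 * n) :=
          mul_le_mul_of_nonneg_left e (by positivity)
      _ = 2 * 2025 ^ 4 / n := by field_simp
  have hu0 : 0 ≤ uRho n ^ 4 * ((n : ℝ) / kRho n) := by positivity
  have hg := H.gam_sq_le
  have hg0 : 0 ≤ gam K₁ ^ 2 := by positivity
  calc gam K₁ ^ 2 * (uRho n ^ 4 * ((n : ℝ) / kRho n)) * ovW K₁ (kRho n)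
      ≤ 2 * (2 * 2025 ^ 4 / n) * (3 * (12 * (K₁ : ℝ)) ^ 3) := by
        apply mul_le_mul (mul_le_mul hg hu hu0 (by norm_num)) hw hw0 (by positivity)
    _ = (2 * 2 * 2025 ^ 4 * 5184) * (K₁ : ℝ) ^ 3 / n := by ring
    _ ≤ 1 / (K₁ : ℝ) ^ 2 := H.div_le (by norm_num) (by norm_num)

end helpers

/-- `3^j 2^(j-3) ≤ 18^(j-1)` for `j ≥ 2`. -/
theorem three_two_le (j : ℕ) (hj : 2 ≤ j) : (3 : ℝ) ^ j * 2 ^ (j - 3) ≤ 18 ^ (j - 1) := by
  induction j, hj using Nat.le_induction with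
  | base => norm_num
  | succ j hj ih =>
    have e1 : j + 1 - 1 = (j - 1) + 1 := by omega
    rw [e1, pow_succ (18 : ℝ) (j - 1), pow_succ (3 : ℝ) j]
    have h2 : (2 : ℝ) ^ (j + 1 - 3) ≤ 2 ^ (j - 3) * 2 := by
      rcases Nat.lt_or_ge j 3 with h | h
      · have e2 : j + 1 - 3 = 0 := by omega
        have e3 : j - 3 = 0 := by omega
        rw [e2, e3]
        norm_num
      · have e2 : j + 1 - 3 = (j - 3) + 1 := by omega
        rw [e2, pow_succ]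
    have h3 : (0 : ℝ) ≤ 3 ^ j := by positivity
    have h4 : (0 : ℝ) ≤ 3 ^ j * 3 := by positivity
    calc (3 : ℝ) ^ j * 3 * 2 ^ (j + 1 - 3) ≤ 3 ^ j * 3 * (2 ^ (j - 3) * 2) :=
          mul_le_mul_of_nonneg_left h2 h4
      _ = 6 * (3 ^ j * 2 ^ (j - 3)) := by ring
      _ ≤ 6 * 18 ^ (j - 1) := by linarith
      _ ≤ 18 ^ (j - 1) * 18 := by
          have : (0 : ℝ) ≤ 18 ^ (j - 1) := by positivity
          linarith

/-- The product over the cycles. -/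
theorem cycle_prod_le (x : ℝ) (hx : 0 ≤ x) (s : Multiset ℕ) (hs : ∀ j ∈ s, 2 ≤ j) :
    (3 : ℝ) ^ s.sum * (s.map fun j => x ^ (j - 1) * (2 : ℝ) ^ (j - 3)).prod ≤
        (18 * x) ^ (s.sum - Multiset.card s) ∧ Multiset.card s ≤ s.sum := by
  induction s using Multiset.induction_on with
  | empty => simp
  | cons j s ih =>
    have hj := hs j (Multiset.mem_cons_self j s)
    obtain ⟨h1, h2⟩ := ih (fun i hi => hs i (Multiset.mem_cons_of_mem hi))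
    simp only [Multiset.sum_cons, Multiset.map_cons, Multiset.prod_cons, Multiset.card_cons]
    refine ⟨?_, by omega⟩
    have e : j + s.sum - (Multiset.card s + 1) = (j - 1) + (s.sum - Multiset.card s) := by omega
    rw [e, pow_add, pow_add]
    have hc := three_two_le j hj
    have hp : 0 ≤ (s.map fun j => x ^ (j - 1) * (2 : ℝ) ^ (j - 3)).prod := by
      apply Multiset.prod_nonneg
      intro a ha
      obtain ⟨b, -, rfl⟩ := Multiset.mem_map.1 ha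
      positivity
    have h3 : (3 : ℝ) ^ j * (x ^ (j - 1) * 2 ^ (j - 3)) ≤ (18 * x) ^ (j - 1) := by
      rw [mul_pow]
      have hx' : 0 ≤ x ^ (j - 1) := by positivity
      nlinarith
    calc (3 : ℝ) ^ j * 3 ^ s.sum * (x ^ (j - 1) * 2 ^ (j - 3) *
          (s.map fun j => x ^ (j - 1) * (2 : ℝ) ^ (j - 3)).prod)
        = ((3 : ℝ) ^ j * (x ^ (j - 1) * 2 ^ (j - 3))) *
          (3 ^ s.sum * (s.map fun j => x ^ (j - 1) * (2 : ℝ) ^ (j - 3)).prod) := by ring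
      _ ≤ (18 * x) ^ (j - 1) * (18 * x) ^ (s.sum - Multiset.card s) :=
          mul_le_mul h3 h1 (by positivity) (by positivity)

theorem nu_base (A : ℝ) (hA : 1 ≤ A) {K₁ : ℕ} (hA2 : 16 * A ^ 2 ≤ K₁) (H : NumHyp n K₁)
    (nu : Perm (Fin n) → ℝ) (hnu : NuB n (A * Real.sqrt n) nu) (σ : Perm (Fin n))
    (hσ : sp σ ≤ K₁) : |nu σ| ≤ uNu n K₁ ^ rk σ := by
  have hs := H.s_ge
  have hs0 := H.s_pos
  have hN := H.n_pos
  have hn16 : 16 * (K₁ : ℝ) ≤ n := by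
    have h1 := H.n_ge_pow (k := 1) (by norm_num)
    rw [pow_one] at h1
    nlinarith
  have hsqn : Real.sqrt (n : ℝ) ^ 2 = n := Real.sq_sqrt hN.le
  have hR0 : (0 : ℝ) ≤ (K₁ : ℝ) * n := by positivity
  have hR2 : Real.sqrt ((K₁ : ℝ) * n) ^ 2 = (K₁ : ℝ) * n := Real.sq_sqrt hR0
  have h1 : 4 * (A * Real.sqrt n) ≤ Real.sqrt ((K₁ : ℝ) * n) := by
    rw [Real.le_sqrt' (by have := Real.sqrt_pos.2 hN; positivity)]
    have e : (4 * (A * Real.sqrt n)) ^ 2 = (16 * A ^ 2) * (Real.sqrt (n : ℝ) ^ 2) := by ring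
    rw [e, hsqn]
    exact mul_le_mul_of_nonneg_right hA2 hN.le
  have h2 : 4 * (n : ℝ) ≤ Real.sqrt ((K₁ : ℝ) * n) ^ 2 := by
    rw [hR2]
    nlinarith
  have h3 : 4 * (K₁ : ℝ) * n ≤ (2 * Real.sqrt ((K₁ : ℝ) * n)) ^ 2 := by
    rw [mul_pow, hR2]
    nlinarith
  have h4 : 4 * (K₁ : ℝ) * (2 : ℝ) ^ 2 ≤ n := by nlinarith
  have hb := hnu σ _ 2 K₁ h1 h2 le_rfl h3 h4 hσ
  have hw : Real.sqrt ((K₁ : ℝ) * n) / n = Real.sqrt ((K₁ : ℝ) / n) := by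
    have h0 : 0 ≤ (K₁ : ℝ) / n := by positivity
    have e : (K₁ : ℝ) * n = (n : ℝ) ^ 2 * ((K₁ : ℝ) / n) := by
      field_simp
    rw [e, Real.sqrt_mul (by positivity), Real.sqrt_sq hN.le]
    field_simp
  rw [hw] at hb
  have hc := (cycle_prod_le (Real.sqrt ((K₁ : ℝ) / n)) (Real.sqrt_nonneg _) σ.cycleType
    (fun j hj => Perm.two_le_of_mem_cycleType hj)).1
  exact hb.trans hc

/-- `n |ν(x)| ≤ 432 A²` for a three-cycle. -/
theorem nu_three_le (A : ℝ) (hA : 1 ≤ A) (hn : 48 ≤ n) (nu : Perm (Fin n) → ℝ)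
    (hnu : NuB n (A * Real.sqrt n) nu) (x : Perm (Fin n)) (hx : x.cycleType = {3}) :
    (n : ℝ) * |nu x| ≤ 432 * A ^ 2 := by
  have hN' : (48 : ℝ) ≤ n := by exact_mod_cast hn
  have hN : (0 : ℝ) < n := by linarith
  have hsqn : Real.sqrt (n : ℝ) ^ 2 = n := Real.sq_sqrt hN.le
  have hR2 : (4 * (A * Real.sqrt n)) ^ 2 = 16 * A ^ 2 * n := by
    have e : (4 * (A * Real.sqrt n)) ^ 2 = (16 * A ^ 2) * (Real.sqrt (n : ℝ) ^ 2) := by ring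
    rw [e, hsqn]
  have hA2 : (1 : ℝ) ≤ A ^ 2 := by nlinarith
  have h2 : 4 * (n : ℝ) ≤ (4 * (A * Real.sqrt n)) ^ 2 := by
    rw [hR2]
    nlinarith
  have h3 : 4 * ((3 : ℕ) : ℝ) * n ≤ (2 * (4 * (A * Real.sqrt n))) ^ 2 := by
    rw [mul_pow, hR2]
    push_cast
    nlinarith
  have h4 : 4 * ((3 : ℕ) : ℝ) * (2 : ℝ) ^ 2 ≤ n := by
    push_cast
    norm_num
    linarith
  have hsp : sp x = 3 := by simp [sp, hx]
  have hb := hnu x _ 2 3 le_rfl h2 le_rfl h3 h4 hsp.le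
  rw [hsp, hx] at hb
  simp only [Multiset.map_singleton, Multiset.prod_singleton] at hb
  norm_num at hb
  have e : (4 * (A * Real.sqrt n) / n) ^ 2 = 16 * A ^ 2 / n := by
    rw [div_pow, hR2]
    field_simp
  rw [e] at hb
  calc (n : ℝ) * |nu x| ≤ n * (27 * (16 * A ^ 2 / n)) := mul_le_mul_of_nonneg_left hb hN.le
    _ = 432 * A ^ 2 := by field_simp; ring

theorem sharp_nu (A : ℝ) (hA : 1 ≤ A) {K₁ : ℕ} (hA2 : 16 * A ^ 2 ≤ K₁) (H : NumHyp n K₁)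
    (nu : Perm (Fin n) → ℝ) (hnu : NuB n (A * Real.sqrt n) nu) (hcm : ClassMult n nu)
    (K : ℝ) (hK1 : 1 ≤ K) (hK2 : K ≤ 324 * K₁)
    (h3 : ∀ x : Perm (Fin n), x.cycleType = {3} → |nu x| ≤ K / n) :
    SharpHyp n K₁ nu (uNu n K₁) K (K / (324 * K₁)) (gam K₁) := by
  have hs := H.s_ge
  have hs0 := H.s_pos
  have hN := H.n_pos
  have hK0 : 0 < K := by linarith
  refine ⟨hcm, H.six_le, uNu_pos H, ?_, hK0, by positivity, ?_, ?_, gam_one_le K₁, h3,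
    nu_base A hA hA2 H nu hnu, H.cond_of (E_nu H K hK1)⟩
  · -- `u ≤ 1`
    have h2 := uNu_sq H
    have h5 : 324 * ((K₁ : ℝ) / n) ≤ 1 := by
      have h6 := H.div_le (C := 324) (by norm_num) (k := 1) (by norm_num)
      rw [pow_one] at h6
      have h7 := H.x_le
      have e : 324 * ((K₁ : ℝ) / n) = 324 * (K₁ : ℝ) / n := by ring
      rw [e]
      linarith
    have h8 := uNu_pos H
    nlinarith
  · -- `θ ≤ 1`
    rw [div_le_one (by positivity)]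
    exact hK2
  · -- `u² θ = K / n`
    rw [uNu_sq H]
    field_simp

theorem eta_nu {K₁ : ℕ} (H : NumHyp n K₁) (K : ℝ) (hK1 : 1 ≤ K) :
    etaS n K₁ (uNu n K₁) K (gam K₁) ≤ 2 / (K₁ : ℝ) ^ 2 := by
  unfold etaS
  have h1 := H.three_div_le
  have h2 := E_nu H K hK1
  have e : 2 / (K₁ : ℝ) ^ 2 = 1 / (K₁ : ℝ) ^ 2 + 1 / (K₁ : ℝ) ^ 2 := by ring
  rw [e]
  linarith

theorem sharp_rho {K₁ : ℕ} (H : NumHyp n K₁) (rho : Perm (Fin n) → ℝ) (hrho : RhoB n rho)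
    (hcm : ClassMult n rho) (h1 : rho 1 = 1) :
    SharpHyp n K₁ rho (uRho n) (kRho n) (kRho n / 2025 ^ 2) (gam K₁) := by
  have hN := H.n_pos
  have hN1 := H.n_ge
  have hk1 := kRho_ge H
  have hk2 := kRho_le H
  have hk0 : 0 < kRho n := by linarith
  have hsq := Real.sqrt_pos.2 hN
  have hn2 : (0 : ℝ) < (n : ℝ) - 2 := by
    have : (2 : ℝ) < n := lt_of_lt_of_le (by norm_num) hN1
    linarith
  refine ⟨hcm, H.six_le, uRho_pos H, ?_, hk0, by positivity, ?_, ?_, gam_one_le K₁, ?_, ?_,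
    H.cond_of (E_rho H)⟩
  · -- `u ≤ 1`
    unfold uRho
    rw [div_le_one hsq]
    apply Real.le_sqrt_of_sq_le
    exact le_trans (by norm_num) hN1
  · -- `θ ≤ 1`
    rw [div_le_one (by positivity)]
    linarith [show (1 : ℝ) ≤ 2025 ^ 2 by norm_num]
  · -- `u² θ = K / n`
    rw [uRho_sq H]
    field_simp
  · -- the value at three-cycles
    intro x hx
    have h4 : 4 ≤ n := by have := H.six_le; omega
    rw [rho_three rho hcm h1 hrho.1 h4 x hx]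
    unfold kRho
    rw [abs_of_neg (by
      apply div_neg_of_neg_of_pos (by norm_num)
      linarith)]
    field_simp
    exact le_rfl
  · -- the base bound
    intro σ _
    have hb := hrho.2 σ
    refine hb.trans ?_
    have hsp := sp_le_two_rk σ
    have e : (45 : ℝ) ^ sp σ ≤ 2025 ^ rk σ := by
      calc (45 : ℝ) ^ sp σ ≤ 45 ^ (2 * rk σ) := pow_le_pow_right₀ (by norm_num) hsp
        _ = 2025 ^ rk σ := by rw [pow_mul]; norm_num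
    unfold uRho
    rw [div_eq_mul_inv, mul_pow]
    exact mul_le_mul_of_nonneg_right e (by positivity)

theorem eta_rho {K₁ : ℕ} (H : NumHyp n K₁) :
    etaS n K₁ (uRho n) (kRho n) (gam K₁) ≤ 2 / (K₁ : ℝ) ^ 2 := by
  unfold etaS
  have h1 := H.three_div_le
  have h2 := E_rho H
  have e : 2 / (K₁ : ℝ) ^ 2 = 1 / (K₁ : ℝ) ^ 2 + 1 / (K₁ : ℝ) ^ 2 := by ring
  rw [e]
  linarith

/-- The smallness of the `v` of `five_sharp`. -/
theorem v_small {K₁ : ℕ} (H : NumHyp n K₁) :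
    (n : ℝ) * (uRho n ^ 2 * uNu n K₁) ≤ 1 / 2 ∧
      2 * n * ((n : ℝ) * (uRho n ^ 2 * uNu n K₁)) ^ 4 ≤ 1 / (K₁ : ℝ) := by
  have hN := H.n_pos
  have hs := H.s_pos
  have hs5 := H.s_ge
  have e : (n : ℝ) * (uRho n ^ 2 * uNu n K₁) = 2025 ^ 2 * uNu n K₁ := by
    rw [uRho_sq H]
    field_simp
  rw [e]
  have hu := uNu_pos H
  have hu2 := uNu_sq H
  have h3 : 324 * (K₁ : ℝ) / n * (2 * 2025 ^ 2) ^ 2 ≤ 1 := by
    have h6 := H.n_ge_pow (k := 1) (by norm_num)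
    rw [pow_one] at h6
    have e2 : 324 * (K₁ : ℝ) / n * (2 * 2025 ^ 2) ^ 2 = (324 * (2 * 2025 ^ 2) ^ 2 * (K₁ : ℝ)) / n := by
      ring
    rw [e2, div_le_one hN]
    have : (324 * (2 * 2025 ^ 2) ^ 2 : ℝ) ≤ 10 ^ 40 := by norm_num
    nlinarith
  constructor
  · have h4 : (2 * 2025 ^ 2 * uNu n K₁) ^ 2 ≤ 1 := by
      rw [mul_pow, hu2]
      have e3 : (2 * 2025 ^ 2 : ℝ) ^ 2 * (324 * ((K₁ : ℝ) / n)) =
          324 * (K₁ : ℝ) / n * (2 * 2025 ^ 2) ^ 2 := by ring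
      rw [e3]
      exact h3
    have h5 : 0 ≤ 2 * 2025 ^ 2 * uNu n K₁ := by positivity
    have h6 : 2 * 2025 ^ 2 * uNu n K₁ ≤ 1 := by
      nlinarith
    linarith
  · have e4 : (2025 ^ 2 * uNu n K₁) ^ 4 = (2025 : ℝ) ^ 8 * (uNu n K₁ ^ 4) := by ring
    rw [e4, uNu_pow4 H]
    rw [le_div_iff₀ hs]
    have e5 : 2 * (n : ℝ) * ((2025 : ℝ) ^ 8 * (104976 * ((K₁ : ℝ) ^ 2 / (n : ℝ) ^ 2))) * (K₁ : ℝ) =
        (2 * (2025 : ℝ) ^ 8 * 104976) * (K₁ : ℝ) ^ 3 / n := by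
      field_simp
    rw [e5, div_le_one hN]
    have h6 := H.n_ge_pow (k := 3) (by norm_num)
    have h7 : (2 * (2025 : ℝ) ^ 8 * 104976) ≤ 10 ^ 40 := by norm_num
    have h8 : (0 : ℝ) ≤ (K₁ : ℝ) ^ 3 := by positivity
    nlinarith

end Vale.Agent.Lib.P197S
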