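import Vale.Agent.Lib.P197S.Branch

/-!
# P197S: the restricted square sum (blueprint Sec 12)
-/

open Equiv Finset

namespace Vale.Agent.Lib.P197S

open Vale.Agent.Lib.P197

/-- Iterated extension: `S_k` inside `S_(k+d)`. -/
def iota {k : ℕ} : (d : ℕ) → Perm (Fin k) → Perm (Fin (k + d))
  | 0, τ => τ
  | d + 1, τ => ext (iota d τ)

theorem cycleType_iota {k : ℕ} (d : ℕ) (τ : Perm (Fin k)) : (iota d τ).cycleType = τ.cycleType := by
  induction d with
  | zero => rfl
  | succ d ih =>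
    show (ext (iota d τ)).cycleType = τ.cycleType
    rw [cycleType_ext, ih]

theorem iota_one {k : ℕ} (d : ℕ) : iota d (1 : Perm (Fin k)) = 1 := by
  induction d with
  | zero => rfl
  | succ d ih =>
    show ext (iota d (1 : Perm (Fin k))) = 1
    rw [ih, ext_one]

/-- A filling of a diagram with `m` cells. -/
private theorem exists_filling {m : ℕ} (μ : YoungDiagram) (hμ : μ.card = m) :
    Nonempty (Filling m μ) := by
  refine ⟨Fintype.equivOfCardEq ?_⟩
  simp only [Fintype.card_fin, Fintype.card_coe]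
  exact hμ.symm

private theorem frobF_one_eq {m : ℕ} (N : ℕ) {μ : YoungDiagram} (T : Filling m μ)
    (hN : μ.colLen 0 ≤ N) : (frobF N μ (1 : Perm (Fin m)) : ℝ) = (ff T : ℝ) := by
  have h := ff_rr_eq_frobF T N hN 1
  rw [rr_one, mul_one] at h
  exact h.symm

/-- The dimension is nonnegative. -/
theorem frobF_one_nonneg {m : ℕ} (N : ℕ) (μ : YoungDiagram) (hμ : μ.card = m)
    (hN : μ.colLen 0 ≤ N) : 0 ≤ frobF N μ (1 : Perm (Fin m)) := by
  obtain ⟨T⟩ := exists_filling (m := m) μ hμ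
  have h := frobF_one_eq N T hN
  have h2 : (0 : ℝ) ≤ (frobF N μ (1 : Perm (Fin m)) : ℝ) := by
    rw [h]
    exact Nat.cast_nonneg _
  exact_mod_cast h2

/-- The linear form of the bound, by induction on `d` with `frobF_ext`. -/
theorem l2_linear (k d : ℕ) (μ : YoungDiagram) (hμ : μ.card = k + d) (N : ℕ)
    (hN : μ.colLen 0 ≤ N) (M : ℝ) (hM0 : 0 < M) (hM : (μ.rowLen 0 : ℝ) + μ.colLen 0 ≤ M)
    (y : Perm (Fin k) → ℝ) :
    ∑ τ, (frobF N μ (iota d τ) : ℝ) * y τ ≤
      Real.sqrt (∑ τ, y τ ^ 2) * Real.sqrt (k.factorial : ℝ) * (M ^ k / (k.factorial : ℝ)) *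
        (frobF N μ (1 : Perm (Fin (k + d))) : ℝ) := by
  induction d generalizing μ with
  | zero =>
    obtain ⟨T⟩ := exists_filling (m := k) μ hμ
    have hfac : (0 : ℝ) < (k.factorial : ℝ) := by exact_mod_cast Nat.factorial_pos k
    have hf : (frobF N μ (1 : Perm (Fin k)) : ℝ) = (ff T : ℝ) := frobF_one_eq N T hN
    have hlow := ff_lower T
    have hff0 : (0 : ℝ) ≤ (ff T : ℝ) := Nat.cast_nonneg _
    have hrc0 : (0 : ℝ) ≤ (μ.rowLen 0 : ℝ) + μ.colLen 0 := by positivity
    have hle : (k.factorial : ℝ) ≤ (ff T : ℝ) * M ^ k :=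
      hlow.trans (mul_le_mul_of_nonneg_left (pow_le_pow_left₀ hrc0 hM k) hff0)
    have hD : 1 ≤ (M ^ k / (k.factorial : ℝ)) * (ff T : ℝ) := by
      rw [div_mul_eq_mul_div, le_div_iff₀ hfac]
      linarith
    have hcs := Real.sum_mul_le_sqrt_mul_sqrt (univ : Finset (Perm (Fin k)))
      (fun τ => (frobF N μ τ : ℝ)) y
    have hnorm : ∑ τ : Perm (Fin k), ((frobF N μ τ : ℝ)) ^ 2 = (k.factorial : ℝ) := by
      have h := frobF_norm (n := k) N hμ hN
      exact_mod_cast h
    rw [hnorm] at hcs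
    show ∑ τ : Perm (Fin k), (frobF N μ τ : ℝ) * y τ ≤ _
    rw [hf]
    have hs1 : 0 ≤ Real.sqrt (∑ τ, y τ ^ 2) := Real.sqrt_nonneg _
    have hs2 : 0 ≤ Real.sqrt (k.factorial : ℝ) := Real.sqrt_nonneg _
    calc ∑ τ : Perm (Fin k), (frobF N μ τ : ℝ) * y τ
        ≤ Real.sqrt (k.factorial : ℝ) * Real.sqrt (∑ τ, y τ ^ 2) := hcs
      _ = Real.sqrt (∑ τ, y τ ^ 2) * Real.sqrt (k.factorial : ℝ) * 1 := by ring
      _ ≤ Real.sqrt (∑ τ, y τ ^ 2) * Real.sqrt (k.factorial : ℝ) *
            ((M ^ k / (k.factorial : ℝ)) * (ff T : ℝ)) :=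
          mul_le_mul_of_nonneg_left hD (mul_nonneg hs1 hs2)
      _ = _ := by ring
  | succ d ih =>
    set C : Finset (Fin N) :=
      univ.filter fun c : Fin N => μ.rowLen ((c : ℕ) + 1) < μ.rowLen (c : ℕ) with hC
    have hext : ∀ τ : Perm (Fin k), (frobF N μ (iota (d + 1) τ) : ℝ) =
        ∑ c ∈ C, (frobF N (rmC μ (c : ℕ)) (iota d τ) : ℝ) := by
      intro τ
      show (frobF N μ (ext (iota d τ)) : ℝ) = _
      rw [frobF_ext N μ hN]
      push_cast
      rfl
    have h1 : (frobF N μ (1 : Perm (Fin (k + (d + 1)))) : ℝ) =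
        ∑ c ∈ C, (frobF N (rmC μ (c : ℕ)) (1 : Perm (Fin (k + d))) : ℝ) := by
      have h := frobF_ext N μ hN (1 : Perm (Fin (k + d)))
      rw [ext_one] at h
      have h' : (frobF N μ (1 : Perm (Fin (k + (d + 1)))) : ℝ) =
          ((∑ c ∈ C, frobF N (rmC μ (c : ℕ)) (1 : Perm (Fin (k + d))) : ℤ) : ℝ) := by
        exact_mod_cast h
      rw [h']
      push_cast
      rfl
    simp_rw [hext, Finset.sum_mul]
    rw [Finset.sum_comm, h1, Finset.mul_sum]
    refine Finset.sum_le_sum fun c hc => ?_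
    have hcc : μ.rowLen ((c : ℕ) + 1) < μ.rowLen (c : ℕ) := (Finset.mem_filter.1 hc).2
    have hcard : (rmC μ (c : ℕ)).card = k + d := by
      have := card_rmC μ (c : ℕ) hcc
      omega
    have hr := rowLen_rmC_le μ (c : ℕ)
    have hl := colLen_rmC_le μ (c : ℕ)
    have hN' : (rmC μ (c : ℕ)).colLen 0 ≤ N := hl.trans hN
    have hM' : ((rmC μ (c : ℕ)).rowLen 0 : ℝ) + (rmC μ (c : ℕ)).colLen 0 ≤ M := by
      have h1 : ((rmC μ (c : ℕ)).rowLen 0 : ℝ) ≤ (μ.rowLen 0 : ℝ) := by exact_mod_cast hr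
      have h2 : ((rmC μ (c : ℕ)).colLen 0 : ℝ) ≤ (μ.colLen 0 : ℝ) := by exact_mod_cast hl
      linarith
    exact ih (rmC μ (c : ℕ)) hcard hN' hM'

/-- **Restricted square sum.** -/
theorem l2_bound (k d : ℕ) {μ : YoungDiagram} (T : Filling (k + d) μ) (M : ℝ) (hM0 : 0 < M)
    (hM : (μ.rowLen 0 : ℝ) + μ.colLen 0 ≤ M) :
    ∑ τ : Perm (Fin k), rr T (iota d τ) ^ 2 ≤ (k.factorial : ℝ) * (M ^ k / (k.factorial : ℝ)) ^ 2 := by
  have hμ : μ.card = k + d := by
    have h1 : Fintype.card (Fin (k + d)) = Fintype.card {c // c ∈ μ.cells} :=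
      Fintype.card_congr T
    simpa [YoungDiagram.card] using h1.symm
  set N := μ.colLen 0 with hN'
  have hN : μ.colLen 0 ≤ N := le_rfl
  set F : Perm (Fin k) → ℝ := fun τ => (frobF N μ (iota d τ) : ℝ) with hF
  have hFe : ∀ τ, F τ = (ff T : ℝ) * rr T (iota d τ) :=
    fun τ => (ff_rr_eq_frobF T N hN _).symm
  have hf : (frobF N μ (1 : Perm (Fin (k + d))) : ℝ) = (ff T : ℝ) := frobF_one_eq N T hN
  have hl := l2_linear k d μ hμ N hN M hM0 hM F
  rw [hf] at hl
  have hfp : (0 : ℝ) < (ff T : ℝ) := by exact_mod_cast ff_pos T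
  set E : ℝ := ∑ τ, F τ ^ 2 with hE
  have hE0 : 0 ≤ E := Finset.sum_nonneg fun τ _ => sq_nonneg _
  have hl' : E ≤ Real.sqrt E * Real.sqrt (k.factorial : ℝ) * (M ^ k / (k.factorial : ℝ)) *
      (ff T : ℝ) := by
    have : ∑ τ, (frobF N μ (iota d τ) : ℝ) * F τ = E := by
      rw [hE]
      refine Finset.sum_congr rfl fun τ _ => ?_
      rw [sq]
    rw [this] at hl
    exact hl
  set B : ℝ := Real.sqrt (k.factorial : ℝ) * (M ^ k / (k.factorial : ℝ)) * (ff T : ℝ) with hB
  have hB0 : 0 ≤ B := by positivity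
  have hssq : Real.sqrt E ^ 2 = E := Real.sq_sqrt hE0
  have hsE : Real.sqrt E ≤ B := by
    by_contra hlt
    push Not at hlt
    have hpos : 0 < Real.sqrt E := lt_of_le_of_lt hB0 hlt
    have : E ≤ Real.sqrt E * B := by
      rw [hB]
      calc E ≤ _ := hl'
        _ = _ := by ring
    nlinarith
  have hEB : E ≤ B ^ 2 := by
    have h := pow_le_pow_left₀ (Real.sqrt_nonneg E) hsE 2
    rwa [hssq] at h
  have hsumE : E = (ff T : ℝ) ^ 2 * ∑ τ : Perm (Fin k), rr T (iota d τ) ^ 2 := by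
    rw [hE, Finset.mul_sum]
    refine Finset.sum_congr rfl fun τ _ => ?_
    rw [hFe τ]
    ring
  have hfac : (0 : ℝ) < (k.factorial : ℝ) := by exact_mod_cast Nat.factorial_pos k
  have hsf : Real.sqrt (k.factorial : ℝ) ^ 2 = (k.factorial : ℝ) := Real.sq_sqrt hfac.le
  have hB2 : B ^ 2 = (ff T : ℝ) ^ 2 * ((k.factorial : ℝ) * (M ^ k / (k.factorial : ℝ)) ^ 2) := by
    rw [hB, mul_pow, mul_pow, hsf]
    ring
  rw [hsumE, hB2] at hEB
  exact le_of_mul_le_mul_left hEB (by positivity)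

/-- The class sizes in `S_(k+d)` and in `S_k` for a type of total size `k`. -/
theorem card_class_transport (k d : ℕ) (s : Multiset ℕ) (hs : s.sum = k) (h2 : ∀ a ∈ s, 2 ≤ a) :
    (univ.filter fun π : Perm (Fin (k + d)) => π.cycleType = s).card =
      (k + d).choose k * (univ.filter fun τ : Perm (Fin k) => τ.cycleType = s).card := by
  classical
  have h1 := Perm.card_of_cycleType_mul_eq (Fin (k + d)) s
  have h3 := Perm.card_of_cycleType_mul_eq (Fin k) s
  simp only [Fintype.card_fin] at h1 h3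
  rw [if_pos ⟨by omega, h2⟩] at h1
  rw [if_pos ⟨by omega, h2⟩] at h3
  rw [hs, show k + d - k = d by omega] at h1
  rw [hs, show k - k = 0 by omega, Nat.factorial_zero, one_mul] at h3
  set z : ℕ := s.prod * ∏ a ∈ s.toFinset, (s.count a).factorial with hz
  have hzpos : 0 < z := by
    refine Nat.mul_pos ?_ ?_
    · refine Nat.pos_of_ne_zero fun h0 => ?_
      rw [Multiset.prod_eq_zero_iff] at h0
      have := h2 0 h0
      omega
    · exact Finset.prod_pos fun a _ => Nat.factorial_pos _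
  have h1' : (univ.filter fun π : Perm (Fin (k + d)) => π.cycleType = s).card *
      (d.factorial * z) = (k + d).factorial := by
    rw [← h1, hz]; ring
  have h3' : (univ.filter fun τ : Perm (Fin k) => τ.cycleType = s).card * z = k.factorial := by
    rw [← h3, hz]
  have hch : (k + d).choose k * k.factorial * d.factorial = (k + d).factorial := by
    have := Nat.choose_mul_factorial_mul_factorial (Nat.le_add_right k d)
    rwa [show k + d - k = d by omega] at this
  have hd : 0 < d.factorial * z := Nat.mul_pos (Nat.factorial_pos _) hzpos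
  refine Nat.eq_of_mul_eq_mul_right hd ?_
  rw [h1', ← hch, ← h3']
  ring

/-- Transport: a class function summed over support size `k`. -/
theorem sum_sp_le (k d : ℕ) (f : Perm (Fin (k + d)) → ℝ) (hf0 : ∀ π, 0 ≤ f π)
    (hcl : ∀ π σ : Perm (Fin (k + d)), π.cycleType = σ.cycleType → f π = f σ) :
    ∑ π ∈ (univ.filter fun π : Perm (Fin (k + d)) => sp π = k), f π ≤
      ((k + d).choose k : ℝ) * ∑ τ : Perm (Fin k), f (iota d τ) := by
  classical
  set F := (univ.filter fun π : Perm (Fin (k + d)) => sp π = k) with hF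
  set T : Finset (Multiset ℕ) := F.image fun π => π.cycleType with hT
  -- the fibres on the left
  have hL : ∑ π ∈ F, f π = ∑ s ∈ T, ∑ π ∈ F.filter (fun π => π.cycleType = s), f π :=
    (Finset.sum_fiberwise_of_maps_to (fun π hπ => Finset.mem_image_of_mem _ hπ) _).symm
  -- the fibres on the right
  have hR : ∑ s ∈ T, ∑ τ ∈ (univ.filter fun τ : Perm (Fin k) => τ.cycleType = s), f (iota d τ) ≤
      ∑ τ : Perm (Fin k), f (iota d τ) := by
    have hfib : ∑ s ∈ T, ∑ τ ∈ (univ.filter fun τ : Perm (Fin k) => τ.cycleType = s),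
        f (iota d τ) =
        ∑ τ ∈ (univ.filter fun τ : Perm (Fin k) => τ.cycleType ∈ T), f (iota d τ) := by
      rw [← Finset.sum_fiberwise_of_maps_to (s := univ.filter fun τ : Perm (Fin k) =>
        τ.cycleType ∈ T) (t := T) (g := fun τ => τ.cycleType)
        (fun τ hτ => (Finset.mem_filter.mp hτ).2)]
      refine Finset.sum_congr rfl fun s hs => Finset.sum_congr ?_ fun _ _ => rfl
      ext τ
      simp only [Finset.mem_filter, Finset.mem_univ, true_and]
      constructor
      · intro h; exact ⟨h ▸ hs, h⟩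
      · intro h; exact h.2
    rw [hfib]
    exact Finset.sum_le_sum_of_subset_of_nonneg (Finset.filter_subset _ _)
      (fun τ _ _ => hf0 _)
  have hstep : ∀ s ∈ T, ∑ π ∈ F.filter (fun π => π.cycleType = s), f π =
      ((k + d).choose k : ℝ) *
        ∑ τ ∈ (univ.filter fun τ : Perm (Fin k) => τ.cycleType = s), f (iota d τ) := by
    intro s hs
    obtain ⟨π₀, hπ₀, rfl⟩ := Finset.mem_image.mp hs
    have hspπ₀ : π₀.cycleType.sum = k := (Finset.mem_filter.mp hπ₀).2
    have hfilter : F.filter (fun π => π.cycleType = π₀.cycleType) =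
        univ.filter fun π : Perm (Fin (k + d)) => π.cycleType = π₀.cycleType := by
      ext π
      simp only [hF, Finset.mem_filter, Finset.mem_univ, true_and]
      constructor
      · intro h; exact h.2
      · intro h
        refine ⟨?_, h⟩
        show π.cycleType.sum = k
        rw [h, hspπ₀]
    rw [hfilter]
    have h1 : ∑ π ∈ (univ.filter fun π : Perm (Fin (k + d)) => π.cycleType = π₀.cycleType), f π =
        ((univ.filter fun π : Perm (Fin (k + d)) => π.cycleType = π₀.cycleType).card : ℝ) * f π₀ := by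
      rw [Finset.sum_congr rfl (fun π hπ => hcl π π₀ (Finset.mem_filter.mp hπ).2),
        Finset.sum_const, nsmul_eq_mul]
    have h2 : ∑ τ ∈ (univ.filter fun τ : Perm (Fin k) => τ.cycleType = π₀.cycleType),
        f (iota d τ) =
        ((univ.filter fun τ : Perm (Fin k) => τ.cycleType = π₀.cycleType).card : ℝ) * f π₀ := by
      rw [Finset.sum_congr rfl (fun τ hτ => hcl (iota d τ) π₀
          ((cycleType_iota d τ).trans (Finset.mem_filter.mp hτ).2)),
        Finset.sum_const, nsmul_eq_mul]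
    rw [h1, h2, card_class_transport k d _ hspπ₀ (fun a ha => Perm.two_le_of_mem_cycleType ha)]
    push_cast
    ring
  rw [hL, Finset.sum_congr rfl hstep, ← Finset.mul_sum]
  exact mul_le_mul_of_nonneg_left hR (Nat.cast_nonneg _)

/-- The square sum of a normalised character over support size `k`. -/
theorem sum_sp_sq_le {n : ℕ} {μ : YoungDiagram} (T : Filling n μ) (M : ℝ) (hM0 : 0 < M)
    (hM : (μ.rowLen 0 : ℝ) + μ.colLen 0 ≤ M) (k : ℕ) (hk : k ≤ n) :
    ∑ π ∈ (univ.filter fun π : Perm (Fin n) => sp π = k), rr T π ^ 2 ≤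
      (n : ℝ) ^ k * (M ^ k / (k.factorial : ℝ)) ^ 2 := by
  obtain ⟨d, rfl⟩ := Nat.exists_eq_add_of_le hk
  have h1 := sum_sp_le k d (fun π => rr T π ^ 2) (fun π => sq_nonneg _)
    (fun π σ h => by simp only [rr_of_cycleType_eq T π σ h])
  have h2 := l2_bound k d T M hM0 hM
  have hch : (0 : ℝ) ≤ ((k + d).choose k : ℝ) := Nat.cast_nonneg _
  refine h1.trans ((mul_le_mul_of_nonneg_left h2 hch).trans ?_)
  rw [← mul_assoc]
  refine mul_le_mul_of_nonneg_right ?_ (sq_nonneg _)
  have h3 : (k + d).choose k * k.factorial = (k + d).descFactorial k := by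
    rw [Nat.descFactorial_eq_factorial_mul_choose, mul_comm]
  have h4 : (k + d).descFactorial k ≤ (k + d) ^ k := Nat.descFactorial_le_pow _ _
  have h5 : ((k + d).choose k : ℝ) * (k.factorial : ℝ) = ((k + d).descFactorial k : ℝ) := by
    exact_mod_cast h3
  rw [h5]
  exact_mod_cast h4

end Vale.Agent.Lib.P197S
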