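import Vale.Agent.Lib.P197S.Basic

/-!
# P197S: the sharp multiplicative bound (blueprint Sec 4)
-/

open Equiv Finset

namespace Vale.Agent.Lib.P197S

open Vale.Agent.Lib.P197

variable {n : ℕ}

/-- The ratio of factorials against a power of `2 / n` (copy of the private lemma of `Multip`). -/
private lemma factorial_ratio_le' {n t : ℕ} (ht : 2 * t ≤ n) (hn : 0 < n) :
    (((n - t).factorial : ℕ) : ℝ) / ((n.factorial : ℕ) : ℝ) ≤ (2 / (n : ℝ)) ^ t := by
  have h1 : (n - t).factorial * (n - t + 1) ^ t ≤ n.factorial := by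
    have := @Nat.factorial_mul_pow_le_factorial (n - t) t
    rwa [Nat.sub_add_cancel (by omega)] at this
  have hn0 : (0 : ℝ) < n := by exact_mod_cast hn
  have hf0 : (0 : ℝ) < (n.factorial : ℝ) := by exact_mod_cast Nat.factorial_pos n
  have h2 : ((n : ℝ) / 2) ≤ ((n - t + 1 : ℕ) : ℝ) := by
    have : n ≤ 2 * (n - t + 1) := by omega
    have h3 : (n : ℝ) ≤ 2 * ((n - t + 1 : ℕ) : ℝ) := by exact_mod_cast this
    linarith
  rw [div_le_iff₀ hf0]
  have h4 : ((n - t).factorial : ℝ) * (((n - t + 1 : ℕ) : ℝ)) ^ t ≤ (n.factorial : ℝ) := by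
    exact_mod_cast h1
  have h5 : ((n : ℝ) / 2) ^ t ≤ (((n - t + 1 : ℕ) : ℝ)) ^ t :=
    pow_le_pow_left₀ (by positivity) h2 t
  have h6 : ((n - t).factorial : ℝ) * ((n : ℝ) / 2) ^ t ≤ (n.factorial : ℝ) :=
    le_trans (mul_le_mul_of_nonneg_left h5 (by positivity)) h4
  have h7 : (2 / (n : ℝ)) ^ t * ((n : ℝ) / 2) ^ t = 1 := by
    rw [← mul_pow]
    have : 2 / (n : ℝ) * ((n : ℝ) / 2) = 1 := by field_simp
    rw [this, one_pow]
  calc ((n - t).factorial : ℝ) = ((n - t).factorial : ℝ) * ((n : ℝ) / 2) ^ t * (2 / (n : ℝ)) ^ t := by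
        rw [mul_assoc, mul_comm (((n : ℝ) / 2) ^ t), h7, mul_one]
    _ ≤ (n.factorial : ℝ) * (2 / (n : ℝ)) ^ t :=
        mul_le_mul_of_nonneg_right h6 (by positivity)
    _ = (2 / (n : ℝ)) ^ t * (n.factorial : ℝ) := by ring

/-- The one-term estimate of the overlap part. -/
private lemma overlap_term {K₁ : ℕ} {r : Perm (Fin n) → ℝ} {u K θ Γ : ℝ}
    (H : SharpHyp n K₁ r u K θ Γ)
    (x y z : Perm (Fin n)) (hx : x.cycleType = {3}) (t : ℕ)
    (hz : z = x * y) (ht : t = (x.support ∩ y.support).card) (ht1 : 1 ≤ t)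
    (hsp : sp z ≤ 3 + sp y - t) (hrz : |r z| ≤ Bd u θ Γ z) (hN0 : (0 : ℝ) < n) :
    |r z| ≤ Γ ^ 2 * u ^ 4 * Bd u θ Γ y * ((n : ℝ) / K) ^ t := by
  subst hz
  have hΓ0 : 0 < Γ := lt_of_lt_of_le one_pos H.hΓ
  have hrk := rk_three_mul x y hx (by rw [← ht]; exact ht1)
  have hc3 := c3_mul_ge x y
  rw [← ht] at hrk hc3
  have ht3 : t ≤ 3 := by
    have hx3 : x.support.card = 3 := by
      rw [← Perm.sum_cycleType, hx]; simp
    rw [ht, ← hx3]
    exact card_le_card inter_subset_left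
  refine le_trans hrz ?_
  have hK0 := H.hK
  have hu0 := H.hu0
  have hθ0 := H.hθ0
  have hΓpow : Γ ^ sp (x * y) ≤ Γ ^ 2 * Γ ^ sp y := by
    rw [← pow_add]
    exact pow_le_pow_right₀ H.hΓ (by omega)
  have hmain : u ^ rk (x * y) * θ ^ c3 (x * y) * (K / n) ^ t ≤ u ^ 4 * (u ^ rk y * θ ^ c3 y) := by
    rw [← H.hθ, mul_pow]
    have e : u ^ rk (x * y) * θ ^ c3 (x * y) * ((u ^ 2) ^ t * θ ^ t) =
        u ^ (rk (x * y) + 2 * t) * θ ^ (c3 (x * y) + t) := by
      rw [pow_add, pow_add, pow_mul]; ring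
    have e' : u ^ 4 * (u ^ rk y * θ ^ c3 y) = u ^ (rk y + 4) * θ ^ c3 y := by
      rw [pow_add]; ring
    rw [e, e']
    exact mul_le_mul (pow_le_pow_of_le_one hu0.le H.hu1 hrk)
      (pow_le_pow_of_le_one hθ0.le H.hθ1 hc3) (by positivity) (by positivity)
  have hinv : ((n : ℝ) / K) ^ t * (K / n) ^ t = 1 := by
    rw [← mul_pow]
    have : (n : ℝ) / K * (K / n) = 1 := by field_simp
    rw [this, one_pow]
  have hmain' : u ^ rk (x * y) * θ ^ c3 (x * y) ≤
      u ^ 4 * (u ^ rk y * θ ^ c3 y) * ((n : ℝ) / K) ^ t := by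
    calc u ^ rk (x * y) * θ ^ c3 (x * y)
        = u ^ rk (x * y) * θ ^ c3 (x * y) * (K / n) ^ t * ((n : ℝ) / K) ^ t := by
          rw [mul_assoc (u ^ rk (x * y) * θ ^ c3 (x * y)), mul_comm ((K / (n : ℝ)) ^ t), hinv,
            mul_one]
      _ ≤ _ := mul_le_mul_of_nonneg_right hmain (by positivity)
  unfold Bd
  calc Γ ^ sp (x * y) * u ^ rk (x * y) * θ ^ c3 (x * y)
      = Γ ^ sp (x * y) * (u ^ rk (x * y) * θ ^ c3 (x * y)) := by ring
    _ ≤ (Γ ^ 2 * Γ ^ sp y) * (u ^ 4 * (u ^ rk y * θ ^ c3 y) * ((n : ℝ) / K) ^ t) :=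
        mul_le_mul hΓpow hmain' (by positivity) (by positivity)
    _ = _ := by ring

/-- The class-multiplication expansion, overlap part bounded, given the bound on smaller supports.
`P₀` is the fraction of `g` with `x.support ∩ g y.support = ∅`. -/
theorem overlap_bound {K₁ : ℕ} {r : Perm (Fin n) → ℝ} {u K θ Γ : ℝ}
    (H : SharpHyp n K₁ r u K θ Γ)
    (x y π : Perm (Fin n)) (hx : x.cycleType = {3}) (hπ : π.cycleType = {3} + y.cycleType)
    (hsp : sp y + 3 ≤ K₁)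
    (IH : ∀ τ : Perm (Fin n), sp τ < sp y + 3 → |r τ| ≤ Bd u θ Γ τ) :
    ∃ P₀ : ℝ, 1 - 3 * (K₁ : ℝ) / n ≤ P₀ ∧ P₀ ≤ 1 ∧
      |r x * r y - P₀ * r π| ≤ Γ ^ 2 * (u ^ 4 * ovW K₁ K) * Bd u θ Γ y := by
  classical
  have hn6 := H.hn
  have hK0 := H.hK
  have hu0 := H.hu0
  have hθ0 := H.hθ0
  have hΓ0 : 0 < Γ := lt_of_lt_of_le one_pos H.hΓ
  have hN0 : (0 : ℝ) < n := by exact_mod_cast (by omega : 0 < n)
  set F : ℝ := ((n.factorial : ℕ) : ℝ) with hF
  have hF0 : 0 < F := by rw [hF]; exact_mod_cast Nat.factorial_pos n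
  let z : Perm (Fin n) → Perm (Fin n) := fun g => x * (g * y * g⁻¹)
  let t : Perm (Fin n) → ℕ := fun g => (x.support ∩ y.support.map g.toEmbedding).card
  have hx3 : x.support.card = 3 := by
    rw [← Perm.sum_cycleType, hx]; simp
  have hk : y.support.card = sp y := by rw [sp, Perm.sum_cycleType]
  have ht3 : ∀ g, t g ≤ 3 := fun g => by
    calc t g ≤ x.support.card := card_le_card inter_subset_left
      _ = 3 := hx3
  have hBd0 : 0 ≤ Bd u θ Γ y := by unfold Bd; positivity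
  set B : ℝ := Γ ^ 2 * u ^ 4 * Bd u θ Γ y with hB
  have hB0 : 0 ≤ B := by positivity
  -- the fractions
  have hcount : ∀ j : ℕ, 1 ≤ j → j ≤ 3 → F⁻¹ *
      (((univ.filter fun g : Perm (Fin n) => j ≤ t g).card : ℕ) : ℝ) ≤
        (6 * (K₁ : ℝ) / n) ^ j := by
    intro j _ hj3
    have hc := count_overlap x.support y.support j (by omega)
    rw [hx3, hk] at hc
    have hc' : (((univ.filter fun g : Perm (Fin n) => j ≤ t g).card : ℕ) : ℝ) ≤
        ((3 * (sp y : ℝ)) ^ j) * (((n - j).factorial : ℕ) : ℝ) := by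
      exact_mod_cast hc
    have hr := factorial_ratio_le' (n := n) (t := j) (by omega) (by omega)
    have hsy : (sp y : ℝ) ≤ K₁ := by exact_mod_cast (by omega : sp y ≤ K₁)
    calc F⁻¹ * _ ≤ F⁻¹ * (((3 * (sp y : ℝ)) ^ j) * (((n - j).factorial : ℕ) : ℝ)) :=
          mul_le_mul_of_nonneg_left hc' (by positivity)
      _ = ((3 * (sp y : ℝ)) ^ j) * ((((n - j).factorial : ℕ) : ℝ) / F) := by
          rw [div_eq_mul_inv]; ring
      _ ≤ ((3 * (sp y : ℝ)) ^ j) * (2 / n) ^ j :=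
          mul_le_mul_of_nonneg_left hr (by positivity)
      _ = (3 * (sp y : ℝ) * (2 / n)) ^ j := by rw [← mul_pow]
      _ ≤ (6 * (K₁ : ℝ) / n) ^ j := by
          apply pow_le_pow_left₀ (by positivity)
          have : 3 * (sp y : ℝ) * (2 / n) = 6 * (sp y : ℝ) / n := by ring
          rw [this]
          apply div_le_div_of_nonneg_right _ hN0.le
          linarith
  -- the fraction with an overlap
  have hcount1 : F⁻¹ * (((univ.filter fun g : Perm (Fin n) => 1 ≤ t g).card : ℕ) : ℝ) ≤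
      3 * (K₁ : ℝ) / n := by
    have hc := count_overlap x.support y.support 1 (by omega)
    rw [hx3, hk] at hc
    have hc' : (((univ.filter fun g : Perm (Fin n) => 1 ≤ t g).card : ℕ) : ℝ) ≤
        ((3 * (sp y : ℝ)) ^ 1) * (((n - 1).factorial : ℕ) : ℝ) := by
      exact_mod_cast hc
    have hsy : (sp y : ℝ) ≤ K₁ := by exact_mod_cast (by omega : sp y ≤ K₁)
    have hfac : F = (n : ℝ) * (((n - 1).factorial : ℕ) : ℝ) := by
      rw [hF]
      have : n.factorial = n * (n - 1).factorial := (Nat.mul_factorial_pred (by omega)).symm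
      rw [this]; push_cast; ring
    have hf1 : (0 : ℝ) < (((n - 1).factorial : ℕ) : ℝ) := by
      exact_mod_cast Nat.factorial_pos _
    calc F⁻¹ * _ ≤ F⁻¹ * (((3 * (sp y : ℝ)) ^ 1) * (((n - 1).factorial : ℕ) : ℝ)) :=
          mul_le_mul_of_nonneg_left hc' (by positivity)
      _ = 3 * (sp y : ℝ) / n := by
          rw [hfac]; field_simp
      _ ≤ 3 * (K₁ : ℝ) / n := by
          apply div_le_div_of_nonneg_right _ hN0.le
          linarith
  -- the partition of the group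
  have hsplit : ((univ.filter fun g : Perm (Fin n) => t g = 0).card : ℝ) +
      (((univ.filter fun g : Perm (Fin n) => 1 ≤ t g).card : ℕ) : ℝ) = F := by
    have h := Finset.card_filter_add_card_filter_not (s := (univ : Finset (Perm (Fin n))))
      (fun g : Perm (Fin n) => t g = 0)
    have h2 : (univ.filter fun g : Perm (Fin n) => ¬ t g = 0) =
        (univ.filter fun g : Perm (Fin n) => 1 ≤ t g) := by
      ext g; simp only [mem_filter, mem_univ, true_and]; omega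
    rw [h2, card_univ, Fintype.card_perm, Fintype.card_fin] at h
    rw [hF]
    exact_mod_cast h
  refine ⟨F⁻¹ * ((univ.filter fun g : Perm (Fin n) => t g = 0).card : ℝ), ?_, ?_, ?_⟩
  · have : F⁻¹ * ((univ.filter fun g : Perm (Fin n) => t g = 0).card : ℝ) =
        1 - F⁻¹ * (((univ.filter fun g : Perm (Fin n) => 1 ≤ t g).card : ℕ) : ℝ) := by
      have hZ : ((univ.filter fun g : Perm (Fin n) => t g = 0).card : ℝ) =
          F - (((univ.filter fun g : Perm (Fin n) => 1 ≤ t g).card : ℕ) : ℝ) := by linarith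
      rw [hZ, mul_sub, inv_mul_cancel₀ hF0.ne']
    rw [this]
    linarith
  · have h1 : 0 ≤ (((univ.filter fun g : Perm (Fin n) => 1 ≤ t g).card : ℕ) : ℝ) :=
      Nat.cast_nonneg _
    have h2 : ((univ.filter fun g : Perm (Fin n) => t g = 0).card : ℝ) ≤ F := by linarith
    calc F⁻¹ * _ ≤ F⁻¹ * F := mul_le_mul_of_nonneg_left h2 (by positivity)
      _ = 1 := inv_mul_cancel₀ hF0.ne'
  -- the main estimate
  let W : ℕ → ℝ := fun j => B * ((n : ℝ) / K) ^ j
  have hW0 : ∀ j, 0 ≤ W j := fun j => by positivity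
  have hcm := H.cm
  have hbound : ∀ g, |r (z g) - (if t g = 0 then r π else 0)| ≤
      (if 1 ≤ t g then W 1 else 0) + (if 2 ≤ t g then W 2 else 0) +
      (if 3 ≤ t g then W 3 else 0) := by
    intro g
    have hconj : (g * y * g⁻¹).cycleType = y.cycleType := Perm.cycleType_conj
    have hsupp : (g * y * g⁻¹).support = y.support.map g.toEmbedding := support_conj g y
    by_cases h0 : t g = 0
    · have hemp : x.support ∩ (g * y * g⁻¹).support = ∅ := by
        rw [hsupp]; exact card_eq_zero.1 h0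
      have hct : (z g).cycleType = π.cycleType := by
        show (x * (g * y * g⁻¹)).cycleType = _
        rw [cycleType_mul_of_disjoint_support _ _ hemp, hconj, hx, hπ]
      rw [if_pos h0, hcm.1 _ _ hct, sub_self, abs_zero, h0]
      simp
    · have h1t : 1 ≤ t g := by omega
      rw [if_neg h0, sub_zero]
      have ht' : t g = (x.support ∩ (g * y * g⁻¹).support).card := by rw [hsupp]
      have hsp3 := sp_three_mul_le x (g * y * g⁻¹) hx
      rw [← ht', sp_conj] at hsp3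
      have hlt : sp (z g) < sp y + 3 := by
        show sp (x * (g * y * g⁻¹)) < _
        omega
      have hrz := IH _ hlt
      have hterm := overlap_term H x (g * y * g⁻¹) (z g) hx (t g) rfl ht' h1t (by
        show sp (x * (g * y * g⁻¹)) ≤ _
        rw [sp_conj]; omega) hrz hN0
      have hBdc : Bd u θ Γ (g * y * g⁻¹) = Bd u θ Γ y := by
        unfold Bd
        rw [sp_conj, rk_conj, c3_conj]
      rw [hBdc] at hterm
      have hc : |r (z g)| ≤ W (t g) := hterm
      have h3 := ht3 g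
      have h1' := hW0 1
      have h2' := hW0 2
      have h3' := hW0 3
      have hcases : t g = 1 ∨ t g = 2 ∨ t g = 3 := by omega
      rcases hcases with hv | hv | hv
      · rw [hv] at hc ⊢
        simp only [show (1 : ℕ) ≤ 1 by omega, if_true, show ¬ (2 : ℕ) ≤ 1 by omega, if_false,
          show ¬ (3 : ℕ) ≤ 1 by omega]
        linarith
      · rw [hv] at hc ⊢
        simp only [show (1 : ℕ) ≤ 2 by omega, show (2 : ℕ) ≤ 2 by omega, if_true,
          show ¬ (3 : ℕ) ≤ 2 by omega, if_false]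
        linarith
      · rw [hv] at hc ⊢
        simp only [show (1 : ℕ) ≤ 3 by omega, show (2 : ℕ) ≤ 3 by omega,
          show (3 : ℕ) ≤ 3 by omega, if_true]
        linarith
  -- the expansion
  have hsum : r x * r y - (F⁻¹ * ((univ.filter fun g : Perm (Fin n) => t g = 0).card : ℝ)) * r π =
      F⁻¹ * ∑ g : Perm (Fin n), (r (z g) - (if t g = 0 then r π else 0)) := by
    rw [hcm.2 x y, sum_sub_distrib, sum_ite, sum_const_zero, add_zero, sum_const, nsmul_eq_mul,
      mul_sub]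
    ring
  have hsumle : |∑ g : Perm (Fin n), (r (z g) - (if t g = 0 then r π else 0))| ≤
      (((univ.filter fun g : Perm (Fin n) => 1 ≤ t g).card : ℕ) : ℝ) * W 1 +
      (((univ.filter fun g : Perm (Fin n) => 2 ≤ t g).card : ℕ) : ℝ) * W 2 +
      (((univ.filter fun g : Perm (Fin n) => 3 ≤ t g).card : ℕ) : ℝ) * W 3 := by
    refine le_trans (abs_sum_le_sum_abs _ _) (le_trans (sum_le_sum fun g _ => hbound g) ?_)
    rw [sum_add_distrib, sum_add_distrib]
    simp only [sum_ite, sum_const_zero, add_zero, sum_const, nsmul_eq_mul]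
    exact le_refl _
  have hterm : ∀ j : ℕ, 1 ≤ j → j ≤ 3 →
      F⁻¹ * ((((univ.filter fun g : Perm (Fin n) => j ≤ t g).card : ℕ) : ℝ) * W j) ≤
        B * (6 * (K₁ : ℝ) / K) ^ j := by
    intro j h1 h3
    have hc := hcount j h1 h3
    calc F⁻¹ * ((((univ.filter fun g : Perm (Fin n) => j ≤ t g).card : ℕ) : ℝ) * W j)
        = (F⁻¹ * (((univ.filter fun g : Perm (Fin n) => j ≤ t g).card : ℕ) : ℝ)) * W j := by ring
      _ ≤ (6 * (K₁ : ℝ) / n) ^ j * W j := mul_le_mul_of_nonneg_right hc (hW0 j)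
      _ = B * (6 * (K₁ : ℝ) / K) ^ j := by
          show (6 * (K₁ : ℝ) / n) ^ j * (B * ((n : ℝ) / K) ^ j) = _
          have : (6 * (K₁ : ℝ) / K) = (6 * (K₁ : ℝ) / n) * ((n : ℝ) / K) := by field_simp
          rw [this, mul_pow]; ring
  rw [hsum, abs_mul, abs_of_pos (by positivity : 0 < F⁻¹)]
  have h1 := hterm 1 (by omega) (by omega)
  have h2 := hterm 2 (by omega) (by omega)
  have h3 := hterm 3 (by omega) (by omega)
  have hfin : Γ ^ 2 * (u ^ 4 * ovW K₁ K) * Bd u θ Γ y = B * (6 * (K₁ : ℝ) / K) ^ 1 +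
      B * (6 * (K₁ : ℝ) / K) ^ 2 + B * (6 * (K₁ : ℝ) / K) ^ 3 := by
    rw [hB]; unfold ovW; ring
  rw [hfin]
  calc F⁻¹ * _ ≤ F⁻¹ * (((((univ.filter fun g : Perm (Fin n) => 1 ≤ t g).card : ℕ) : ℝ) * W 1 +
      (((univ.filter fun g : Perm (Fin n) => 2 ≤ t g).card : ℕ) : ℝ) * W 2 +
      (((univ.filter fun g : Perm (Fin n) => 3 ≤ t g).card : ℕ) : ℝ) * W 3)) :=
        mul_le_mul_of_nonneg_left hsumle (by positivity)
    _ = F⁻¹ * ((((univ.filter fun g : Perm (Fin n) => 1 ≤ t g).card : ℕ) : ℝ) * W 1) +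
        F⁻¹ * ((((univ.filter fun g : Perm (Fin n) => 2 ≤ t g).card : ℕ) : ℝ) * W 2) +
        F⁻¹ * ((((univ.filter fun g : Perm (Fin n) => 3 ≤ t g).card : ℕ) : ℝ) * W 3) := by ring
    _ ≤ _ := by linarith

private lemma SharpHyp.n_pos {K₁ : ℕ} {r : Perm (Fin n) → ℝ} {u K θ Γ : ℝ}
    (H : SharpHyp n K₁ r u K θ Γ) : (0 : ℝ) < n := by
  have := H.hn
  exact_mod_cast (by omega : 0 < n)

private lemma SharpHyp.Kn_pos {K₁ : ℕ} {r : Perm (Fin n) → ℝ} {u K θ Γ : ℝ}
    (H : SharpHyp n K₁ r u K θ Γ) : 0 < K / n := div_pos H.hK H.n_pos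

private lemma SharpHyp.Γ_pos {K₁ : ℕ} {r : Perm (Fin n) → ℝ} {u K θ Γ : ℝ}
    (H : SharpHyp n K₁ r u K θ Γ) : 0 < Γ := by
  have := H.hΓ
  linarith

private lemma ovW_nonneg {K₁ : ℕ} {K : ℝ} (hK : 0 < K) : 0 ≤ ovW K₁ K := by
  unfold ovW
  positivity

private lemma Bd_nonneg {K₁ : ℕ} {r : Perm (Fin n) → ℝ} {u K θ Γ : ℝ}
    (H : SharpHyp n K₁ r u K θ Γ) (π : Perm (Fin n)) : 0 ≤ Bd u θ Γ π := by
  have := H.Γ_pos
  have := H.hu0
  have := H.hθ0
  unfold Bd
  positivity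

private lemma etaS_nonneg {K₁ : ℕ} {r : Perm (Fin n) → ℝ} {u K θ Γ : ℝ}
    (H : SharpHyp n K₁ r u K θ Γ) : 0 ≤ etaS n K₁ u K Γ := by
  have h0 := H.n_pos
  have h1 := H.hK
  have h2 := H.hu0
  have h3 : 0 ≤ ovW K₁ K := ovW_nonneg H.hK
  have h4 := H.Γ_pos
  unfold etaS
  positivity

/-- The bound of a product with a fresh three-cycle. -/
private lemma Bd_factor {K₁ : ℕ} {r : Perm (Fin n) → ℝ} {u K θ Γ : ℝ}
    (H : SharpHyp n K₁ r u K θ Γ) (x y : Perm (Fin n)) (hx : x.cycleType = {3})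
    (hd : x.support ∩ y.support = ∅) :
    Bd u θ Γ (x * y) = Γ ^ 3 * (K / n) * Bd u θ Γ y := by
  unfold Bd
  rw [sp_of_factor x y hx hd, rk_of_factor x y hx hd, c3_of_factor x y hx hd, ← H.hθ]
  ring

private lemma cond_pos {K₁ : ℕ} {r : Perm (Fin n) → ℝ} {u K θ Γ : ℝ}
    (H : SharpHyp n K₁ r u K θ Γ) : 0 < 1 - 3 * (K₁ : ℝ) / n := by
  have hc := H.cond
  have h0 := H.n_pos
  have h1 := H.hK
  have h2 := H.hu0
  have h3 : 0 ≤ ovW K₁ K := ovW_nonneg H.hK
  have h4 := H.Γ_pos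
  have h5 : 0 ≤ Γ ^ 2 * (u ^ 4 * (n / K)) * ovW K₁ K := by positivity
  have h6 : 0 < Γ ^ 3 := by positivity
  by_contra hneg
  push Not at hneg
  have h7 : Γ ^ 3 * (1 - 3 * (K₁ : ℝ) / n) ≤ 0 := mul_nonpos_of_nonneg_of_nonpos h6.le hneg
  have e : (3 * (K₁ : ℝ) / n) = 3 * K₁ / n := rfl
  linarith

/-- **Sharp bound.** -/
theorem sharp_bound {K₁ : ℕ} {r : Perm (Fin n) → ℝ} {u K θ Γ : ℝ}
    (H : SharpHyp n K₁ r u K θ Γ) (π : Perm (Fin n)) (hπ : sp π ≤ K₁) :
    |r π| ≤ Bd u θ Γ π := by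
  have main : ∀ s : ℕ, ∀ π : Perm (Fin n), sp π = s → sp π ≤ K₁ → |r π| ≤ Bd u θ Γ π := by
    intro s
    induction s using Nat.strong_induction_on with
    | _ s ih =>
      intro π hs hπ
      have hu0 := H.hu0
      have hθ0 := H.hθ0
      have hΓ0 := H.Γ_pos
      by_cases hc : c3 π = 0
      · refine le_trans (H.base π hπ) ?_
        unfold Bd
        rw [hc, pow_zero, mul_one]
        have h1 : 1 ≤ Γ ^ sp π := one_le_pow₀ H.hΓ
        have h2 : 0 ≤ u ^ rk π := by positivity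
        nlinarith
      · obtain ⟨x, y, hx, rfl, hd⟩ := exists_three_factor π (by omega)
        have hsp := sp_of_factor x y hx hd
        have hct : (x * y).cycleType = {3} + y.cycleType := by
          rw [cycleType_mul_of_disjoint_support _ _ hd, hx]
        have IH : ∀ τ : Perm (Fin n), sp τ < sp y + 3 → |r τ| ≤ Bd u θ Γ τ := by
          intro τ hτ
          exact ih (sp τ) (by omega) τ rfl (by omega)
        obtain ⟨P₀, hP1, hP2, hP3⟩ := overlap_bound H x y (x * y) hx hct (by omega) IH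
        have hby : |r y| ≤ Bd u θ Γ y := IH y (by omega)
        have hbx : |r x| ≤ K / n := H.h3 x hx
        have hBy0 : 0 ≤ Bd u θ Γ y := Bd_nonneg H y
        have hcp : 0 < 1 - 3 * (K₁ : ℝ) / n := cond_pos H
        have hP0 : 0 < P₀ := by linarith
        have hKn : 0 < K / n := H.Kn_pos
        have hn0 := H.n_pos
        have hK0 := H.hK
        have hW : 0 ≤ ovW K₁ K := ovW_nonneg H.hK
        -- `P₀ |r π| ≤ |r x| |r y| + overlap`
        have h1 : P₀ * |r (x * y)| ≤ K / n * Bd u θ Γ y +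
            Γ ^ 2 * (u ^ 4 * ovW K₁ K) * Bd u θ Γ y := by
          have e1 : P₀ * |r (x * y)| = |P₀ * r (x * y)| := by
            rw [abs_mul, abs_of_pos hP0]
          have e2 : |P₀ * r (x * y)| ≤ |r x * r y| + |r x * r y - P₀ * r (x * y)| := by
            have := abs_sub_abs_le_abs_sub (P₀ * r (x * y)) (r x * r y)
            rw [abs_sub_comm] at this
            linarith
          have e3 : |r x * r y| ≤ K / n * Bd u θ Γ y := by
            rw [abs_mul]
            exact mul_le_mul hbx hby (abs_nonneg _) hKn.le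
          rw [e1]
          linarith
        -- the condition
        have h2 : K / n * Bd u θ Γ y + Γ ^ 2 * (u ^ 4 * ovW K₁ K) * Bd u θ Γ y ≤
            (K / n * Bd u θ Γ y) * (Γ ^ 3 * (1 - 3 * (K₁ : ℝ) / n)) := by
          have e : K / n * Bd u θ Γ y + Γ ^ 2 * (u ^ 4 * ovW K₁ K) * Bd u θ Γ y =
              (K / n * Bd u θ Γ y) * (1 + Γ ^ 2 * (u ^ 4 * (n / K)) * ovW K₁ K) := by
            field_simp
          rw [e]
          exact mul_le_mul_of_nonneg_left H.cond (by positivity)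
        have h3 : (K / n * Bd u θ Γ y) * (Γ ^ 3 * (1 - 3 * (K₁ : ℝ) / n)) ≤
            (K / n * Bd u θ Γ y) * (Γ ^ 3 * P₀) :=
          mul_le_mul_of_nonneg_left
            (mul_le_mul_of_nonneg_left hP1 (by positivity)) (by positivity)
        have h4 : P₀ * |r (x * y)| ≤ P₀ * (Γ ^ 3 * (K / n) * Bd u θ Γ y) := by
          have e : (K / n * Bd u θ Γ y) * (Γ ^ 3 * P₀) = P₀ * (Γ ^ 3 * (K / n) * Bd u θ Γ y) := by
            ring
          linarith
        rw [Bd_factor H x y hx hd]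
        exact le_of_mul_le_mul_left h4 hP0
  exact main _ π rfl hπ

private lemma sp_rep (π : Perm (Fin n)) {m : ℕ} (h : π.cycleType = Multiset.replicate m 3) :
    sp π = 3 * m := by
  simp [sp, h, mul_comm]

private lemma rk_rep (π : Perm (Fin n)) {m : ℕ} (h : π.cycleType = Multiset.replicate m 3) :
    rk π = 2 * m := by
  simp only [rk, h, Multiset.sum_replicate, Multiset.card_replicate, smul_eq_mul]
  omega

private lemma c3_rep (π : Perm (Fin n)) {m : ℕ} (h : π.cycleType = Multiset.replicate m 3) :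
    c3 π = m := by
  simp [c3, h]

/-- The bound at type `3^m`. -/
theorem Bd_replicate (u θ Γ K : ℝ) (hθ : u ^ 2 * θ = K / n) (π : Perm (Fin n)) (m : ℕ)
    (h : π.cycleType = Multiset.replicate m 3) : Bd u θ Γ π = Γ ^ (3 * m) * (K / n) ^ m := by
  unfold Bd
  rw [sp_rep π h, rk_rep π h, c3_rep π h, ← hθ, mul_pow, pow_mul u 2 m]
  ring

/-- One multiplicative step at types `3^m`. -/
theorem three_step_sharp {K₁ : ℕ} {r : Perm (Fin n) → ℝ} {u K θ Γ : ℝ}
    (H : SharpHyp n K₁ r u K θ Γ) (m : ℕ) (hm : 3 * (m + 1) ≤ K₁) (x y π : Perm (Fin n))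
    (hx : x.cycleType = {3}) (hy : y.cycleType = Multiset.replicate m 3)
    (hπ : π.cycleType = Multiset.replicate (m + 1) 3) :
    |r π - r x * r y| ≤ Γ ^ (3 * (m + 1)) * (K / n) ^ (m + 1) * etaS n K₁ u K Γ := by
  have hspy : sp y = 3 * m := sp_rep y hy
  have hct : π.cycleType = {3} + y.cycleType := by
    rw [hπ, hy, Multiset.replicate_succ]
    rfl
  have IH : ∀ τ : Perm (Fin n), sp τ < sp y + 3 → |r τ| ≤ Bd u θ Γ τ := by
    intro τ hτ
    exact sharp_bound H τ (by omega)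
  obtain ⟨P₀, hP1, hP2, hP3⟩ := overlap_bound H x y π hx hct (by omega) IH
  have hBy : Bd u θ Γ y = Γ ^ (3 * m) * (K / n) ^ m := Bd_replicate u θ Γ K H.hθ y m hy
  have hBπ : Bd u θ Γ π = Γ ^ (3 * (m + 1)) * (K / n) ^ (m + 1) :=
    Bd_replicate u θ Γ K H.hθ π (m + 1) hπ
  have hrπ : |r π| ≤ Γ ^ (3 * (m + 1)) * (K / n) ^ (m + 1) := by
    rw [← hBπ]
    exact sharp_bound H π (by rw [sp_rep π hπ]; exact hm)
  have hn0 := H.n_pos
  have hK0 := H.hK
  have hu0 := H.hu0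
  have hΓ0 := H.Γ_pos
  have hKn := H.Kn_pos
  have hW : 0 ≤ ovW K₁ K := ovW_nonneg H.hK
  set Bπ : ℝ := Γ ^ (3 * (m + 1)) * (K / n) ^ (m + 1) with hBπdef
  have hBπ0 : 0 ≤ Bπ := by positivity
  -- split
  have e : r π - r x * r y = (1 - P₀) * r π - (r x * r y - P₀ * r π) := by ring
  rw [e]
  refine le_trans (abs_sub _ _) ?_
  have t1 : |(1 - P₀) * r π| ≤ 3 * (K₁ : ℝ) / n * Bπ := by
    rw [abs_mul, abs_of_nonneg (by linarith : 0 ≤ 1 - P₀)]
    exact mul_le_mul (by linarith) hrπ (abs_nonneg _) (by positivity)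
  have t2 : |r x * r y - P₀ * r π| ≤ Γ ^ 2 * (u ^ 4 * (n / K)) * ovW K₁ K * Bπ := by
    refine le_trans hP3 ?_
    rw [hBy]
    have e2 : Bπ = Γ ^ 3 * (K / n) * (Γ ^ (3 * m) * (K / n) ^ m) := by
      rw [hBπdef]; ring
    rw [e2]
    have e3 : Γ ^ 2 * (u ^ 4 * (n / K)) * ovW K₁ K * (Γ ^ 3 * (K / n) * (Γ ^ (3 * m) * (K / n) ^ m)) =
        Γ ^ 3 * (Γ ^ 2 * (u ^ 4 * ovW K₁ K) * (Γ ^ (3 * m) * (K / n) ^ m)) := by
      field_simp
    rw [e3]
    have h1 : 1 ≤ Γ ^ 3 := one_le_pow₀ H.hΓ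
    have h2 : 0 ≤ Γ ^ 2 * (u ^ 4 * ovW K₁ K) * (Γ ^ (3 * m) * (K / n) ^ m) := by positivity
    nlinarith
  unfold etaS
  have e4 : Bπ * (3 * (K₁ : ℝ) / n + Γ ^ 2 * (u ^ 4 * (n / K)) * ovW K₁ K) =
      3 * (K₁ : ℝ) / n * Bπ + Γ ^ 2 * (u ^ 4 * (n / K)) * ovW K₁ K * Bπ := by ring
  rw [e4]
  linarith

/-- Powers at types `3^m`. -/
theorem three_pow_approx {K₁ : ℕ} {r : Perm (Fin n) → ℝ} {u K θ Γ : ℝ}
    (H : SharpHyp n K₁ r u K θ Γ) (h1 : r 1 = 1) (m : ℕ) (hm : 3 * m ≤ K₁) (π x : Perm (Fin n))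
    (hπ : π.cycleType = Multiset.replicate m 3) (hx : x.cycleType = {3}) :
    |r π - r x ^ m| ≤ m * (Γ ^ (3 * m) * (K / n) ^ m * etaS n K₁ u K Γ) := by
  induction m generalizing π with
  | zero =>
    have : π = 1 := by
      rw [← Perm.cycleType_eq_zero]
      simpa using hπ
    subst this
    simp [h1]
  | succ m ih =>
    have hc : 1 ≤ c3 π := by rw [c3_rep π hπ]; omega
    obtain ⟨x', y, hx', rfl, hd⟩ := exists_three_factor π hc
    have hct := cycleType_mul_of_disjoint_support _ _ hd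
    have hy : y.cycleType = Multiset.replicate m 3 := by
      rw [hπ, hx', Multiset.replicate_succ] at hct
      have h2 : (3 : ℕ) ::ₘ Multiset.replicate m 3 = {3} + y.cycleType := hct
      rw [Multiset.singleton_add] at h2
      exact (Multiset.cons_inj_right 3 |>.1 h2).symm
    have hstep := three_step_sharp H m hm x y (x' * y) hx hy hπ
    have hind := ih (by omega) y hy
    have hKn := H.Kn_pos
    have hΓ0 := H.Γ_pos
    have hη := etaS_nonneg H
    have hbx : |r x| ≤ K / n := H.h3 x hx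
    set η := etaS n K₁ u K Γ with hηdef
    have e : r (x' * y) - r x ^ (m + 1) =
        (r (x' * y) - r x * r y) + r x * (r y - r x ^ m) := by
      rw [pow_succ]; ring
    rw [e]
    refine le_trans (abs_add_le _ _) ?_
    have t2 : |r x * (r y - r x ^ m)| ≤ K / n * (m * (Γ ^ (3 * m) * (K / n) ^ m * η)) := by
      rw [abs_mul]
      exact mul_le_mul hbx hind (abs_nonneg _) hKn.le
    have t3 : K / n * (m * (Γ ^ (3 * m) * (K / n) ^ m * η)) ≤
        m * (Γ ^ (3 * (m + 1)) * (K / n) ^ (m + 1) * η) := by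
      have hΓ3 : Γ ^ (3 * m) ≤ Γ ^ (3 * (m + 1)) := pow_le_pow_right₀ H.hΓ (by omega)
      have e5 : K / n * (m * (Γ ^ (3 * m) * (K / n) ^ m * η)) =
          m * (Γ ^ (3 * m) * (K / n) ^ (m + 1) * η) := by
        rw [pow_succ]; ring
      rw [e5]
      apply mul_le_mul_of_nonneg_left _ (Nat.cast_nonneg m)
      apply mul_le_mul_of_nonneg_right _ hη
      exact mul_le_mul_of_nonneg_right hΓ3 (by positivity)
    have e6 : ((m + 1 : ℕ) : ℝ) * (Γ ^ (3 * (m + 1)) * (K / n) ^ (m + 1) * η) =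
        Γ ^ (3 * (m + 1)) * (K / n) ^ (m + 1) * η +
          m * (Γ ^ (3 * (m + 1)) * (K / n) ^ (m + 1) * η) := by
      push_cast; ring
    rw [e6]
    linarith

end Vale.Agent.Lib.P197S
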